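import Mathlib

/-!
Bigraded pieces of `B[y₀, y₁][Z₀, Z₁]`, evaluation along a pair of forms, its kernel and image.
-/

set_option autoImplicit false

noncomputable section

namespace Crest.Agent.R258

open MvPolynomial

/-- Forms in `y₀, y₁`. -/
abbrev CB (B : Type) [CommRing B] : Type := MvPolynomial (Fin 2) B
/-- Polynomials in the frame symbols with coefficients in forms. -/
abbrev AB (B : Type) [CommRing B] : Type := MvPolynomial (Fin 2) (CB B)

variable {B B' : Type} [CommRing B] [CommRing B']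

theorem hom_induction {d : ℕ} {P : CB B → Prop} (h0 : P 0) (hadd : ∀ a b, P a → P b → P (a + b))
    (hmono : ∀ (c : B) (i j : ℕ), i + j = d → P (C c * X 0 ^ i * X 1 ^ j)) {a : CB B}
    (ha : a.IsHomogeneous d) : P a := by
  rw [a.as_sum]
  apply Finset.sum_induction _ P hadd h0
  intro m hm
  have h1 : monomial m (coeff m a) = C (coeff m a) * X 0 ^ (m 0) * X 1 ^ (m 1) := by
    rw [monomial_eq, Finsupp.prod_fintype _ _ (by simp), Fin.prod_univ_two, mul_assoc]
  rw [h1]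
  apply hmono
  have h2 : m.degree = d := by
    by_contra h
    exact (mem_support_iff.mp hm) (ha.coeff_eq_zero h)
  rw [Finsupp.degree_eq_sum, Fin.sum_univ_two] at h2
  exact h2

theorem hom_mono (c : B) (i j : ℕ) : (C c * X 0 ^ i * X 1 ^ j : CB B).IsHomogeneous (i + j) :=
  (isHomogeneous_C_mul_X_pow c 0 i).mul (isHomogeneous_X_pow 1 j)

theorem hom_cast {a : CB B} {d e : ℕ} (ha : a.IsHomogeneous d) (h : d = e) : a.IsHomogeneous e :=
  h ▸ ha

theorem hom_split (N e : ℕ) (hN : N ≤ e + 1) {a : CB B} (ha : a.IsHomogeneous (N + e)) :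
    ∃ b0 b1 : CB B, b0.IsHomogeneous e ∧ b1.IsHomogeneous e ∧ a = X 0 ^ N * b0 + X 1 ^ N * b1 := by
  refine hom_induction (P := fun a => ∃ b0 b1 : CB B, b0.IsHomogeneous e ∧ b1.IsHomogeneous e ∧
    a = X 0 ^ N * b0 + X 1 ^ N * b1) ?_ ?_ ?_ ha
  · exact ⟨0, 0, isHomogeneous_zero _ _ _, isHomogeneous_zero _ _ _, by simp⟩
  · rintro a b ⟨a0, a1, h0, h1, rfl⟩ ⟨b0, b1, h0', h1', rfl⟩
    exact ⟨a0 + b0, a1 + b1, h0.add h0', h1.add h1', by ring⟩
  · intro c i j hij
    by_cases hi : N ≤ i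
    · obtain ⟨i', rfl⟩ := Nat.exists_eq_add_of_le hi
      exact ⟨C c * X 0 ^ i' * X 1 ^ j, 0, hom_cast (hom_mono c i' j) (by omega),
        isHomogeneous_zero _ _ _, by ring⟩
    · obtain ⟨j', rfl⟩ := Nat.exists_eq_add_of_le (show N ≤ j by omega)
      exact ⟨0, C c * X 0 ^ i * X 1 ^ j', isHomogeneous_zero _ _ _,
        hom_cast (hom_mono c i j') (by omega), by ring⟩

theorem hom_quot {p a c : CB B} {d e : ℕ} (hp : p.IsHomogeneous d) (ha : a.IsHomogeneous (d + e))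
    (h : a = p * c) : ∃ c' : CB B, c'.IsHomogeneous e ∧ a = p * c' := by
  classical
  let _ := MvPolynomial.gradedAlgebra (σ := Fin 2) (R := B)
  refine ⟨homogeneousComponent e c, homogeneousComponent_isHomogeneous _ _, ?_⟩
  have h1 := DirectSum.coe_decompose_mul_add_of_left_mem (homogeneousSubmodule (Fin 2) B)
    (a := p) (b := c) (i := d) (j := e) hp
  rw [← h] at h1
  have h2 : ∀ (q : CB B) (n : ℕ), (DirectSum.decompose (homogeneousSubmodule (Fin 2) B) q n : CB B)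
      = homogeneousComponent n q := fun q n => decomposition.decompose'_apply q n
  rw [h2, h2, homogeneousComponent_eq_self ha] at h1
  exact h1

/-- The form with the given list of coefficients. -/
def frmL : List B → CB B
  | [] => 0
  | c :: l => C c * X 0 ^ l.length + X 1 * frmL l

theorem frm_hom : ∀ (c : B) (l : List B), (frmL (c :: l)).IsHomogeneous l.length
  | c, [] => by simpa [frmL] using isHomogeneous_C (Fin 2) c
  | c, c' :: l => by
    rw [frmL]
    refine (isHomogeneous_C_mul_X_pow c 0 _).add ?_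
    exact hom_cast ((isHomogeneous_X _ 1).mul (frm_hom c' l)) (by simp [add_comm])

theorem map_frm (f : B →+* B') : ∀ l : List B, map f (frmL l) = frmL (l.map f)
  | [] => by simp [frmL]
  | c :: l => by simp [frmL, map_frm f l]

/-- Sections of `Symⁿ (O ⊕ O(4)) ⊗ O(w)` over `Spec B × ℙ¹`. -/
inductive V : ℕ → ℕ → AB B → Prop
  | C (w : ℕ) (a : CB B) : a.IsHomogeneous w → V 0 w (C a)
  | zero (n w : ℕ) : V n w 0
  | add {n w : ℕ} {F G : AB B} : V n w F → V n w G → V n w (F + G)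
  | Z0 {n w : ℕ} {F : AB B} : V n w F → V (n + 1) w (X 0 * F)
  | Z1 {n w : ℕ} {F : AB B} : V n (w + 4) F → V (n + 1) w (X 1 * F)

namespace V

theorem cast {n w n' w' : ℕ} {F : AB B} (h : V n w F) (hn : n = n') (hw : w = w') : V n' w' F :=
  hn ▸ hw ▸ h

theorem C_mul {n w d : ℕ} {F : AB B} {c : CB B} (hc : c.IsHomogeneous d) (h : V n w F) :
    V n (w + d) (MvPolynomial.C c * F) := by
  induction h with
  | C w a ha => rw [← map_mul]; exact V.C _ _ (hom_cast (hc.mul ha) (add_comm _ _))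
  | zero n w => rw [mul_zero]; exact V.zero _ _
  | add _ _ ih1 ih2 => rw [mul_add]; exact ih1.add ih2
  | Z0 _ ih => rw [mul_left_comm]; exact ih.Z0
  | Z1 _ ih => rw [mul_left_comm]; exact (ih.cast rfl (by ring)).Z1

theorem CC_mul {n w : ℕ} {F : AB B} (c : B) (h : V n w F) :
    V n w (MvPolynomial.C (MvPolynomial.C c) * F) :=
  h.C_mul (isHomogeneous_C _ c)

theorem neg {n w : ℕ} {F : AB B} (h : V n w F) : V n w (-F) := by
  have := h.CC_mul (-1)
  rw [map_neg, map_neg, map_one, map_one] at this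
  convert this using 1
  ring

theorem sub {n w : ℕ} {F G : AB B} (h : V n w F) (h' : V n w G) : V n w (F - G) := by
  rw [sub_eq_add_neg]; exact h.add h'.neg

theorem mul {n w n' w' : ℕ} {F G : AB B} (h : V n w F) (h' : V n' w' G) :
    V (n' + n) (w + w') (F * G) := by
  induction h with
  | C w a ha => exact (h'.C_mul ha).cast rfl (add_comm _ _)
  | zero n w => rw [zero_mul]; exact V.zero _ _
  | add _ _ ih1 ih2 => rw [add_mul]; exact ih1.add ih2
  | Z0 _ ih => rw [mul_assoc]; exact ih.Z0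
  | Z1 _ ih => rw [mul_assoc]; exact (ih.cast rfl (by ring)).Z1

theorem lin {d : ℕ} {p q : CB B} (hp : p.IsHomogeneous d) (hq : q.IsHomogeneous (d + 4)) :
    V 1 d (MvPolynomial.C p * X 0 + MvPolynomial.C q * X 1 : AB B) := by
  rw [mul_comm, mul_comm (MvPolynomial.C q)]
  exact (V.C _ _ hp).Z0.add (V.C _ _ hq).Z1

theorem C_Z0_pow {w : ℕ} {a : CB B} (ha : a.IsHomogeneous w) (n : ℕ) :
    V n w (MvPolynomial.C a * X 0 ^ n : AB B) := by
  induction n with
  | zero => simpa using V.C _ _ ha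
  | succ n ih => rw [pow_succ', mul_left_comm]; exact ih.Z0

theorem isHom {n w : ℕ} {F : AB B} (h : V n w F) : F.IsHomogeneous n := by
  induction h with
  | C w a ha => exact isHomogeneous_C _ a
  | zero n w => exact isHomogeneous_zero _ _ _
  | add _ _ ih1 ih2 => exact ih1.add ih2
  | Z0 _ ih => exact hom_cast ((isHomogeneous_X _ 0).mul ih) (add_comm _ _)
  | Z1 _ ih => exact hom_cast ((isHomogeneous_X _ 1).mul ih) (add_comm _ _)

theorem normal {n w : ℕ} {F : AB B} (h : V n w F) : ∃ (a : CB B) (G : AB B), a.IsHomogeneous w ∧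
    F = MvPolynomial.C a * X 0 ^ n + X 1 * G ∧ (n = 0 → G = 0) ∧
    ∀ m, n = m + 1 → V m (w + 4) G := by
  induction h with
  | C w a ha => exact ⟨a, 0, ha, by simp, fun _ => rfl, fun m _ => V.zero _ _⟩
  | zero n w =>
    exact ⟨0, 0, isHomogeneous_zero _ _ _, by simp, fun _ => rfl, fun m _ => V.zero _ _⟩
  | add _ _ ih1 ih2 =>
    obtain ⟨a, G, ha, rfl, h0, h1⟩ := ih1
    obtain ⟨a', G', ha', rfl, h0', h1'⟩ := ih2
    exact ⟨a + a', G + G', ha.add ha', by rw [map_add]; ring,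
      fun h => by rw [h0 h, h0' h, add_zero], fun m h => (h1 m h).add (h1' m h)⟩
  | @Z0 n w F _ ih =>
    obtain ⟨a, G, ha, rfl, h0, h1⟩ := ih
    refine ⟨a, X 0 * G, ha, by ring, fun h => absurd h (by omega), fun m h => ?_⟩
    rcases n with _ | n
    · rw [h0 rfl, mul_zero]; exact V.zero _ _
    · obtain rfl : m = n + 1 := by omega
      exact (h1 n rfl).Z0
  | @Z1 n w F hF _ =>
    refine ⟨0, F, isHomogeneous_zero _ _ _, by simp, fun h => absurd h (by omega), fun m h => ?_⟩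
    obtain rfl : m = n := by omega
    exact hF

theorem zero_iff {w : ℕ} {F : AB B} (h : V 0 w F) :
    ∃ a : CB B, a.IsHomogeneous w ∧ F = MvPolynomial.C a := by
  obtain ⟨a, G, ha, rfl, h0, -⟩ := h.normal
  exact ⟨a, ha, by simp [h0 rfl]⟩

theorem succ_iff {n w : ℕ} {F : AB B} (h : V (n + 1) w F) : ∃ (a : CB B) (G : AB B),
    a.IsHomogeneous w ∧ V n (w + 4) G ∧ F = MvPolynomial.C a * X 0 ^ (n + 1) + X 1 * G := by
  obtain ⟨a, G, ha, rfl, -, h1⟩ := h.normal
  exact ⟨a, G, ha, h1 n rfl, rfl⟩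

theorem map_hom (Φ : AB B →+* AB B') (f : B →+* B') {p q r : CB B'} (hp : p.IsHomogeneous 0)
    (hq : q.IsHomogeneous 4) (hr : r.IsHomogeneous 0)
    (hC : ∀ a, Φ (MvPolynomial.C a) = MvPolynomial.C (map f a))
    (h0 : Φ (X 0) = MvPolynomial.C p * X 0 + MvPolynomial.C q * X 1)
    (h1 : Φ (X 1) = MvPolynomial.C r * X 1) {n w : ℕ} {F : AB B} (h : V n w F) :
    V n w (Φ F) := by
  induction h with
  | C w a ha => rw [hC]; exact V.C _ _ (ha.map f)
  | zero n w => rw [map_zero]; exact V.zero _ _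
  | add _ _ ih1 ih2 => rw [map_add]; exact ih1.add ih2
  | Z0 _ ih =>
    rw [map_mul, h0]
    exact ((V.lin hp (hom_cast hq (by simp))).mul ih).cast rfl (by simp)
  | Z1 _ ih =>
    rw [map_mul, h1, mul_assoc, mul_left_comm]
    exact ((ih.C_mul hr).cast rfl (by simp)).Z1

theorem pow_lin {q : CB B} (hq : q.IsHomogeneous 4) (n : ℕ) : ∃ G : AB B, V n 4 G ∧
    (X 0 + MvPolynomial.C q * X 1 : AB B) ^ (n + 1) = X 0 ^ (n + 1) + X 1 * G := by
  induction n with
  | zero => exact ⟨MvPolynomial.C q, V.C _ _ hq, by ring⟩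
  | succ n ih =>
    obtain ⟨G, hG, h⟩ := ih
    refine ⟨MvPolynomial.C q * X 0 ^ (n + 1) + X 0 * G + X 1 * (MvPolynomial.C q * G),
      ((C_Z0_pow hq _).add hG.Z0).add (hG.C_mul hq).Z1, ?_⟩
    rw [pow_succ, h]; ring

end V

/-- Evaluation `Z₀ ↦ L`, `Z₁ ↦ D`. -/
def ev (L D : CB B) : AB B →+* CB B := eval₂Hom (RingHom.id _) ![L, D]

@[simp] theorem ev_C (L D a : CB B) : ev L D (C a) = a := by simp [ev]
@[simp] theorem ev_X0 (L D : CB B) : ev L D (X 0) = L := by simp [ev]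
@[simp] theorem ev_X1 (L D : CB B) : ev L D (X 1) = D := by simp [ev]

theorem V.ev_hom {L D : CB B} (hL : L.IsHomogeneous 8) (hD : D.IsHomogeneous 4) {n w : ℕ}
    {F : AB B} (h : V n w F) : (ev L D F).IsHomogeneous (8 * n + w) := by
  induction h with
  | C w a ha => simpa using ha
  | zero n w => rw [map_zero]; exact isHomogeneous_zero _ _ _
  | add _ _ ih1 ih2 => rw [map_add]; exact ih1.add ih2
  | Z0 _ ih => rw [map_mul, ev_X0]; exact hom_cast (hL.mul ih) (by ring)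
  | Z1 _ ih => rw [map_mul, ev_X1]; exact hom_cast (hD.mul ih) (by ring)

/-- Bezout data for a pair of forms of degrees `8` and `4`. -/
structure Bezout (L D : CB B) : Prop where
  hL : L.IsHomogeneous 8
  hD : D.IsHomogeneous 4
  b0 : ∃ u v : CB B, u.IsHomogeneous 3 ∧ v.IsHomogeneous 7 ∧ u * L + v * D = X 0 ^ 11
  b1 : ∃ u v : CB B, u.IsHomogeneous 3 ∧ v.IsHomogeneous 7 ∧ u * L + v * D = X 1 ^ 11

theorem Bezout.surj {L D : CB B} (h : Bezout L D) : ∀ (m w : ℕ), 13 ≤ w → ∀ b : CB B,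
    b.IsHomogeneous (8 * m + w) → ∃ F, V m w F ∧ ev L D F = b := by
  intro m
  induction m with
  | zero => intro w _ b hb; exact ⟨C b, V.C _ _ (by simpa using hb), by simp⟩
  | succ m ih =>
    intro w hw b hb
    obtain ⟨e, rfl⟩ := Nat.exists_eq_add_of_le hw
    obtain ⟨b0, b1, h0, h1, rfl⟩ := hom_split 11 (8 * m + e + 10) (by omega)
      (hom_cast hb (by ring))
    obtain ⟨u, v, hu, hv, huv⟩ := h.b0
    obtain ⟨u', v', hu', hv', huv'⟩ := h.b1
    obtain ⟨F, hF, eF⟩ := ih (13 + e) hw (u * b0 + u' * b1)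
      (hom_cast ((hu.mul h0).add (hu'.mul h1)) (by ring))
    obtain ⟨G, hG, eG⟩ := ih (13 + e + 4) (by omega) (v * b0 + v' * b1)
      (hom_cast ((hv.mul h0).add (hv'.mul h1)) (by ring))
    refine ⟨X 0 * F + X 1 * G, hF.Z0.add hG.Z1, ?_⟩
    rw [map_add, map_mul, map_mul, eF, eG, ev_X0, ev_X1, ← huv, ← huv']
    ring

theorem Bezout.ker [IsDomain B] {L D : CB B} (h : Bezout L D) (hX : ¬ (X 0 : CB B) ∣ D) :
    ∀ (m w : ℕ) (F : AB B), V (m + 1) (w + 4) F → ev L D F = 0 →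
      ∃ G, V m w G ∧ F = (C D * X 0 - C L * X 1) * G := by
  have hD0 : D ≠ 0 := fun h0 => hX (h0 ▸ dvd_zero _)
  have key : ∀ (m w : ℕ) (F : AB B), V (m + 1) (w + 4) F → ev L D F = 0 →
      ∃ (a : CB B) (F2 : AB B), a.IsHomogeneous w ∧ V m (w + 8) F2 ∧ ev L D F2 = 0 ∧
        F = (C D * X 0 - C L * X 1) * (C a * X 0 ^ m) + X 1 * F2 := by
    intro m w F hF e
    obtain ⟨a, G, ha, hG, rfl⟩ := hF.succ_iff
    simp only [map_add, map_mul, map_pow, ev_C, ev_X0, ev_X1] at e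
    obtain ⟨u, v, -, -, huv⟩ := h.b0
    have h1 : D ∣ a * (u * L) ^ (m + 1) :=
      ⟨- u ^ (m + 1) * ev L D G, by linear_combination u ^ (m + 1) * e⟩
    have h2 : D ∣ (X 0 ^ 11) ^ (m + 1) - (u * L) ^ (m + 1) :=
      Dvd.dvd.trans ⟨v, by linear_combination - huv⟩ (sub_dvd_pow_sub_pow _ _ _)
    obtain ⟨c, hc⟩ : D ∣ a * (X 0 ^ 11) ^ (m + 1) := by
      have := dvd_add h1 (h2.mul_left a)
      convert this using 1; ring
    obtain ⟨c', hc'⟩ : (X 0 : CB B) ^ (11 * (m + 1)) ∣ c :=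
      (X_prime (i := 0)).pow_dvd_of_dvd_mul_left _ hX ⟨a, by rw [← hc, pow_mul, mul_comm]⟩
    have h3 : a = D * c' := by
      apply mul_left_cancel₀ (pow_ne_zero (11 * (m + 1)) (X_ne_zero (0 : Fin 2)))
      rw [mul_left_comm, ← hc', ← hc, pow_mul, mul_comm]
    obtain ⟨a', ha', rfl⟩ := hom_quot (e := w) h.hD (hom_cast ha (add_comm _ _)) h3
    refine ⟨a', G + C (L * a') * X 0 ^ m, ha',
      hG.add (V.C_Z0_pow (hom_cast (h.hL.mul ha') (add_comm _ _)) m), ?_, ?_⟩
    · apply mul_left_cancel₀ hD0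
      simp only [map_add, map_mul, map_pow, ev_C, ev_X0]
      linear_combination e
    · simp only [map_mul]; ring
  intro m
  induction m with
  | zero =>
    intro w F hF e
    obtain ⟨a, F2, ha, h2, e2, rfl⟩ := key 0 w F hF e
    obtain ⟨b, -, rfl⟩ := h2.zero_iff
    rw [ev_C] at e2
    exact ⟨C a, V.C _ _ ha, by simp [e2]⟩
  | succ m ih =>
    intro w F hF e
    obtain ⟨a, F2, ha, h2, e2, rfl⟩ := key (m + 1) w F hF e
    obtain ⟨G, hG, rfl⟩ := ih (w + 4) F2 h2 e2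
    exact ⟨C a * X 0 ^ (m + 1) + X 1 * G, (V.C_Z0_pow ha _).add hG.Z1, by ring⟩

end Crest.Agent.R258
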