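import Crest.Prelude.Def_QuadricBundle

/-!
The bundle `E_M = f_M^* G ⊗ O(1,1)` on `ℙ¹ × ℙ¹`, `f_M (x,y) = (x^M, y^M)`, where `G` is the
extension `0 → O(-2,4) → G → O(4,0) → 0` given by the form `thH` of bidegree `(4,4)`.
-/

set_option autoImplicit false

noncomputable section

namespace Crest.Agent.R258

open Crest.AlgGeometry.QuadricBundle

/-- The bihomogeneous form of bidegree `(4,4)` defining the extension. -/
def thH {R : Type*} [CommRing R] (x0 x1 y0 y1 : R) : R :=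
  (x0 * x1 ^ 3 - 2 * x1 ^ 4) * y0 ^ 4
    + (-2 * x0 ^ 2 * x1 ^ 2 + 3 * x0 * x1 ^ 3 - x1 ^ 4) * y0 ^ 3 * y1
    + (4 * x0 ^ 3 * x1 - 4 * x0 ^ 2 * x1 ^ 2 + x0 * x1 ^ 3) * y0 ^ 2 * y1 ^ 2
    + (-8 * x0 ^ 4 + 6 * x0 ^ 3 * x1 - x0 ^ 2 * x1 ^ 2) * y0 * y1 ^ 3
    + (-8 * x0 ^ 4 + x0 ^ 3 * x1) * y1 ^ 4

/-- Homogeneous coordinates of the point with affine coordinate `t` in the chart `a`. -/
def hom (a : Fin 2) (t : ℂ) : Fin 2 → ℂ := if a = 0 then ![1, t] else ![t, 1]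

/-- The signed dehomogenisation of `thH` in the chart `(a, b)`. -/
def th (a b : Fin 2) (X Y : ℂ) : ℂ :=
  (if a = 0 then -1 else 1) * thH (hom a X 0) (hom a X 1) (hom b Y 0) (hom b Y 1)

/-- Transition matrices of `G` (untwisted), in the coordinates `X, Y` of the chart `α`. -/
def g0 (α β : Chart) (X Y : ℂ) : Matrix (Fin 2) (Fin 2) ℂ :=
  !![(if α.1 = β.1 then 1 else X ^ 4), 0;
     (if α.1 = β.1 then 0 else th α.1 α.2 X Y * X⁻¹),
     (if α.1 = β.1 then 1 else X⁻¹ ^ 2) * (if α.2 = β.2 then 1 else Y ^ 4)]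

/-- Transition matrices of `E_M`. -/
def gE (M : ℕ) : Transition 2 := fun α β p =>
  lineTrans 1 1 α β p • g0 α β (p 0 ^ M) (p 1 ^ M)

end Crest.Agent.R258
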