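import Crest.Agent.R258.Amp1
import Crest.Agent.R258.Defs

/-!
The explicit forms, their Bezout identities and the gluing identities.
-/

set_option autoImplicit false

noncomputable section

namespace Crest.Agent.R258

open MvPolynomial

variable {B B' : Type} [CommRing B] [CommRing B']

def Lam0 (x : B) : CB B := frmL [1 - 2 * x, -3 * x, 2 - x, 3, 1, 0, 0, 0, 0]
def del0 (x : B) : CB B := frmL [x ^ 2, 2 * x + x ^ 2, 0, -(2 + x), -1]
def Lam1 (x : B) : CB B := frmL [0, 0, 0, 0, 16, 24, 8 - 16 * x, -24 * x, 1 - 8 * x]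
def del1 (x : B) : CB B := frmL [1, 1 + 2 * x, 0, -(x + 2 * x ^ 2), -x ^ 2]
def Th (x0 x1 : B) : CB B := frmL [x0 * x1 ^ 3 - 2 * x1 ^ 4,
  -2 * x0 ^ 2 * x1 ^ 2 + 3 * x0 * x1 ^ 3 - x1 ^ 4,
  4 * x0 ^ 3 * x1 - 4 * x0 ^ 2 * x1 ^ 2 + x0 * x1 ^ 3,
  -8 * x0 ^ 4 + 6 * x0 ^ 3 * x1 - x0 ^ 2 * x1 ^ 2, -8 * x0 ^ 4 + x0 ^ 3 * x1]

theorem Th_hom (x0 x1 : B) : (Th x0 x1).IsHomogeneous 4 := frm_hom _ _

theorem map_Lam0 (f : B →+* B') (x : B) : map f (Lam0 x) = Lam0 (f x) := by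
  simp [Lam0, map_frm, map_ofNat]
theorem map_del0 (f : B →+* B') (x : B) : map f (del0 x) = del0 (f x) := by
  simp [del0, map_frm, map_ofNat]
theorem map_Lam1 (f : B →+* B') (x : B) : map f (Lam1 x) = Lam1 (f x) := by
  simp [Lam1, map_frm, map_ofNat]
theorem map_del1 (f : B →+* B') (x : B) : map f (del1 x) = del1 (f x) := by
  simp [del1, map_frm, map_ofNat]
theorem map_Th (f : B →+* B') (x0 x1 : B) : map f (Th x0 x1) = Th (f x0) (f x1) := by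
  simp [Th, map_frm, map_ofNat]

theorem eval₂_Th (f : B →+* B') (s : Fin 2 → B') (x0 x1 : B) :
    eval₂Hom f s (Th x0 x1) = thH (f x0) (f x1) (s 0) (s 1) := by
  simp only [Th, frmL, List.length, map_add, map_sub, map_mul, map_pow, map_neg, map_ofNat,
    map_zero, eval₂Hom_C, eval₂Hom_X', thH]
  ring

/-- Unfold the explicit forms. -/
macro "frm_unfold" : tactic => `(tactic|
  simp only [Lam0, del0, Lam1, del1, Th, frmL, List.length, map_add, map_sub, map_mul, map_pow,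
    map_neg, map_ofNat, map_one, map_zero])

theorem bezout0 (x : B) : Bezout (Lam0 x) (del0 x) where
  hL := frm_hom _ _
  hD := frm_hom _ _
  b0 := ⟨frmL [1+2*x+3*x^2+2*x^3+x^4, x+x^2+x^3, -(2+3*x+2*x^2+x^3), -(1+x+x^2)],
    frmL [1+4*x+3*x^2+2*x^3, -2+x^2+x^3, -(3+3*x+2*x^2), -(1+x+x^2), 0, 0, 0, 0],
    frm_hom _ _, frm_hom _ _, by frm_unfold; ring⟩
  b1 := ⟨frmL [-128*x^2-32*x^3-8*x^4, -(256*x+128*x^2+48*x^3+8*x^4), 128*x+32*x^2+8*x^3,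
      256+128*x+48*x^2+8*x^3+x^4],
    frmL [128-224*x-56*x^2-16*x^3, -(64+256*x+96*x^2+24*x^3), 288+56*x-8*x^3,
      240+104*x+31*x^2+2*x^3, 8+10*x+5*x^2+x^3, -(4+4*x+x^2), 2+x, -1],
    frm_hom _ _, frm_hom _ _, by frm_unfold; ring⟩

theorem bezout1 (x : B) : Bezout (Lam1 x) (del1 x) where
  hL := frm_hom _ _
  hD := frm_hom _ _
  b0 := ⟨frmL [1+2*x+3*x^2+2*x^3+x^4, x+x^2+x^3, -(x+2*x^2+3*x^3+2*x^4), -(x^2+x^3+x^4)],
    frmL [1, -(1+2*x), 1+4*x+4*x^2, -(1+5*x+10*x^2+8*x^3), -(15+26*x+31*x^2+8*x^3),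
      -9-7*x+16*x^3, 1+16*x+24*x^2+24*x^3, -1+7*x+7*x^2+8*x^3],
    frm_hom _ _, frm_hom _ _, by frm_unfold; ring⟩
  b1 := ⟨frmL [-8-32*x-128*x^2, -(8+48*x+128*x^2+256*x^3), 8*x+32*x^2+128*x^3,
      1+8*x+48*x^2+128*x^3+256*x^4],
    frmL [0, 0, 0, 0, 128+512*x+2048*x^2, 192+768*x+2048*x^2, 64-512*x^2-2048*x^3,
      -(16+256*x+768*x^2+2048*x^3)],
    frm_hom _ _, frm_hom _ _, by frm_unfold; ring⟩

theorem not_X_dvd_del0 [Nontrivial B] (x : B) : ¬ (X 0 : CB B) ∣ del0 x := by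
  intro h
  have := map_dvd (eval ![(0 : B), 1]) h
  simp [del0, frmL] at this

theorem Lam1_glue {T S : B} (h : T * S = 1) :
    Lam1 S = C T ^ 4 * Lam0 T - C S * Th 1 T * del0 T := by
  have h' : (C T * C S : CB B) = 1 := by rw [← map_mul, h, map_one]
  frm_unfold
  grind

theorem del1_glue {T S : B} (h : T * S = 1) : del1 S = C S ^ 2 * del0 T := by
  have h' : (C T * C S : CB B) = 1 := by rw [← map_mul, h, map_one]
  frm_unfold
  grind

theorem Th_glue {T S : B} (h : T * S = 1) : Th S 1 = C S ^ 4 * Th 1 T := by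
  have h' : (C T * C S : CB B) = 1 := by rw [← map_mul, h, map_one]
  frm_unfold
  grind

end Crest.Agent.R258
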