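import Crest.Agent.R258.Amp2

/-!
Vanishing of the Čech `H¹` in the `x`-direction, and the resulting global generation.
-/

set_option autoImplicit false

noncomputable section

namespace Crest.Agent.R258

open MvPolynomial

/-- Laurent polynomials. -/
abbrev RL : Type := LaurentPolynomial ℂ
/-- Polynomials. -/
abbrev PL : Type := Polynomial ℂ

def TT : RL := LaurentPolynomial.T 1
def SSL : RL := LaurentPolynomial.T (-1)

theorem TT_SSL : TT * SSL = 1 := by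
  rw [TT, SSL, ← LaurentPolynomial.T_add]; simp

def i0 : PL →+* RL := Polynomial.eval₂RingHom LaurentPolynomial.C TT
def i1 : PL →+* RL := Polynomial.eval₂RingHom LaurentPolynomial.C SSL

@[simp] theorem i0_X : i0 Polynomial.X = TT := by simp [i0]
@[simp] theorem i1_X : i1 Polynomial.X = SSL := by simp [i1]
@[simp] theorem i0_C (c : ℂ) : i0 (Polynomial.C c) = LaurentPolynomial.C c := by simp [i0]
@[simp] theorem i1_C (c : ℂ) : i1 (Polynomial.C c) = LaurentPolynomial.C c := by simp [i1]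

theorem laurent_split (r : RL) : ∃ p q : PL, r = i0 p + SSL * i1 q := by
  induction r using LaurentPolynomial.induction_on' with
  | add a b ha hb =>
    obtain ⟨p, q, rfl⟩ := ha
    obtain ⟨p', q', rfl⟩ := hb
    exact ⟨p + p', q + q', by simp only [map_add]; ring⟩
  | C_mul_T n a =>
    rcases n with m | m
    · refine ⟨Polynomial.C a * Polynomial.X ^ m, 0, ?_⟩
      simp [TT, LaurentPolynomial.T_pow]
    · refine ⟨0, Polynomial.C a * Polynomial.X ^ m, ?_⟩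
      simp only [map_zero, zero_add, map_mul, map_pow, i1_C, i1_X, SSL, LaurentPolynomial.T_pow]
      rw [mul_left_comm, ← LaurentPolynomial.T_add, Int.negSucc_eq]
      congr 2; ring

theorem form_split {d : ℕ} {a : CB RL} (ha : a.IsHomogeneous d) : ∃ p q : CB PL,
    p.IsHomogeneous d ∧ q.IsHomogeneous d ∧ a = map i0 p + C SSL * map i1 q := by
  refine hom_induction (P := fun a => ∃ p q : CB PL,
    p.IsHomogeneous d ∧ q.IsHomogeneous d ∧ a = map i0 p + C SSL * map i1 q) ?_ ?_ ?_ ha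
  · exact ⟨0, 0, isHomogeneous_zero _ _ _, isHomogeneous_zero _ _ _, by simp⟩
  · rintro a b ⟨p, q, h0, h1, rfl⟩ ⟨p', q', h0', h1', rfl⟩
    exact ⟨p + p', q + q', h0.add h0', h1.add h1', by simp only [map_add]; ring⟩
  · intro c i j hij
    obtain ⟨p, q, rfl⟩ := laurent_split c
    refine ⟨C p * X 0 ^ i * X 1 ^ j, C q * X 0 ^ i * X 1 ^ j, hom_cast (hom_mono _ _ _) hij,
      hom_cast (hom_mono _ _ _) hij, ?_⟩
    simp only [map_add, map_mul, map_pow, map_C, map_X]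
    ring

def j0 : AB PL →+* AB RL := map (map i0)
def j1 : AB PL →+* AB RL := eval₂Hom ((C : CB RL →+* AB RL).comp (map i1))
  ![C (C TT ^ 4) * X 0 + C (-(C SSL * Th 1 TT)) * X 1, C (C SSL ^ 2) * X 1]

@[simp] theorem j0_C (a : CB PL) : j0 (C a) = C (map i0 a) := by simp [j0]
@[simp] theorem j0_X (i : Fin 2) : j0 (X i) = X i := by simp [j0]
@[simp] theorem j1_C (a : CB PL) : j1 (C a) = C (map i1 a) := by simp [j1]
theorem j1_X0 : j1 (X 0) = C (C TT ^ 4) * X 0 + C (-(C SSL * Th 1 TT)) * X 1 := by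
  simp only [j1, eval₂Hom_X', Matrix.cons_val_zero]
theorem j1_X1 : j1 (X 1) = C (C SSL ^ 2) * X 1 := by
  simp only [j1, eval₂Hom_X', Matrix.cons_val_one, Matrix.cons_val_zero]

theorem V.j0 {n w : ℕ} {F : AB PL} (h : V n w F) : V n w (j0 F) :=
  h.map_hom _ i0 (p := 1) (q := 0) (r := 1) (isHomogeneous_one _ _) (isHomogeneous_zero _ _ _)
    (isHomogeneous_one _ _) j0_C (by simp) (by simp)

theorem V.j1 {n w : ℕ} {F : AB PL} (h : V n w F) : V n w (j1 F) :=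
  h.map_hom _ i1 ((isHomogeneous_C _ _).pow 4) ((Th_hom _ _).C_mul _).neg
    ((isHomogeneous_C _ _).pow 2) j1_C j1_X0 j1_X1

theorem ev_j0 (F : AB PL) : ev (Lam0 TT) (del0 TT) (j0 F) =
    map i0 (ev (Lam0 Polynomial.X) (del0 Polynomial.X) F) := by
  have : (ev (Lam0 TT) (del0 TT)).comp j0 =
      (map i0).comp (ev (Lam0 Polynomial.X) (del0 Polynomial.X)) := by
    apply MvPolynomial.ringHom_ext
    · intro a; simp
    · intro i; fin_cases i <;> simp [map_Lam0, map_del0]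
  exact DFunLike.congr_fun this F

theorem ev_j1 (F : AB PL) : ev (Lam0 TT) (del0 TT) (j1 F) =
    map i1 (ev (Lam1 Polynomial.X) (del1 Polynomial.X) F) := by
  have : (ev (Lam0 TT) (del0 TT)).comp j1 =
      (map i1).comp (ev (Lam1 Polynomial.X) (del1 Polynomial.X)) := by
    apply MvPolynomial.ringHom_ext
    · intro a; simp
    · intro i
      fin_cases i
      · simp only [RingHom.comp_apply, Fin.zero_eta, j1_X0, map_add, map_mul, ev_C, ev_X0, ev_X1,
          map_Lam1, i1_X, Lam1_glue TT_SSL]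
        ring
      · simp only [RingHom.comp_apply, Fin.mk_one, j1_X1, map_mul, ev_C, ev_X1,
          map_del1, i1_X, del1_glue TT_SSL]
  exact DFunLike.congr_fun this F

/-- `T` as a constant. -/
def tt : AB RL := C (C TT)
/-- `T⁻¹` as a constant. -/
def ss : AB RL := C (C SSL)
/-- `x` as a constant. -/
def xx : AB PL := C (C Polynomial.X)

theorem tt_ss : tt * ss = 1 := by rw [tt, ss, ← map_mul, ← map_mul, TT_SSL, map_one, map_one]
theorem j0_xx : j0 xx = tt := by simp [xx, tt]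
theorem j1_xx : j1 xx = ss := by simp [xx, ss]
theorem j1_X0' : j1 (X 0) = tt ^ 4 * X 0 - ss * C (Th 1 TT) * X 1 := by
  rw [j1_X0]; simp only [tt, ss, map_pow, map_neg, map_mul]; ring
theorem j1_X1' : j1 (X 1) = ss ^ 2 * X 1 := by
  rw [j1_X1]; simp only [ss, map_pow]

theorem V.xx_mul {n w : ℕ} {F : AB PL} (h : V n w F) : V n w (xx * F) := h.CC_mul _
theorem V.xx_pow_mul {n w : ℕ} {F : AB PL} (h : V n w F) (k : ℕ) : V n w (xx ^ k * F) := by
  rw [xx, ← map_pow, ← map_pow]; exact h.CC_mul _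

theorem H1_vanish : ∀ (n w : ℕ), 9 ≤ w → ∀ F : AB RL, V n w F →
    ∃ F0 F1 : AB PL, V n w F0 ∧ V n w F1 ∧ F = j0 F0 + tt * j1 F1 := by
  intro n
  induction n using Nat.strong_induction_on with
  | _ n ih =>
  intro w hw F hF
  have hts := tt_ss
  rcases n with _ | n
  · obtain ⟨a, ha, rfl⟩ := hF.zero_iff
    obtain ⟨p, q, hp, hq, rfl⟩ := form_split ha
    refine ⟨C p, xx ^ 2 * C q, V.C _ _ hp, (V.C _ _ hq).xx_pow_mul 2, ?_⟩
    simp only [map_add, map_mul, map_pow, j0_C, j1_C, j1_xx]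
    rw [← ss]
    linear_combination (-ss * C (map i1 q)) * hts
  obtain ⟨a, G, ha, hG, rfl⟩ := hF.succ_iff
  obtain ⟨p, q, hp, hq, rfl⟩ := form_split ha
  obtain ⟨G', hG', eG'⟩ := V.pow_lin (q := -(C SSL ^ 5 * Th 1 TT))
    (by rw [← map_pow]; exact ((Th_hom _ _).C_mul _).neg) n
  have e0 : j1 (X 0) = tt ^ 4 * (X 0 + C (-(C SSL ^ 5 * Th 1 TT)) * X 1) := by
    rw [j1_X0']
    simp only [map_neg, map_mul, map_pow]
    rw [← ss]
    grind
  have e1 : tt * j1 (xx ^ (4 * n + 6) * (C q * X 0 ^ (n + 1))) =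
      ss * C (map i1 q) * (X 0 ^ (n + 1) + X 1 * G') := by
    rw [map_mul, map_mul, map_pow, map_pow, j1_xx, j1_C, e0, mul_pow, eG']
    have : (tt * ss) ^ (4 * n + 5) = 1 := by rw [hts, one_pow]
    linear_combination (ss * C (map i1 q) * (X 0 ^ (n + 1) + X 1 * G')) * this
  have hG1 : V n (w + 4) (G - ss * (C (map i1 q) * G')) :=
    hG.sub (((hG'.C_mul (hq.map i1)).cast rfl (add_comm _ _)).CC_mul _)
  generalize hG1def : G - ss * (C (map i1 q) * G') = G1 at hG1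
  obtain ⟨b0, b1, hb0, hb1, eb⟩ := form_split (hG1.ev_hom (bezout0 TT).hL (bezout0 TT).hD)
  obtain ⟨U0, hU0, eU0⟩ := (bezout0 Polynomial.X).surj n (w + 4) (by omega) b0 hb0
  obtain ⟨U1, hU1, eU1⟩ := (bezout1 Polynomial.X).surj n (w + 4) (by omega) b1 hb1
  have hK : V n (w + 4) (G1 - j0 U0 - ss * j1 U1) := (hG1.sub hU0.j0).sub (hU1.j1.CC_mul _)
  have eK : ev (Lam0 TT) (del0 TT) (G1 - j0 U0 - ss * j1 U1) = 0 := by
    rw [map_sub, map_sub, map_mul, ev_j0, ev_j1, eU0, eU1, eb, ss, ev_C]; ring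
  have hrest : ∃ A0 A1 : AB PL, V (n + 1) w A0 ∧ V (n + 1) w A1 ∧
      X 1 * (G1 - j0 U0 - ss * j1 U1) = j0 A0 + tt * j1 A1 := by
    rcases n with _ | n
    · obtain ⟨b, -, hb⟩ := hK.zero_iff
      rw [hb, ev_C] at eK
      exact ⟨0, 0, V.zero _ _, V.zero _ _, by rw [hb, eK]; simp⟩
    · obtain ⟨G3, hG3, e3⟩ := (bezout0 TT).ker (not_X_dvd_del0 _) n w _ hK eK
      obtain ⟨A0, A1, hA0, hA1, rfl⟩ := ih n (by omega) w hw G3 hG3
      have l0 := V.lin (bezout0 (Polynomial.X : PL)).hD (bezout0 (Polynomial.X : PL)).hL.neg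
      have l1 := V.lin (bezout1 (Polynomial.X : PL)).hD (bezout1 (Polynomial.X : PL)).hL.neg
      refine ⟨_, _, ((l0.mul hA0).cast rfl (add_comm _ _)).Z1,
        ((l1.mul hA1).cast rfl (add_comm _ _)).Z1, ?_⟩
      rw [e3]
      simp only [map_mul, map_add, map_neg, j0_C, j1_C, j0_X, j1_X0', j1_X1', map_Lam0, map_del0,
        map_Lam1, map_del1, i0_X, i1_X, Lam1_glue TT_SSL, del1_glue TT_SSL, map_sub, map_pow]
      rw [← ss, ← tt]
      have h4 : (tt * ss) ^ 4 = 1 := by rw [hts, one_pow]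
      linear_combination
        (-(tt * X 1 * j1 A1 * (C (del0 TT) * X 0 - C (Lam0 TT) * X 1))) * h4
  obtain ⟨A0, A1, hA0, hA1, eA⟩ := hrest
  refine ⟨C p * X 0 ^ (n + 1) + X 1 * U0 + A0,
    xx ^ (4 * n + 6) * (C q * X 0 ^ (n + 1)) + X 1 * U1 + A1,
    ((V.C_Z0_pow hp _).add hU0.Z1).add hA0,
    (((V.C_Z0_pow hq _).xx_pow_mul _).add hU1.Z1).add hA1, ?_⟩
  rw [map_add j1, map_add j1, mul_add, mul_add, e1]
  simp only [map_mul, map_add, map_pow, j0_C, j0_X, j1_X1']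
  rw [← ss]
  linear_combination eA + X 1 * hG1def - (ss * X 1 * j1 U1) * hts

/-- Global sections in the `x`-direction of twist `t`. -/
def Gam (n w t : ℕ) (F : Fin 2 → AB PL) : Prop :=
  V n w (F 0) ∧ V n w (F 1) ∧ j0 (F 0) = tt ^ t * j1 (F 1)

/-- Evaluation at `x = c`, `y = s`. -/
def Ev (c : ℂ) (s : Fin 2 → ℂ) : AB PL →+* MvPolynomial (Fin 2) ℂ :=
  map (eval₂Hom (Polynomial.evalRingHom c) s)

theorem Ev_xx (c : ℂ) (s : Fin 2 → ℂ) : Ev c s xx = C c := by simp [Ev, xx]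
theorem Ev_CC (c : ℂ) (s : Fin 2 → ℂ) (d : ℂ) : Ev c s (C (C (Polynomial.C d))) = C d := by
  simp [Ev]

theorem Gam.add {n w t : ℕ} {F G : Fin 2 → AB PL} (h : Gam n w t F) (h' : Gam n w t G) :
    Gam n w t (F + G) :=
  ⟨h.1.add h'.1, h.2.1.add h'.2.1, by
    simp only [Pi.add_apply, map_add, h.2.2, h'.2.2]; ring⟩

theorem Gam.const {n w t : ℕ} {F : Fin 2 → AB PL} (h : Gam n w t F) (d : ℂ) :
    Gam n w t (fun a => C (C (Polynomial.C d)) * F a) :=
  ⟨h.1.CC_mul _, h.2.1.CC_mul _, by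
    simp only [map_mul, j0_C, j1_C, map_C, i0_C, i1_C, h.2.2]; ring⟩

theorem Gam.down {n w t : ℕ} (hw : 9 ≤ w) {F : Fin 2 → AB PL} (h : Gam n w (t + 3) F) (c : ℂ)
    (s : Fin 2 → ℂ) (a : Fin 2) : ∃ G, Gam n w (t + 2) G ∧ Ev c s (G a) = Ev c s (F a) := by
  obtain ⟨h0, h1, e⟩ := h
  have hts := tt_ss
  obtain ⟨A0, B', hA0, hB', eA⟩ := H1_vanish n w hw (ss * j0 (F 0)) (h0.j0.CC_mul _)
  have hG : Gam n w (t + 2) ![F 0 - xx * A0, xx ^ t * B'] := by
    refine ⟨h0.sub hA0.xx_mul, hB'.xx_pow_mul t, ?_⟩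
    simp only [Matrix.cons_val_zero, Matrix.cons_val_one, map_sub, map_mul, map_pow, j0_xx, j1_xx]
    have : (tt * ss) ^ t = 1 := by rw [hts, one_pow]
    linear_combination tt * eA - j0 (F 0) * hts - tt ^ 2 * j1 B' * this
  have hA : Gam n w (t + 2) ![A0, F 1 - xx * (xx ^ t * B')] := by
    refine ⟨hA0, h1.sub (hB'.xx_pow_mul t).xx_mul, ?_⟩
    simp only [Matrix.cons_val_zero, Matrix.cons_val_one, map_sub, map_mul, map_pow, j1_xx]
    have : (tt * ss) ^ (t + 1) = 1 := by rw [hts, one_pow]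
    linear_combination - eA + ss * e + tt ^ (t + 2) * j1 (F 1) * hts + tt * j1 B' * this
  fin_cases a
  · refine ⟨_, hG.add (hA.const c), ?_⟩
    simp only [Fin.zero_eta, Pi.add_apply, Matrix.cons_val_zero, map_add, map_sub, map_mul, Ev_xx,
      Ev_CC]
    ring
  · refine ⟨_, (hG.const c).add hA, ?_⟩
    simp only [Fin.mk_one, Pi.add_apply, Matrix.cons_val_zero, Matrix.cons_val_one, map_add,
      map_sub, map_mul, Ev_xx, Ev_CC]
    ring

theorem Gam.down_all {n w : ℕ} (hw : 9 ≤ w) (c : ℂ) (s : Fin 2 → ℂ) (a : Fin 2) :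
    ∀ (t : ℕ) (F : Fin 2 → AB PL), Gam n w (t + 2) F →
      ∃ G, Gam n w 2 G ∧ Ev c s (G a) = Ev c s (F a) := by
  intro t
  induction t with
  | zero => intro F h; exact ⟨F, h, rfl⟩
  | succ t ih =>
    intro F h
    obtain ⟨G, hG, e⟩ := h.down hw c s a
    obtain ⟨G', hG', e'⟩ := ih G hG
    exact ⟨G', hG', e'.trans e⟩

theorem Gam.up {n w t : ℕ} {F : Fin 2 → AB PL} (h : Gam n w t F) (a : Fin 2) :
    ∃ G, Gam n w (t + 2) G ∧ G a = F a := by
  obtain ⟨h0, h1, e⟩ := h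
  have hts := tt_ss
  fin_cases a
  · refine ⟨![F 0, xx ^ 2 * F 1], ⟨h0, h1.xx_pow_mul 2, ?_⟩, rfl⟩
    simp only [Matrix.cons_val_zero, Matrix.cons_val_one, map_mul, map_pow, j1_xx, e]
    linear_combination (-(tt ^ t * j1 (F 1)) * (tt * ss + 1)) * hts
  · refine ⟨![xx ^ 2 * F 0, F 1], ⟨h0.xx_pow_mul 2, h1, ?_⟩, rfl⟩
    simp only [Matrix.cons_val_zero, Matrix.cons_val_one, map_mul, map_pow, j0_xx, e]
    ring

theorem Gam.Z1 {n w t : ℕ} {F : Fin 2 → AB PL} (h : Gam n (w + 4) t F) :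
    Gam (n + 1) w (t + 2) (fun a => X 1 * F a) := by
  obtain ⟨h0, h1, e⟩ := h
  have hts := tt_ss
  refine ⟨h0.Z1, h1.Z1, ?_⟩
  simp only [map_mul, j0_X, j1_X1', e]
  linear_combination (-(tt ^ t * j1 (F 1) * X 1) * (tt * ss + 1)) * hts

theorem Gam.Z0 {n w t : ℕ} {F : Fin 2 → AB PL} (h : Gam n w t F) (a : Fin 2) :
    ∃ G, Gam (n + 1) w (t + 2) G ∧ G a = X 0 * F a := by
  obtain ⟨h0, h1, e⟩ := h
  have hts := tt_ss
  have hx6 : (C (Polynomial.X : PL) ^ 6 : CB PL).IsHomogeneous 0 := (isHomogeneous_C _ _).pow 6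
  fin_cases a
  · have l := V.lin hx6 ((Th_hom (Polynomial.X : PL) 1).C_mul Polynomial.X)
    refine ⟨![X 0 * F 0, _], ⟨h0.Z0, (l.mul h1).cast rfl (zero_add _), ?_⟩, rfl⟩
    simp only [Matrix.cons_val_zero, Matrix.cons_val_one, map_mul, map_add, map_pow, j0_X, j1_C,
      j1_X0', j1_X1', e, map_C, i1_X, map_Th, map_one, Th_glue TT_SSL]
    rw [← ss]
    grind
  · have l := V.lin hx6 ((Th_hom 1 (Polynomial.X : PL)).C_mul Polynomial.X).neg
    refine ⟨![_, X 0 * F 1], ⟨(l.mul h0).cast rfl (zero_add _), h1.Z0, ?_⟩, rfl⟩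
    simp only [Matrix.cons_val_zero, Matrix.cons_val_one, map_mul, map_add, map_pow, map_neg,
      j0_X, j0_C, j1_X0', e, map_C, i0_X, map_Th, map_one]
    rw [← tt]
    grind

theorem Gam.start (c : ℂ) (s : Fin 2 → ℂ) (b : Fin 2) (hs : s b = 1) (a : Fin 2) :
    ∀ (n w : ℕ) (R : MvPolynomial (Fin 2) ℂ), R.IsHomogeneous n →
      ∃ F, Gam n w (2 * n) F ∧ Ev c s (F a) = R := by
  intro n
  induction n with
  | zero =>
    intro w R hR
    have hV : V 0 w (C (C (Polynomial.C (coeff 0 R)) * X b ^ w) : AB PL) :=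
      V.C _ _ (isHomogeneous_C_mul_X_pow _ _ _)
    refine ⟨fun _ => C (C (Polynomial.C (coeff 0 R)) * X b ^ w), ⟨hV, hV, by simp⟩, ?_⟩
    rw [← homogeneousComponent_eq_self hR, homogeneousComponent_zero]
    simp [Ev, hs]
  | succ n ih =>
    intro w R hR
    obtain ⟨R0, R1, h0, h1, rfl⟩ := hom_split (B := ℂ) 1 n (by omega) (hom_cast hR (add_comm _ _))
    obtain ⟨F0, hF0, rfl⟩ := ih w R0 h0
    obtain ⟨F1, hF1, rfl⟩ := ih (w + 4) R1 h1
    obtain ⟨G, hG, eG⟩ := hF0.Z0 a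
    refine ⟨_, hG.add hF1.Z1, ?_⟩
    simp only [Pi.add_apply, eG, map_add, map_mul, Ev, map_X, pow_one]

theorem Gam.generated (c : ℂ) (s : Fin 2 → ℂ) (b : Fin 2) (hs : s b = 1) (a : Fin 2) (n : ℕ)
    (R : MvPolynomial (Fin 2) ℂ) (hR : R.IsHomogeneous n) :
    ∃ G, Gam n 9 2 G ∧ Ev c s (G a) = R := by
  obtain ⟨F, hF, rfl⟩ := Gam.start c s b hs a n 9 R hR
  obtain ⟨F', hF', e⟩ := hF.up a
  rw [← e]
  exact Gam.down_all le_rfl c s a _ F' hF'

end Crest.Agent.R258
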