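import Crest.Agent.R258.Defs

set_option autoImplicit false

noncomputable section

namespace Crest.Agent.R258

open Crest.AlgGeometry.QuadricBundle

theorem g0_self (α : Chart) (X Y : ℂ) : g0 α α X Y = 1 := by
  ext i j; fin_cases i <;> fin_cases j <;> simp [g0]

theorem g0_cocycle (α β γ : Chart) (X Y : ℂ)
    (hx : α.1 ≠ β.1 ∨ α.1 ≠ γ.1 → X ≠ 0) (hy : α.2 ≠ β.2 ∨ α.2 ≠ γ.2 → Y ≠ 0) :
    g0 α β X Y * g0 β γ (if α.1 = β.1 then X else X⁻¹) (if α.2 = β.2 then Y else Y⁻¹)
      = g0 α γ X Y := by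
  obtain ⟨a, b⟩ := α
  obtain ⟨a', b'⟩ := β
  obtain ⟨a'', b''⟩ := γ
  ext i j
  fin_cases a <;> fin_cases a' <;> fin_cases a'' <;> fin_cases b <;> fin_cases b' <;>
    fin_cases b'' <;> simp at hx hy <;> fin_cases i <;> fin_cases j <;>
    simp [g0, Matrix.mul_apply, Fin.sum_univ_two, th, hom, thH] <;>
    field_simp <;> ring

theorem lineTrans_cocycle (r t : ℤ) (α β γ : Chart) (p : Fin 2 → ℂ)
    (h1 : p ∈ overlap α β) (h2 : p ∈ overlap α γ) :
    lineTrans r t α β p * lineTrans r t β γ (tau α β p) = lineTrans r t α γ p := by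
  obtain ⟨a, b⟩ := α
  obtain ⟨a', b'⟩ := β
  obtain ⟨a'', b''⟩ := γ
  simp only [overlap, Set.mem_ofPred_eq] at h1 h2
  obtain ⟨h11, h12⟩ := h1
  obtain ⟨h21, h22⟩ := h2
  fin_cases a <;> fin_cases a' <;> fin_cases a'' <;> fin_cases b <;> fin_cases b' <;>
    fin_cases b'' <;> simp at h11 h12 h21 h22 <;> simp [lineTrans, tau] <;>
    field_simp

theorem isHoloCocycle_gE (M : ℕ) : IsHoloCocycle (gE M) where
  refl α p := by simp [gE, g0_self, lineTrans]
  holo α β i j := by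
    obtain ⟨a, b⟩ := α
    obtain ⟨a', b'⟩ := β
    intro p hp
    apply DifferentiableAt.differentiableWithinAt
    simp only [overlap, Set.mem_ofPred_eq] at hp
    obtain ⟨h1, h2⟩ := hp
    fin_cases a <;> fin_cases a' <;> fin_cases b <;> fin_cases b' <;> simp at h1 h2 <;>
      fin_cases i <;> fin_cases j <;> simp [gE, g0, lineTrans, th, hom, thH] <;>
      fun_prop (disch := simp [*])
  cocycle α β γ p hp := by
    obtain ⟨h1, h2⟩ := hp
    have e0 : tau α β p 0 ^ M = if α.1 = β.1 then p 0 ^ M else (p 0 ^ M)⁻¹ := by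
      simp only [tau]; split_ifs <;> simp
    have e1 : tau α β p 1 ^ M = if α.2 = β.2 then p 1 ^ M else (p 1 ^ M)⁻¹ := by
      simp only [tau]; split_ifs <;> simp
    simp only [gE, smul_mul_smul_comm, lineTrans_cocycle 1 1 α β γ p h1 h2, e0, e1]
    rw [g0_cocycle]
    · rintro (h | h)
      · exact pow_ne_zero _ (h1.1 h)
      · exact pow_ne_zero _ (h2.1 h)
    · rintro (h | h)
      · exact pow_ne_zero _ (h1.2 h)
      · exact pow_ne_zero _ (h2.2 h)

end Crest.Agent.R258
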