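import Crest.Agent.R258.Amp3
import Crest.Agent.R258.Cocycle

/-!
Ampleness of `E_M`.
-/

set_option autoImplicit false

noncomputable section

namespace Crest.Agent.R258

open MvPolynomial Crest.AlgGeometry.QuadricBundle

/-- The change of frame as an algebra map. -/
def fS (M : Matrix (Fin 2) (Fin 2) ℂ) : MvPolynomial (Fin 2) ℂ →ₐ[ℂ] MvPolynomial (Fin 2) ℂ :=
  bind₁ (fun j => ∑ i, C (M i j) * X i)

theorem frameSubst_eq (M : Matrix (Fin 2) (Fin 2) ℂ) (Q : MvPolynomial (Fin 2) ℂ) :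
    frameSubst M Q = fS M Q := rfl

theorem fS_X (M : Matrix (Fin 2) (Fin 2) ℂ) (j : Fin 2) :
    fS M (X j) = C (M 0 j) * X 0 + C (M 1 j) * X 1 := by
  simp [fS, Fin.sum_univ_two]

theorem fS_C (M : Matrix (Fin 2) (Fin 2) ℂ) (c : ℂ) : fS M (C c) = C c := by simp [fS]

theorem fS_comp (A A' : Matrix (Fin 2) (Fin 2) ℂ) (Q : MvPolynomial (Fin 2) ℂ) :
    fS A (fS A' Q) = fS (A * A') Q := by
  have : (fS A).comp (fS A') = fS (A * A') := by
    apply MvPolynomial.algHom_ext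
    intro j
    simp only [AlgHom.comp_apply, fS_X, map_add, map_mul, fS_C, Matrix.mul_apply,
      Fin.sum_univ_two]
    ring
  exact DFunLike.congr_fun this Q

theorem fS_one (Q : MvPolynomial (Fin 2) ℂ) : fS 1 Q = Q := by
  have : fS 1 = AlgHom.id ℂ _ := by
    apply MvPolynomial.algHom_ext
    intro j
    fin_cases j <;> simp [fS_X]
  rw [this]; rfl

theorem fS_smul (c : ℂ) (A : Matrix (Fin 2) (Fin 2) ℂ) {n : ℕ} {Q : MvPolynomial (Fin 2) ℂ}
    (hQ : Q.IsHomogeneous n) : fS (c • A) Q = c ^ n • fS A Q := by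
  refine hom_induction (B := ℂ) (P := fun Q => fS (c • A) Q = c ^ n • fS A Q) ?_ ?_ ?_ hQ
  · simp
  · intro a b ha hb; simp only [map_add, ha, hb, smul_add]
  · rintro a i j rfl
    have h : ∀ k, fS (c • A) (X k) = C c * fS A (X k) := fun k => by
      simp only [fS_X, Matrix.smul_apply, smul_eq_mul, map_mul]; ring
    simp only [map_mul, map_pow, fS_C, h, smul_eq_C_mul]
    ring

theorem eval₂_scale {w : ℕ} (f : PL →+* ℂ) (c : ℂ) (s : Fin 2 → ℂ) {a : CB PL}
    (ha : a.IsHomogeneous w) : eval₂Hom f (c • s) a = c ^ w * eval₂Hom f s a := by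
  refine hom_induction (P := fun a => eval₂Hom f (c • s) a = c ^ w * eval₂Hom f s a) ?_ ?_ ?_ ha
  · simp
  · intro a b ha hb; simp only [map_add, ha, hb, mul_add]
  · rintro a i j rfl
    simp only [map_mul, map_pow, eval₂Hom_C, eval₂Hom_X', Pi.smul_apply, smul_eq_mul]
    ring

theorem Ev_C (x : ℂ) (s : Fin 2 → ℂ) (a : CB PL) :
    Ev x s (C a) = C (eval₂Hom (Polynomial.evalRingHom x) s a) := by simp [Ev]
theorem Ev_X (x : ℂ) (s : Fin 2 → ℂ) (i : Fin 2) : Ev x s (X i) = X i := by simp [Ev]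

theorem V.scale {n w : ℕ} {F : AB PL} (h : V n w F) (x c : ℂ) (s : Fin 2 → ℂ) :
    Ev x (c • s) F = c ^ w • fS !![1, 0; 0, c ^ 4] (Ev x s F) := by
  induction h with
  | C w a ha => rw [Ev_C, Ev_C, eval₂_scale _ _ _ ha, fS_C, smul_eq_C_mul, map_mul]
  | zero n w => simp
  | add _ _ ih1 ih2 => simp only [map_add, ih1, ih2, smul_add]
  | Z0 _ ih =>
    simp only [map_mul, ih, Ev_X, fS_X, smul_eq_C_mul]
    simp
    ring
  | Z1 _ ih =>
    simp only [map_mul, ih, Ev_X, fS_X, smul_eq_C_mul]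
    simp
    ring

theorem Gam.glue0 {n w : ℕ} {G : Fin 2 → AB PL} (h : Gam n w 2 G) {x : ℂ} (hx : x ≠ 0)
    (s : Fin 2 → ℂ) : Ev x s (G 0) = x ^ 2 •
      fS !![x ^ 4, 0; -thH 1 x (s 0) (s 1) * x⁻¹, x⁻¹ ^ 2] (Ev x⁻¹ s (G 1)) := by
  let evL : RL →+* ℂ := LaurentPolynomial.eval₂ (RingHom.id ℂ) (Units.mk0 x hx)
  have eT : evL TT = x := by simp [evL, TT]
  have eS : evL SSL = x⁻¹ := by simp [evL, SSL]
  have eC : ∀ c, evL (LaurentPolynomial.C c) = c := fun c => by simp [evL]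
  let EL : AB RL →+* MvPolynomial (Fin 2) ℂ := map (eval₂Hom evL s)
  have e0 : evL.comp i0 = Polynomial.evalRingHom x := by
    apply Polynomial.ringHom_ext <;> simp [eT, eC]
  have e1 : evL.comp i1 = Polynomial.evalRingHom x⁻¹ := by
    apply Polynomial.ringHom_ext <;> simp [eS, eC]
  have hC : ∀ a, EL (C a) = C (eval₂Hom evL s a) := fun a => by simp [EL]
  have hX : ∀ i, EL (X i) = X i := fun i => by simp [EL]
  have h0 : EL.comp j0 = Ev x s := by
    apply MvPolynomial.ringHom_ext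
    · intro a
      rw [RingHom.comp_apply, j0_C, hC, Ev_C, eval₂Hom_map_hom, e0]
    · intro i
      rw [RingHom.comp_apply, j0_X, hX, Ev_X]
  have h1 : EL.comp j1 = (fS !![x ^ 4, 0; -thH 1 x (s 0) (s 1) * x⁻¹, x⁻¹ ^ 2]).toRingHom.comp
      (Ev x⁻¹ s) := by
    apply MvPolynomial.ringHom_ext
    · intro a
      rw [RingHom.comp_apply, j1_C, hC, RingHom.comp_apply, Ev_C, eval₂Hom_map_hom, e1]
      exact (fS_C _ _).symm
    · intro i
      rw [RingHom.comp_apply, RingHom.comp_apply, Ev_X]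
      change _ = fS _ _
      rw [fS_X]
      fin_cases i
      · simp only [Fin.zero_eta, j1_X0, map_add, map_mul, hC, hX, map_pow, map_neg, eval₂Hom_C,
          eT, eS, eval₂_Th, map_one]
        simp
        ring
      · simp only [Fin.mk_one, j1_X1, map_mul, hC, hX, map_pow, eval₂Hom_C, eS]
        simp [← inv_pow]
  have := congrArg EL h.2.2
  rw [map_mul, map_pow, tt, hC, eval₂Hom_C, eT] at this
  rw [← h0, RingHom.comp_apply, this, smul_eq_C_mul, map_pow]
  congr 1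
  exact DFunLike.congr_fun h1 (G 1)

theorem Gam.glue1 {n w : ℕ} {G : Fin 2 → AB PL} (h : Gam n w 2 G) {x : ℂ} (hx : x ≠ 0)
    (s : Fin 2 → ℂ) : Ev x s (G 1) = x ^ 2 •
      fS !![x ^ 4, 0; thH x 1 (s 0) (s 1) * x⁻¹, x⁻¹ ^ 2] (Ev x⁻¹ s (G 0)) := by
  rw [h.glue0 (inv_ne_zero hx) s, map_smul, fS_comp, inv_inv, smul_smul]
  have : !![x ^ 4, 0; thH x 1 (s 0) (s 1) * x⁻¹, x⁻¹ ^ 2] *
      !![x⁻¹ ^ 4, 0; -thH 1 x⁻¹ (s 0) (s 1) * x, x ^ 2] = 1 := by
    ext i j
    fin_cases i <;> fin_cases j <;> simp [Matrix.mul_apply, Fin.sum_univ_two, thH] <;>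
      field_simp <;> ring
  rw [this, fS_one, ← mul_pow, mul_inv_cancel₀ hx, one_pow, one_smul]

theorem Gam.compat {n w : ℕ} {G : Fin 2 → AB PL} (h : Gam n w 2 G) (α β : Chart) (x y : ℂ)
    (hx : α.1 ≠ β.1 → x ≠ 0) (hy : α.2 ≠ β.2 → y ≠ 0) :
    Ev x (hom α.2 y) (G α.1) =
      ((if α.1 = β.1 then 1 else x ^ 2) * (if α.2 = β.2 then 1 else y ^ w)) •
        fS (g0 α β x y) (Ev (if α.1 = β.1 then x else x⁻¹)
          (hom β.2 (if α.2 = β.2 then y else y⁻¹)) (G β.1)) := by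
  obtain ⟨a, b⟩ := α
  obtain ⟨a', b'⟩ := β
  have hV : V n w (G a') := by fin_cases a'; exacts [h.1, h.2.1]
  have ystep : ∀ x' : ℂ, Ev x' (hom b y) (G a') = (if b = b' then 1 else y ^ w) •
      fS !![1, 0; 0, if b = b' then 1 else y ^ 4]
        (Ev x' (hom b' (if b = b' then y else y⁻¹)) (G a')) := by
    intro x'
    by_cases hb : b = b'
    · subst hb
      simp only [if_true, one_smul]
      rw [← Matrix.one_fin_two, fS_one]
    · have hy0 := hy hb
      simp only [if_neg hb]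
      have : hom b y = y • hom b' y⁻¹ := by
        funext i
        fin_cases b <;> fin_cases b' <;> simp at hb <;> fin_cases i <;> simp [hom, hy0]
      rw [← hV.scale, this]
  by_cases ha : a = a'
  · subst ha
    simp only [if_true, one_mul, g0]
    exact ystep x
  · have hx0 := hx ha
    simp only [if_neg ha, g0]
    have hm : ∀ θ : ℂ, !![x ^ 4, 0; θ * x⁻¹, x⁻¹ ^ 2] *
        !![1, 0; 0, if b = b' then 1 else y ^ 4] =
        !![x ^ 4, 0; θ * x⁻¹, x⁻¹ ^ 2 * if b = b' then 1 else y ^ 4] := by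
      intro θ
      ext i j
      fin_cases i <;> fin_cases j <;> simp [Matrix.mul_apply, Fin.sum_univ_two]
    have hab : (a = 0 ∧ a' = 1) ∨ (a = 1 ∧ a' = 0) := by
      revert ha; fin_cases a <;> fin_cases a' <;> simp
    rcases hab with ⟨rfl, rfl⟩ | ⟨rfl, rfl⟩
    · have ht : th 0 b x y = -thH 1 x (hom b y 0) (hom b y 1) := by simp [th, hom]
      rw [h.glue0 hx0, ystep, map_smul, fS_comp, smul_smul, hm, ht]
    · have ht : th 1 b x y = thH x 1 (hom b y 0) (hom b y 1) := by simp [th, hom]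
      rw [h.glue1 hx0, ystep, map_smul, fS_comp, smul_smul, hm, ht]

theorem differentiable_eval₂ {f : (Fin 2 → ℂ) → ℂ} {g : (Fin 2 → ℂ) → Fin 2 → ℂ}
    (hf : Differentiable ℂ f) (hg : ∀ i, Differentiable ℂ (fun p => g p i)) (c : CB PL) :
    Differentiable ℂ (fun p => eval₂Hom (Polynomial.evalRingHom (f p)) (g p) c) := by
  induction c using MvPolynomial.induction_on with
  | C a =>
    simp only [eval₂Hom_C, Polynomial.coe_evalRingHom]
    exact a.differentiable.comp hf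
  | add p q hp hq => simp only [map_add]; exact hp.add hq
  | mul_X p i hp => simp only [map_mul, eval₂Hom_X']; exact hp.mul (hg i)

theorem scalar_id {a a' a₀ : Fin 2} {x : ℂ} (hx : a ≠ a' → x ≠ 0) {e m n k : ℕ}
    (h : n = k + e + m) :
    (if a = a₀ then 1 else x ^ e) * (if a = a' then 1 else x ^ m) =
      (if a = a' then 1 else x ^ (-(k : ℤ))) * (if a = a' then 1 else x ^ (1 : ℤ)) ^ n *
        (if a' = a₀ then 1 else (if a = a' then x else x⁻¹) ^ e) := by
  subst h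
  by_cases ha : a = a'
  · subst ha; simp
  · have hx0 := hx ha
    fin_cases a <;> fin_cases a' <;> simp at ha <;> fin_cases a₀ <;> simp <;> field_simp <;> ring

theorem isAmple_gE (M : ℕ) : IsAmple (gE M) := by
  intro k
  refine ⟨k + 9 * M, fun n hn α₀ p₀ R hR => ?_⟩
  obtain ⟨e, rfl⟩ := Nat.exists_eq_add_of_le hn
  obtain ⟨G, hG, eG⟩ := Gam.generated (p₀ 0 ^ M) (hom α₀.2 (p₀ 1 ^ M)) α₀.2
    (by generalize α₀.2 = b; fin_cases b <;> simp [hom]) α₀.1 _ R hR
  have hV : ∀ a, V (k + 9 * M + e) 9 (G a) := fun a => by fin_cases a; exacts [hG.1, hG.2.1]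
  have hH : ∀ a x s, (Ev x s (G a)).IsHomogeneous (k + 9 * M + e) := fun a x s =>
    (hV a).isHom.map _
  refine ⟨fun α p => ((if α.1 = α₀.1 then 1 else p 0 ^ (e + 7 * M)) *
    (if α.2 = α₀.2 then 1 else p 1 ^ e)) • Ev (p 0 ^ M) (hom α.2 (p 1 ^ M)) (G α.1),
    ⟨fun α p => ?_, fun α m => ?_, fun α β p hp => ?_⟩, by simp [eG]⟩
  · beta_reduce
    rw [smul_eq_C_mul]; exact (hH _ _ _).C_mul _
  · simp only [coeff_smul, smul_eq_mul, Ev, coeff_map]
    refine Differentiable.mul (Differentiable.mul ?_ ?_) (differentiable_eval₂ ?_ ?_ _)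
    · split_ifs <;> fun_prop
    · split_ifs <;> fun_prop
    · fun_prop
    · intro i
      generalize α.2 = b
      fin_cases b <;> fin_cases i <;> simp [hom] <;> fun_prop
  · have e0 : tau α β p 0 = if α.1 = β.1 then p 0 else (p 0)⁻¹ := rfl
    have e1 : tau α β p 1 = if α.2 = β.2 then p 1 else (p 1)⁻¹ := rfl
    have e0' : tau α β p 0 ^ M = if α.1 = β.1 then p 0 ^ M else (p 0 ^ M)⁻¹ := by
      rw [e0]; split_ifs <;> simp
    have e1' : tau α β p 1 ^ M = if α.2 = β.2 then p 1 ^ M else (p 1 ^ M)⁻¹ := by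
      rw [e1]; split_ifs <;> simp
    beta_reduce
    rw [frameSubst_eq, map_smul, gE, fS_smul _ _ (hH _ _ _), e0', e1',
      hG.compat α β _ _ (fun h => pow_ne_zero _ (hp.1 h)) (fun h => pow_ne_zero _ (hp.2 h)),
      smul_smul, smul_smul, smul_smul, e0, e1]
    congr 1
    have s1 := scalar_id (a₀ := α₀.1) hp.1 (e := e + 7 * M) (m := M * 2) (n := k + 9 * M + e)
      (k := k) (by ring)
    have s2 := scalar_id (a₀ := α₀.2) hp.2 (e := e) (m := M * 9) (n := k + 9 * M + e)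
      (k := k) (by ring)
    simp only [lineTrans, ← pow_mul, mul_pow]
    linear_combination ((if α.2 = α₀.2 then 1 else p 1 ^ e) *
      (if α.2 = β.2 then 1 else p 1 ^ (M * 9))) * s1 +
      ((if α.1 = β.1 then 1 else p 0 ^ (-(k : ℤ))) *
        (if α.1 = β.1 then 1 else p 0 ^ (1 : ℤ)) ^ (k + 9 * M + e) *
        (if β.1 = α₀.1 then 1 else (if α.1 = β.1 then p 0 else (p 0)⁻¹) ^ (e + 7 * M))) * s2

end Crest.Agent.R258
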