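import Crest.Agent.R258.Sec

/-! Asymptotic forms of the circle-average estimates. -/

set_option autoImplicit false

noncomputable section

namespace Crest.Agent.R258

open Complex Filter Topology Matrix Real Asymptotics
open scoped ComplexConjugate ComplexOrder

theorem tw_tw (k k' : ℤ) (s : ℂ → V2) : tw k (tw k' s) = tw (k + k') s := by
  funext ζ
  simp only [tw, smul_smul, ← Complex.exp_add]
  congr 2; push_cast; ring

theorem fv_tw (K : ℂ → M2) (k : ℤ) (s u : ℂ → V2) (ρ : ℝ) :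
    fv K (tw k s) u ρ = avg (fun ζ => Complex.exp (k * ζ) * frm (K ζ) (s ζ) (u ζ)) ρ := by
  simp only [fv, tw, frm_smul_left]

theorem Cyl.norm_fv_tw_le {K : ℂ → M2} (hK : Cyl K) {s u : ℂ → V2} (hs : Per s) (hu : Per u)
    (k : ℤ) (ρ : ℝ) :
    ‖fv K (tw k s) u ρ‖ ≤ Real.exp (k * ρ) * ((nv K s ρ + nv K u ρ) / 2) := by
  have h1 := (hK.contDiff_nrm hs.diff).continuous
  have h2 := (hK.contDiff_nrm hu.diff).continuous
  have : Real.exp (k * ρ) * ((nv K s ρ + nv K u ρ) / 2)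
      = avg (fun ζ => (Real.exp (k * ρ) / 2) * (nrm (K ζ) (s ζ) + nrm (K ζ) (u ζ))) ρ := by
    rw [avg_rmul, avg_add h1 h2, nv, nv]; ring
  rw [this, fv_tw]
  refine norm_avg_le (by fun_prop) fun θ => ?_
  have := norm_frm_le (hK.pos (ρ + θ * I)) (s (ρ + θ * I)) (u (ρ + θ * I))
  rw [norm_mul, Complex.norm_exp]
  have e : ((k : ℂ) * (ρ + θ * I)).re = k * ρ := by simp
  rw [e]
  have := mul_le_mul_of_nonneg_left this (Real.exp_pos (k * ρ)).le
  linarith

theorem Cyl.flat_le {K : ℂ → M2} (hK : Cyl K) {u : ℂ → V2} (hu : Sec K 1 u) {ρ : ℝ}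
    (h2 : ρ ≤ 2) : nv K u ρ ≤ Real.exp 4 * nv K u 0 := by
  have := hK.growth hu (a := 0) (b := 2) (by norm_num)
  norm_num at this
  exact (hK.monotone_nv hu h2).trans this

variable {ι : Type*} {l : Filter ι} {K : ι → ℂ → M2} {s u : ι → ℂ → V2} {d : ι → ℕ} {k : ι → ℤ}

theorem littleO_of_eps {f : ι → ℂ} {a b : ι → ℝ} (ha : ∀ i, 0 ≤ a i) (hb : ∀ i, 0 ≤ b i)
    {C : ℝ} (hC : 0 < C)
    (h : ∀ ε : ℝ, 0 < ε → ε ≤ 1 → ∀ᶠ i in l, ‖f i‖ ≤ C * ε * (a i + b i)) :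
    f =o[l] fun i => a i + b i := by
  refine isLittleO_iff.2 fun c hc => ?_
  filter_upwards [h (min 1 (c / C)) (lt_min one_pos (div_pos hc hC)) (min_le_left _ _)] with i hi
  have h0 : 0 ≤ a i + b i := add_nonneg (ha i) (hb i)
  rw [Real.norm_of_nonneg h0]
  refine hi.trans (mul_le_mul_of_nonneg_right ?_ h0)
  calc C * min 1 (c / C) ≤ C * (c / C) := mul_le_mul_of_nonneg_left (min_le_right _ _) hC.le
    _ = c := by field_simp

theorem eventually_exp_le {k : ι → ℤ} (hk : Tendsto k l atBot) {δ ε : ℝ} (hδ : 0 < δ)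
    (hε : 0 < ε) : ∀ᶠ i in l, k i ≤ 0 ∧ Real.exp (k i * δ) ≤ ε := by
  have h1 : Tendsto (fun i => Real.exp ((k i : ℝ) * δ)) l (𝓝 0) :=
    Real.tendsto_exp_atBot.comp
      ((tendsto_intCast_atBot_iff.2 hk).atBot_mul_const hδ)
  exact (hk.eventually_le_atBot 0).and ((h1.eventually (ge_mem_nhds hε)))

theorem zero_left (hK : ∀ i, Cyl (K i)) (hs : ∀ i, Sec (K i) (d i) (s i))
    (hu : ∀ i, Sec (K i) 1 (u i)) (hk : Tendsto k l atTop) :
    (fun i => fv (K i) (tw (k i) (s i)) (u i) 0) =o[l]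
      fun i => nv (K i) (s i) 0 + nv (K i) (u i) 0 := by
  have hE : 1 ≤ Real.exp 4 := Real.one_le_exp (by norm_num)
  refine littleO_of_eps (fun i => (hK i).nv_nonneg _ _) (fun i => (hK i).nv_nonneg _ _)
    (C := 2 * Real.exp 4) (by positivity) fun ε hε hε1 => ?_
  filter_upwards [eventually_exp_le (k := fun i => -k i) (tendsto_neg_atTop_atBot.comp hk)
    (δ := ε ^ 2) (by positivity) hε] with i ⟨hi0, hi⟩
  have hk0 : (0 : ℝ) ≤ k i := by exact_mod_cast (by linarith : 0 ≤ k i)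
  have hε2 : 0 < ε ^ 2 := by positivity
  have h1 := (hK i).fv_const ((hs i).toPer.tw (k i)) (hu i) (a := -ε ^ 2) (b := 0)
    (A := nv (K i) (s i) 0) (by linarith) (fun ρ hρ => by
      rw [nv_tw]
      have e1 : Real.exp (2 * k i * ρ) ≤ 1 :=
        Real.exp_le_one_iff.2 (mul_nonpos_of_nonneg_of_nonpos (by linarith) hρ.2)
      have e2 := (hK i).monotone_nv (hs i) hρ.2
      have e3 := (hK i).nv_nonneg (s i) ρ
      nlinarith) hε
  have h2 := (hK i).norm_fv_tw_le (hs i).toPer (hu i).toPer (k i) (-ε ^ 2)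
  have h3 := (hK i).monotone_nv (hs i) (show -ε ^ 2 ≤ 0 by linarith)
  have h4 := (hK i).monotone_nv (hu i) (show -ε ^ 2 ≤ 0 by linarith)
  have h5 := (hK i).flat_le (hu i) (ρ := 0 + 1) (by norm_num)
  have h6 := (hK i).nv_nonneg (s i) 0
  have h7 := (hK i).nv_nonneg (u i) 0
  have h8 := (hK i).nv_nonneg (s i) (-ε ^ 2)
  have h9 := (hK i).nv_nonneg (u i) (-ε ^ 2)
  have e : (k i : ℝ) * -ε ^ 2 = ((-k i : ℤ) : ℝ) * ε ^ 2 := by push_cast; ring
  rw [e] at h2
  have h10 : ‖fv (K i) (tw (k i) (s i)) (u i) (-ε ^ 2)‖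
      ≤ ε * ((nv (K i) (s i) 0 + nv (K i) (u i) 0) / 2) :=
    h2.trans (mul_le_mul hi (by linarith) (by linarith) hε.le)
  have e2 : nv (K i) (s i) 0 * (0 - -ε ^ 2) / ε = ε * nv (K i) (s i) 0 := by
    field_simp; ring
  rw [e2] at h1
  have h11 := norm_sub_norm_le (fv (K i) (tw (k i) (s i)) (u i) 0)
    (fv (K i) (tw (k i) (s i)) (u i) (-ε ^ 2))
  have h12 := mul_le_mul_of_nonneg_left h5 hε.le
  have h13 : ε * nv (K i) (s i) 0 ≤ ε * (Real.exp 4 * nv (K i) (s i) 0) :=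
    mul_le_mul_of_nonneg_left (by nlinarith) hε.le
  have h14 : ε * nv (K i) (u i) 0 ≤ ε * (Real.exp 4 * nv (K i) (u i) 0) :=
    mul_le_mul_of_nonneg_left (by nlinarith) hε.le
  have h15 : 0 ≤ ε * nv (K i) (u i) 0 := by positivity
  have h16 : 0 ≤ ε * nv (K i) (s i) 0 := by positivity
  have h17 := h11.trans h1
  generalize nv (K i) (u i) (0 + 1) = x at *
  generalize nv (K i) (u i) 0 = y at *
  generalize nv (K i) (s i) 0 = z at *
  generalize ‖fv (K i) (tw (k i) (s i)) (u i) (-ε ^ 2)‖ = w at *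
  generalize ‖fv (K i) (tw (k i) (s i)) (u i) 0‖ = v at *
  linarith only [h17, h10, h12, h13, h14, h15, h16]

theorem zero_right (hK : ∀ i, Cyl (K i)) (hs : ∀ i, Sec (K i) (d i) (s i))
    (hu : ∀ i, Sec (K i) 1 (u i)) (hk : Tendsto (fun i => k i + d i) l atBot) :
    (fun i => fv (K i) (tw (k i) (s i)) (u i) 0) =o[l]
      fun i => nv (K i) (s i) 0 + nv (K i) (u i) 0 := by
  have hE : 1 ≤ Real.exp 4 := Real.one_le_exp (by norm_num)
  refine littleO_of_eps (fun i => (hK i).nv_nonneg _ _) (fun i => (hK i).nv_nonneg _ _)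
    (C := 2 * Real.exp 4) (by positivity) fun ε hε hε1 => ?_
  filter_upwards [eventually_exp_le hk (δ := ε ^ 2) (by positivity) hε] with i ⟨hi0, hi⟩
  have hk0 : ((k i + d i : ℤ) : ℝ) ≤ 0 := by exact_mod_cast hi0
  have hε2 : 0 < ε ^ 2 := by positivity
  have hε3 : ε ^ 2 ≤ 1 := by nlinarith
  have etw : tw (k i) (s i) = tw (k i + d i) (tw (-d i) (s i)) := by rw [tw_tw]; simp
  have e0 : nv (K i) (tw (-d i) (s i)) 0 = nv (K i) (s i) 0 := by rw [nv_tw]; simp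
  have h1 := (hK i).fv_const ((hs i).toPer.tw (k i)) (hu i) (a := 0) (b := ε ^ 2)
    (A := nv (K i) (s i) 0) (by linarith) (fun ρ hρ => by
      rw [etw, nv_tw]
      have e1 : Real.exp (2 * (k i + d i : ℤ) * ρ) ≤ 1 :=
        Real.exp_le_one_iff.2 (mul_nonpos_of_nonpos_of_nonneg (by linarith) hρ.1)
      have e2 := (hK i).antitone_nv_tw (hs i) hρ.1
      have e3 := (hK i).nv_nonneg (tw (-d i) (s i)) ρ
      rw [e0] at e2
      nlinarith) hε
  have h2 := (hK i).norm_fv_tw_le ((hs i).toPer.tw (-d i)) (hu i).toPer (k i + d i) (ε ^ 2)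
  rw [← etw] at h2
  have h3 := (hK i).antitone_nv_tw (hs i) hε2.le
  rw [e0] at h3
  have h4 := (hK i).flat_le (hu i) (ρ := ε ^ 2) (by linarith)
  have h5 := (hK i).flat_le (hu i) (ρ := ε ^ 2 + 1) (by linarith)
  have h6 := (hK i).nv_nonneg (s i) 0
  have h7 := (hK i).nv_nonneg (u i) 0
  have h8 := (hK i).nv_nonneg (tw (-d i) (s i)) (ε ^ 2)
  have h9 := (hK i).nv_nonneg (u i) (ε ^ 2)
  have h10 : ‖fv (K i) (tw (k i) (s i)) (u i) (ε ^ 2)‖
      ≤ ε * ((nv (K i) (s i) 0 + Real.exp 4 * nv (K i) (u i) 0) / 2) :=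
    h2.trans (mul_le_mul hi (by linarith) (by linarith) hε.le)
  have e2 : nv (K i) (s i) 0 * (ε ^ 2 - 0) / ε = ε * nv (K i) (s i) 0 := by
    field_simp; ring
  rw [e2] at h1
  have h11 := norm_sub_norm_le (fv (K i) (tw (k i) (s i)) (u i) 0)
    (fv (K i) (tw (k i) (s i)) (u i) (ε ^ 2))
  rw [norm_sub_rev] at h11
  have h12 := mul_le_mul_of_nonneg_left h5 hε.le
  have h13 : ε * nv (K i) (s i) 0 ≤ ε * (Real.exp 4 * nv (K i) (s i) 0) :=
    mul_le_mul_of_nonneg_left (by nlinarith) hε.le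
  have h15 : 0 ≤ ε * (Real.exp 4 * nv (K i) (u i) 0) := by positivity
  have h16 : 0 ≤ ε * nv (K i) (s i) 0 := by positivity
  nlinarith

theorem const_radius (hK : ∀ i, Cyl (K i)) (hs : ∀ i, Sec (K i) (d i) (s i))
    (hu : ∀ i, Sec (K i) 1 (u i)) {ρ : ι → ℝ} (h0 : ∀ i, 0 ≤ ρ i) (hρ : Tendsto ρ l (𝓝 0))
    {C : ℝ} (hC : ∀ᶠ i in l, (|k i| + d i) * ρ i ≤ C) :
    (fun i => fv (K i) (tw (k i) (s i)) (u i) (ρ i) - fv (K i) (tw (k i) (s i)) (u i) 0) =o[l]
      fun i => nv (K i) (s i) 0 + nv (K i) (u i) 0 := by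
  refine littleO_of_eps (fun i => (hK i).nv_nonneg _ _) (fun i => (hK i).nv_nonneg _ _)
    (C := Real.exp (2 * C) + Real.exp 4) (by positivity) fun ε hε hε1 => ?_
  have hε2 : 0 < ε ^ 2 := by positivity
  have hε3 : ε ^ 2 ≤ 1 := by nlinarith
  filter_upwards [hC, hρ.eventually (ge_mem_nhds hε2)] with i hi hi2
  have h6 := (hK i).nv_nonneg (s i) 0
  have h7 := (hK i).nv_nonneg (u i) 0
  have h1 := (hK i).fv_const ((hs i).toPer.tw (k i)) (hu i) (a := 0) (b := ρ i)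
    (A := Real.exp (2 * C) * nv (K i) (s i) 0) (h0 i) (fun r hr => by
      rw [nv_tw]
      have e2 := (hK i).growth (hs i) hr.1
      refine (mul_le_mul_of_nonneg_left e2 (Real.exp_pos _).le).trans ?_
      rw [← mul_assoc, ← Real.exp_add]
      refine mul_le_mul_of_nonneg_right (Real.exp_le_exp.2 ?_) h6
      have e3 : (k i : ℝ) ≤ |(k i : ℝ)| := le_abs_self _
      have e4 : (|(k i : ℝ)| + d i) * r ≤ (|(k i : ℝ)| + d i) * ρ i :=
        mul_le_mul_of_nonneg_left hr.2 (by positivity)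
      have e5 := mul_le_mul_of_nonneg_right e3 hr.1
      push_cast at hi
      nlinarith) hε
  have h5 := (hK i).flat_le (hu i) (ρ := ρ i + 1) (by linarith)
  have h12 := mul_le_mul_of_nonneg_left h5 hε.le
  have h13 : Real.exp (2 * C) * nv (K i) (s i) 0 * (ρ i - 0) / ε
      ≤ ε * (Real.exp (2 * C) * nv (K i) (s i) 0) := by
    rw [div_le_iff₀ hε, sub_zero]
    have := mul_le_mul_of_nonneg_left hi2
      (show 0 ≤ Real.exp (2 * C) * nv (K i) (s i) 0 by positivity)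
    nlinarith
  have h15 : 0 ≤ ε * (Real.exp 4 * nv (K i) (u i) 0) := by positivity
  have h16 : 0 ≤ ε * (Real.exp 4 * nv (K i) (s i) 0) := by positivity
  have h17 : 0 ≤ ε * (Real.exp (2 * C) * nv (K i) (u i) 0) := by positivity
  nlinarith

/-- Integrating a uniform little-o estimate over a circle. -/
theorem avg_littleO {f : ℕ → ℂ → ℂ} {g : ℕ → ℂ → ℝ} {ρ : ℕ → ℝ} (hg : ∀ n, Continuous (g n))
    (hg0 : ∀ n ζ, 0 ≤ g n ζ)
    (h : (fun i : ℕ × ℝ => f i.1 (ρ i.1 + i.2 * I)) =o[atTop ×ˢ ⊤]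
      fun i => g i.1 (ρ i.1 + i.2 * I)) :
    (fun n => avg (f n) (ρ n)) =o[atTop] fun n => avg (g n) (ρ n) := by
  refine isLittleO_iff.2 fun c hc => ?_
  have := isLittleO_iff.1 h hc
  rw [eventually_prod_iff] at this
  obtain ⟨p, hp, q, hq, hpq⟩ := this
  filter_upwards [hp] with n hn
  rw [Real.norm_of_nonneg (avg_nonneg fun _ => hg0 _ _), ← avg_rmul]
  have := hg n
  refine norm_avg_le (by fun_prop) fun θ => ?_
  have := hpq hn (eventually_top.1 hq θ)
  rwa [Real.norm_of_nonneg (hg0 _ _)] at this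

theorem avg_swap {E : Type*} [NormedAddCommGroup E] [NormedSpace ℝ E] {f : ℂ → ℂ → E}
    (hf : Continuous f.uncurry) (ρ ρ' : ℝ) :
    avg (fun ζ => avg (fun ω => f ζ ω) ρ') ρ = avg (fun ω => avg (fun ζ => f ζ ω) ρ) ρ' := by
  unfold avg
  apply MeasureTheory.intervalIntegral_intervalIntegral_swap
  have hc : Continuous (Function.uncurry fun (x y : ℝ) => f (ρ + x * I) (ρ' + y * I)) :=
    hf.comp (by fun_prop : Continuous fun p : ℝ × ℝ => ((ρ + p.1 * I : ℂ), (ρ' + p.2 * I : ℂ)))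
  exact (hc.continuousOn.integrableOn_compact (isCompact_uIcc.prod isCompact_uIcc)).mono_set
    (Set.prod_mono Set.uIoc_subset_uIcc Set.uIoc_subset_uIcc)

theorem continuous_avg_param {E X : Type*} [NormedAddCommGroup E] [NormedSpace ℝ E]
    [TopologicalSpace X] {f : X → ℂ → E} (hf : Continuous f.uncurry) (ρ : ℝ) :
    Continuous fun x => avg (f x) ρ := by
  unfold avg
  apply intervalIntegral.continuous_parametric_intervalIntegral_of_continuous'
  exact hf.comp (by fun_prop : Continuous fun p : X × ℝ => (p.1, (ρ + p.2 * I : ℂ)))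

end Crest.Agent.R258
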