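import Crest.Agent.R258.Form

/-! Averages over circles (in logarithmic coordinates) of negatively curved metrics. -/

set_option autoImplicit false

noncomputable section

namespace Crest.Agent.R258

open Complex Filter Topology Matrix Real
open scoped ComplexConjugate ComplexOrder

/-- Integral over the segment `Re ζ = ρ`, `|Im ζ| ≤ π`. -/
def avg {E : Type*} [NormedAddCommGroup E] [NormedSpace ℝ E] (Φ : ℂ → E) (ρ : ℝ) : E :=
  ∫ θ in (-π)..π, Φ (ρ + θ * I)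

/-- Real directional derivative. -/
def D {E : Type*} [NormedAddCommGroup E] [NormedSpace ℝ E] (v : ℂ) (Φ : ℂ → E) (ζ : ℂ) : E :=
  fderiv ℝ Φ ζ v

section general
variable {E : Type*} [NormedAddCommGroup E] [NormedSpace ℝ E]

theorem contDiff_D {Φ : ℂ → E} (v : ℂ) (h : ContDiff ℝ 2 Φ) : ContDiff ℝ 1 (D v Φ) :=
  (h.fderiv_right (m := 1) (by norm_num)).clm_apply contDiff_const

theorem continuous_D {Φ : ℂ → E} (v : ℂ) (h : ContDiff ℝ 1 Φ) : Continuous (D v Φ) :=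
  (h.continuous_fderiv (by norm_num)).clm_apply continuous_const

theorem D_per {Φ : ℂ → E} (v : ℂ) (h : ∀ ζ, Φ (ζ + 2 * π * I) = Φ ζ) (ζ : ℂ) :
    D v Φ (ζ + 2 * π * I) = D v Φ ζ := by
  have : Φ = fun ζ => Φ (ζ + 2 * π * I) := by funext ζ; rw [h]
  conv_rhs => rw [this]
  simp only [D, fderiv_comp_add_right]

theorem hasDerivAt_D {Φ : ℂ → E} (h : Differentiable ℝ Φ) (z v : ℂ) (t : ℝ) :
    HasDerivAt (fun t : ℝ => Φ (z + t * v)) (D v Φ (z + t * v)) t :=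
  (h _).hasFDerivAt.comp_hasDerivAt t (hasDerivAt_line z v t)

omit [NormedSpace ℝ E] in
theorem intervalIntegrable_avg {Φ : ℂ → E} (h : Continuous Φ) (ρ : ℝ) :
    IntervalIntegrable (fun θ : ℝ => Φ (ρ + θ * I)) MeasureTheory.volume (-π) π :=
  Continuous.intervalIntegrable (by fun_prop) _ _

theorem continuous_avg {Φ : ℂ → E} (h : Continuous Φ) : Continuous (avg Φ) := by
  unfold avg
  apply intervalIntegral.continuous_parametric_intervalIntegral_of_continuous'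
  exact h.comp (by fun_prop : Continuous fun p : ℝ × ℝ => (p.1 : ℂ) + p.2 * I)

theorem avg_add {Φ Ψ : ℂ → E} (h : Continuous Φ) (h' : Continuous Ψ) (ρ : ℝ) :
    avg (fun ζ => Φ ζ + Ψ ζ) ρ = avg Φ ρ + avg Ψ ρ :=
  intervalIntegral.integral_add (intervalIntegrable_avg h ρ) (intervalIntegrable_avg h' ρ)

theorem avg_sub {Φ Ψ : ℂ → E} (h : Continuous Φ) (h' : Continuous Ψ) (ρ : ℝ) :
    avg (fun ζ => Φ ζ - Ψ ζ) ρ = avg Φ ρ - avg Ψ ρ :=
  intervalIntegral.integral_sub (intervalIntegrable_avg h ρ) (intervalIntegrable_avg h' ρ)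

theorem avg_congr {Φ Ψ : ℂ → E} {ρ : ℝ} (h : ∀ θ : ℝ, Φ (ρ + θ * I) = Ψ (ρ + θ * I)) :
    avg Φ ρ = avg Ψ ρ := by
  simp only [avg, h]

theorem avg_cmul (c : ℂ) (Φ : ℂ → ℂ) (ρ : ℝ) : avg (fun ζ => c * Φ ζ) ρ = c * avg Φ ρ :=
  intervalIntegral.integral_const_mul _ _

theorem avg_rmul (c : ℝ) (Φ : ℂ → ℝ) (ρ : ℝ) : avg (fun ζ => c * Φ ζ) ρ = c * avg Φ ρ :=
  intervalIntegral.integral_const_mul _ _

theorem avg_re {Φ : ℂ → ℂ} (h : Continuous Φ) (ρ : ℝ) :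
    avg (fun ζ => (Φ ζ).re) ρ = (avg Φ ρ).re :=
  Complex.reCLM.intervalIntegral_comp_comm (intervalIntegrable_avg h ρ)

theorem avg_ofReal (Φ : ℂ → ℝ) (ρ : ℝ) : avg (fun ζ => (Φ ζ : ℂ)) ρ = (avg Φ ρ : ℝ) :=
  intervalIntegral.integral_ofReal

theorem avg_conj (Φ : ℂ → ℂ) (ρ : ℝ) : avg (fun ζ => conj (Φ ζ)) ρ = conj (avg Φ ρ) := by
  simp only [avg, intervalIntegral, integral_conj, map_sub]

theorem avg_mono {Φ Ψ : ℂ → ℝ} (h : Continuous Φ) (h' : Continuous Ψ) {ρ : ℝ}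
    (hle : ∀ θ : ℝ, Φ (ρ + θ * I) ≤ Ψ (ρ + θ * I)) : avg Φ ρ ≤ avg Ψ ρ :=
  intervalIntegral.integral_mono_on (by linarith [pi_pos]) (intervalIntegrable_avg h ρ)
    (intervalIntegrable_avg h' ρ) (fun θ _ => hle θ)

theorem avg_nonneg {Φ : ℂ → ℝ} {ρ : ℝ} (hle : ∀ θ : ℝ, 0 ≤ Φ (ρ + θ * I)) : 0 ≤ avg Φ ρ :=
  intervalIntegral.integral_nonneg (by linarith [pi_pos]) (fun θ _ => hle θ)

theorem norm_avg_le {Φ : ℂ → E} {Ψ : ℂ → ℝ} (h' : Continuous Ψ) {ρ : ℝ}
    (hle : ∀ θ : ℝ, ‖Φ (ρ + θ * I)‖ ≤ Ψ (ρ + θ * I)) : ‖avg Φ ρ‖ ≤ avg Ψ ρ :=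
  intervalIntegral.norm_integral_le_of_norm_le (by linarith [pi_pos])
    (Eventually.of_forall fun θ _ => hle θ) (intervalIntegrable_avg h' ρ)

theorem avg_const (c ρ : ℝ) : avg (fun _ => c) ρ = 2 * π * c := by
  simp only [avg, intervalIntegral.integral_const, smul_eq_mul]; ring

theorem hasDerivAt_avg {Φ : ℂ → E} (h : ContDiff ℝ 1 Φ) (ρ : ℝ) :
    HasDerivAt (avg Φ) (avg (D 1 Φ) ρ) ρ := by
  have hc := continuous_D 1 h
  have hc2 : Continuous fun p : ℝ × ℝ => D 1 Φ (p.1 + p.2 * I) := by fun_prop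
  obtain ⟨C, hC⟩ := ((isCompact_Icc (a := ρ - 1) (b := ρ + 1)).prod
    (isCompact_uIcc (a := -π) (b := π))).exists_bound_of_continuousOn hc2.continuousOn
  have hΦ := h.continuous
  refine (intervalIntegral.hasDerivAt_integral_of_dominated_loc_of_deriv_le
    (F := fun (r : ℝ) (θ : ℝ) => Φ (r + θ * I)) (F' := fun (r : ℝ) (θ : ℝ) => D 1 Φ (r + θ * I))
    (bound := fun _ => C) (s := Set.Icc (ρ - 1) (ρ + 1)) (Icc_mem_nhds (by linarith) (by linarith))
    (Eventually.of_forall fun r => Continuous.aestronglyMeasurable (by fun_prop))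
    (intervalIntegrable_avg hΦ ρ) (Continuous.aestronglyMeasurable (by fun_prop))
    (Eventually.of_forall fun θ hθ r hr => hC (r, θ) ⟨hr, Set.uIoc_subset_uIcc hθ⟩)
    intervalIntegrable_const (Eventually.of_forall fun θ _ r _ => ?_)).2
  have := hasDerivAt_D (h.differentiable (by simp)) (θ * I) 1 r
  simpa [add_comm] using this

theorem avg_DI [CompleteSpace E] {Φ : ℂ → E} (h : ContDiff ℝ 1 Φ)
    (hp : ∀ ζ, Φ (ζ + 2 * π * I) = Φ ζ) (ρ : ℝ) : avg (D I Φ) ρ = 0 := by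
  rw [avg, intervalIntegral.integral_eq_sub_of_hasDerivAt
    (fun θ _ => hasDerivAt_D (h.differentiable (by simp)) ρ I θ)
    (intervalIntegrable_avg (continuous_D I h) ρ), sub_eq_zero, ← hp (ρ + (-π : ℝ) * I)]
  congr 1; push_cast; ring

theorem lap_eq_D {F : ℂ → ℝ} (h : ContDiff ℝ 2 F) (ζ : ℂ) :
    lap F ζ = D 1 (D 1 F) ζ + D I (D I F) ζ := by
  have key : ∀ v, d2 F ζ v = D v (D v F) ζ := by
    intro v
    rw [d2_eq h.contDiffAt]
    have h4 : DifferentiableAt ℝ (fderiv ℝ F) ζ :=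
      ((h.fderiv_right (m := 1) (by norm_num)).differentiable (by simp)) ζ
    unfold D
    rw [fderiv_clm_apply h4 (differentiableAt_const _)]
    simp
  rw [lap, key, key]

theorem hasDerivAt_avg_D1 {F : ℂ → ℝ} (h : ContDiff ℝ 2 F) (hp : ∀ ζ, F (ζ + 2 * π * I) = F ζ)
    (ρ : ℝ) : HasDerivAt (avg (D 1 F)) (avg (lap F) ρ) ρ := by
  have e : lap F = fun ζ => D 1 (D 1 F) ζ + D I (D I F) ζ := funext (lap_eq_D h)
  rw [e, avg_add (continuous_D 1 (contDiff_D 1 h)) (continuous_D I (contDiff_D I h)),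
    avg_DI (contDiff_D I h) (D_per I hp), add_zero]
  exact hasDerivAt_avg (contDiff_D 1 h) ρ

theorem continuous_lap {F : ℂ → ℝ} (h : ContDiff ℝ 2 F) : Continuous (lap F) := by
  have e : lap F = fun ζ => D 1 (D 1 F) ζ + D I (D I F) ζ := funext (lap_eq_D h)
  rw [e]
  exact (continuous_D 1 (contDiff_D 1 h)).add (continuous_D I (contDiff_D I h))

end general

/-- A smooth periodic positive Hermitian matrix function on the plane for which norms of
holomorphic sections are subharmonic. -/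
structure Cyl (K : ℂ → M2) : Prop where
  smooth : ∀ i j, ContDiff ℝ 2 (fun ζ => K ζ i j)
  pos : ∀ ζ, (K ζ).PosDef
  per : ∀ ζ, K (ζ + 2 * π * I) = K ζ
  sub : ∀ w : ℂ → V2, Differentiable ℂ w → ∀ ζ, 0 ≤ lap (fun ζ => nrm (K ζ) (w ζ)) ζ

theorem contDiff_apply_of_differentiable {s : ℂ → V2} (hs : Differentiable ℂ s) (i : Fin 2) :
    ContDiff ℝ 2 (fun ζ => s ζ i) :=
  ((differentiable_pi.1 hs i).contDiff (n := 2)).restrict_scalars ℝ

theorem ContDiff_conj {E : Type*} [NormedAddCommGroup E] [NormedSpace ℝ E] {f : E → ℂ}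
    {n : WithTop ℕ∞} (h : ContDiff ℝ n f) : ContDiff ℝ n (fun x => conj (f x)) :=
  Complex.conjCLE.contDiff.comp h

theorem Cyl.contDiff_frm {K : ℂ → M2} (hK : Cyl K) {s u : ℂ → V2} (hs : Differentiable ℂ s)
    (hu : Differentiable ℂ u) : ContDiff ℝ 2 (fun ζ => frm (K ζ) (s ζ) (u ζ)) := by
  simp only [frm_eq]
  have := hK.smooth
  have h1 := contDiff_apply_of_differentiable hs
  have h2 := fun i => ContDiff_conj (contDiff_apply_of_differentiable hu i)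
  exact ((h2 0).mul (((this 0 0).mul (h1 0)).add ((this 0 1).mul (h1 1)))).add
    ((h2 1).mul (((this 1 0).mul (h1 0)).add ((this 1 1).mul (h1 1))))

theorem Cyl.contDiff_nrm {K : ℂ → M2} (hK : Cyl K) {s : ℂ → V2} (hs : Differentiable ℂ s) :
    ContDiff ℝ 2 (fun ζ => nrm (K ζ) (s ζ)) :=
  Complex.reCLM.contDiff.comp (hK.contDiff_frm hs hs)

theorem Cyl.pointwise {K : ℂ → M2} (hK : Cyl K) {s u : ℂ → V2} (hs : Differentiable ℂ s)
    (hu : Differentiable ℂ u) (t ζ : ℂ) :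
    0 ≤ 4 * nrm (K ζ) (s ζ)
      + 4 * (conj t * (D 1 (fun ζ => frm (K ζ) (s ζ) (u ζ)) ζ
          + I * D I (fun ζ => frm (K ζ) (s ζ) (u ζ)) ζ)).re
      + ‖t‖ ^ 2 * lap (fun ζ => nrm (K ζ) (u ζ)) ζ := by
  set G := fun ζ => frm (K ζ) (s ζ) (u ζ) with hG
  have hGs : ContDiff ℝ 2 G := hK.contDiff_frm hs hu
  have hns := hK.contDiff_nrm hs
  have hnu := hK.contDiff_nrm hu
  have h := hK.sub (fun z => (z - ζ) • s z + t • u z) (by fun_prop) ζ
  have key : ∀ v : ℂ, ‖v‖ = 1 →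
      d2 (fun z => nrm (K z) ((z - ζ) • s z + t • u z)) ζ v
        = 2 * nrm (K ζ) (s ζ) + 4 * (conj t * (v * D v G ζ)).re
          + ‖t‖ ^ 2 * d2 (fun ζ => nrm (K ζ) (u ζ)) ζ v := by
    intro v hv
    have hl : ContDiff ℝ 2 (fun τ : ℝ => ζ + τ * v) :=
      contDiff_const.add (Complex.ofRealCLM.contDiff.mul contDiff_const)
    have e : (fun τ : ℝ => nrm (K (ζ + τ * v)) ((ζ + τ * v - ζ) • s (ζ + τ * v) + t • u (ζ + τ * v)))
        = fun τ : ℝ => τ ^ 2 * nrm (K (ζ + τ * v)) (s (ζ + τ * v))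
          + τ * (2 * (v * conj t * G (ζ + τ * v)).re)
          + ‖t‖ ^ 2 * nrm (K (ζ + τ * v)) (u (ζ + τ * v)) := by
      funext τ
      rw [nrm_add_smul (hK.pos _).isHermitian, add_sub_cancel_left, norm_mul, hv, mul_one,
        Complex.norm_real, Real.norm_eq_abs, sq_abs, mul_assoc, mul_assoc, re_ofReal_mul, hG]
      simp only [mul_assoc]; ring
    have he : ContDiff ℝ 2 (fun τ : ℝ => 2 * (v * conj t * G (ζ + τ * v)).re) :=
      contDiff_const.mul (Complex.reCLM.contDiff.comp (contDiff_const.mul (hGs.comp hl)))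
    have hde : deriv (fun τ : ℝ => 2 * (v * conj t * G (ζ + τ * v)).re) 0
        = 2 * (conj t * (v * D v G ζ)).re := by
      have h1 := ((hasDerivAt_D (hGs.differentiable (by simp)) ζ v 0).const_mul (v * conj t))
      have h2 := (Complex.reCLM.hasFDerivAt.comp_hasDerivAt (0 : ℝ) h1).const_mul 2
      refine h2.deriv.trans ?_
      simp only [reCLM_apply, ofReal_zero, zero_mul, add_zero]
      congr 2; ring
    have ha : ContDiff ℝ 2 (fun τ : ℝ => nrm (K (ζ + τ * v)) (s (ζ + τ * v))) := hns.comp hl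
    have hc : ContDiff ℝ 2 (fun τ : ℝ => ‖t‖ ^ 2 * nrm (K (ζ + τ * v)) (u (ζ + τ * v))) :=
      contDiff_const.mul (hnu.comp hl)
    rw [d2, e, deriv2_expand ha he hc, hde]
    simp only [ofReal_zero, zero_mul, add_zero, deriv_const_mul_field', d2]
    ring
  rw [lap, key 1 (by simp), key I (by simp)] at h
  rw [lap, mul_add (conj t), add_re]
  simp only [one_mul] at h
  linarith

end Crest.Agent.R258
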