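import Crest.Agent.R258.Lap

/-! Hermitian forms on `ℂ²` given by matrices; the dual metric. -/

set_option autoImplicit false

noncomputable section

namespace Crest.Agent.R258

open Complex Filter Topology Matrix
open scoped ComplexConjugate ComplexOrder

abbrev V2 := Fin 2 → ℂ
abbrev M2 := Matrix (Fin 2) (Fin 2) ℂ

/-- The sesquilinear form of `K`, linear in the first and antilinear in the second vector. -/
def frm (K : M2) (w w' : V2) : ℂ := star w' ⬝ᵥ K *ᵥ w

/-- The squared norm of `w` for `K`. -/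
def nrm (K : M2) (w : V2) : ℝ := (frm K w w).re

theorem frm_eq (K : M2) (w w' : V2) : frm K w w'
    = conj (w' 0) * (K 0 0 * w 0 + K 0 1 * w 1) + conj (w' 1) * (K 1 0 * w 0 + K 1 1 * w 1) := by
  simp [frm, dotProduct, mulVec, Fin.sum_univ_two]

theorem frm_add_left (K : M2) (s t u : V2) : frm K (s + t) u = frm K s u + frm K t u := by
  simp [frm_eq]; ring

theorem frm_sub_left (K : M2) (s t u : V2) : frm K (s - t) u = frm K s u - frm K t u := by
  simp [frm_eq]; ring

theorem frm_smul_left (K : M2) (c : ℂ) (s u : V2) : frm K (c • s) u = c * frm K s u := by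
  simp [frm_eq]; ring

theorem frm_add_right (K : M2) (s t u : V2) : frm K u (s + t) = frm K u s + frm K u t := by
  simp [frm_eq]; ring

theorem frm_smul_right (K : M2) (c : ℂ) (s u : V2) : frm K u (c • s) = conj c * frm K u s := by
  simp [frm_eq]; ring

theorem frm_conj {K : M2} (hK : K.IsHermitian) (s u : V2) : conj (frm K s u) = frm K u s := by
  have h (i j : Fin 2) : conj (K i j) = K j i := by
    have := congrFun (congrFun hK j) i
    simpa [conjTranspose_apply] using this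
  simp [frm_eq, h]; ring

theorem frm_self {K : M2} (hK : K.IsHermitian) (s : V2) : frm K s s = (nrm K s : ℂ) := by
  rw [nrm, eq_comm, ← conj_eq_iff_re, frm_conj hK]

theorem nrm_nonneg {K : M2} (hK : K.PosDef) (s : V2) : 0 ≤ nrm K s :=
  hK.posSemidef.re_dotProduct_nonneg s

theorem nrm_pos {K : M2} (hK : K.PosDef) {s : V2} (hs : s ≠ 0) : 0 < nrm K s :=
  hK.re_dotProduct_pos hs

theorem nrm_smul (K : M2) (c : ℂ) (s : V2) : nrm K (c • s) = ‖c‖ ^ 2 * nrm K s := by
  rw [nrm, frm_smul_left, frm_smul_right, ← mul_assoc, mul_conj, normSq_eq_norm_sq]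
  simp [nrm, -ofReal_pow]

theorem nrm_add {K : M2} (hK : K.IsHermitian) (s u : V2) :
    nrm K (s + u) = nrm K s + 2 * (frm K s u).re + nrm K u := by
  rw [nrm, frm_add_left, frm_add_right, frm_add_right, ← frm_conj hK s u]
  simp [nrm]; ring

theorem nrm_add_smul {K : M2} (hK : K.IsHermitian) (a t : ℂ) (s u : V2) :
    nrm K (a • s + t • u)
      = ‖a‖ ^ 2 * nrm K s + 2 * (a * conj t * frm K s u).re + ‖t‖ ^ 2 * nrm K u := by
  rw [nrm_add hK, nrm_smul, nrm_smul, frm_smul_left, frm_smul_right, mul_assoc]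

theorem norm_frm_le {K : M2} (hK : K.PosDef) (s u : V2) :
    ‖frm K s u‖ ≤ (nrm K s + nrm K u) / 2 := by
  obtain ⟨c, hc1, hc⟩ : ∃ c : ℂ, ‖c‖ = 1 ∧ c * frm K s u = -(‖frm K s u‖ : ℂ) := by
    obtain ⟨c, h1, h2⟩ := Complex.exists_norm_eq_mul_self (frm K s u)
    exact ⟨-c, by simpa using h1, by rw [h2]; ring⟩
  have := nrm_nonneg hK (c • s + (1 : ℂ) • u)
  rw [nrm_add_smul hK.isHermitian, hc1] at this
  simp only [map_one, mul_one, hc] at this
  simp at this
  linarith

theorem nrm_sub_le {K : M2} (hK : K.PosDef) (c : ℂ) (s u : V2) :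
    nrm K (s - c • u) ≤ 2 * nrm K s + 2 * ‖c‖ ^ 2 * nrm K u := by
  have h1 := nrm_nonneg hK (s + c • u)
  have h2 : s - c • u = s + (-c) • u := by simp [sub_eq_add_neg]
  rw [nrm_add hK.isHermitian, nrm_smul, frm_smul_right] at h1
  rw [h2, nrm_add hK.isHermitian, nrm_smul, frm_smul_right]
  simp only [map_neg, neg_mul, neg_re, norm_neg]
  linarith

/-- The squared norm in the convention of the statement. -/
def hsq (H : M2) (v : V2) : ℝ := (∑ i, ∑ j, H i j * v i * conj (v j)).re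

theorem hsq_eq (H : M2) (v : V2) : hsq H v = nrm H (star v) := by
  simp [hsq, nrm, frm_eq, Fin.sum_univ_two]; ring

theorem frm_inv {H : M2} (hH : H.PosDef) (w u : V2) : frm H (H⁻¹ *ᵥ w) u = star u ⬝ᵥ w := by
  rw [frm, mulVec_mulVec, mul_nonsing_inv _ ((isUnit_iff_isUnit_det _).1 hH.isUnit), one_mulVec]

theorem nrm_inv {H : M2} (hH : H.PosDef) (w : V2) : nrm H (H⁻¹ *ᵥ w) = nrm H⁻¹ w := by
  rw [nrm, frm_inv hH, nrm, frm, ← conj_re]
  congr 1
  simp [dotProduct, Fin.sum_univ_two]; ring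

theorem dual_ineq {H : M2} (hH : H.PosDef) (w v : V2) :
    0 ≤ nrm H⁻¹ w + (-2 * (w ⬝ᵥ v)).re + hsq H v := by
  have := nrm_nonneg hH ((-1 : ℂ) • (H⁻¹ *ᵥ w) + (1 : ℂ) • star v)
  rw [nrm_add_smul hH.isHermitian, frm_inv hH, nrm_inv hH, ← hsq_eq] at this
  simp only [norm_neg, norm_one, one_pow, one_mul, map_one, mul_one, star_star] at this
  rw [dotProduct_comm]
  simp at this ⊢
  linarith

theorem dual_eq {H : M2} (hH : H.PosDef) (w : V2) :
    nrm H⁻¹ w + (-2 * (w ⬝ᵥ star (H⁻¹ *ᵥ w))).re + hsq H (star (H⁻¹ *ᵥ w)) = 0 := by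
  rw [hsq_eq, star_star, dotProduct_comm, ← frm_inv hH, frm_self hH.isHermitian, nrm_inv hH]
  simp; ring

theorem nrm_trans {H H' g : M2} (hg : IsUnit g.det)
    (h : H' = g.transpose * H * g.map conj) (w : V2) :
    nrm H'⁻¹ (g.transpose *ᵥ w) = nrm H⁻¹ w := by
  have hgt : IsUnit g.transpose.det := by rwa [det_transpose]
  have hgc : g.map conj = g.transposeᴴ := by
    ext i j; simp [conjTranspose_apply]
  have hgc' : IsUnit (g.transposeᴴ).det := by
    rw [det_conjTranspose]; exact hgt.star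
  rw [h, hgc, Matrix.mul_inv_rev, Matrix.mul_inv_rev, nrm, nrm, frm, frm, star_mulVec,
    ← dotProduct_mulVec, mulVec_mulVec, mulVec_mulVec]
  congr 3
  rw [← Matrix.mul_assoc, ← Matrix.mul_assoc, mul_nonsing_inv _ hgc', Matrix.one_mul,
    Matrix.mul_assoc, nonsing_inv_mul _ hgt, Matrix.mul_one]

theorem contDiff_inv_entry {E : Type*} [NormedAddCommGroup E] [NormedSpace ℝ E] {H : E → M2}
    {n : WithTop ℕ∞} (hH : ∀ i j, ContDiff ℝ n (fun p => H p i j)) (hp : ∀ p, (H p).PosDef)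
    (i j : Fin 2) : ContDiff ℝ n (fun p => (H p)⁻¹ i j) := by
  have hd : ∀ p, H p 0 0 * H p 1 1 - H p 0 1 * H p 1 0 ≠ 0 := fun p => by
    rw [← det_fin_two]; exact (hp p).det_pos.ne'
  have h0 := hH 0 0
  have h1 := hH 0 1
  have h2 := hH 1 0
  have h3 := hH 1 1
  have hi : ContDiff ℝ n (fun p => (H p 0 0 * H p 1 1 - H p 0 1 * H p 1 0)⁻¹) :=
    ((h0.mul h3).sub (h1.mul h2)).inv hd
  have e : (fun p => (H p)⁻¹ i j) = fun p => (H p 0 0 * H p 1 1 - H p 0 1 * H p 1 0)⁻¹ *
      (!![H p 1 1, -H p 0 1; -H p 1 0, H p 0 0] : M2) i j := by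
    funext p
    rw [Matrix.inv_def, det_fin_two, adjugate_fin_two, Ring.inverse_eq_inv', Matrix.smul_apply,
      smul_eq_mul]
  rw [e]
  apply hi.mul
  fin_cases i <;> fin_cases j <;> simp <;> fun_prop

end Crest.Agent.R258
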