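import Mathlib

/-! Second directional derivatives and the Laplacian on `ℂ`, in the elementary form used by the
definition of Griffiths positivity. -/

set_option autoImplicit false

noncomputable section

namespace Crest.Agent.R258

open Complex Filter Topology

/-- Second derivative of `F` along the real line through `z` with direction `v`. -/
def d2 (F : ℂ → ℝ) (z v : ℂ) : ℝ := deriv (deriv (fun t : ℝ => F (z + t * v))) 0

/-- The Laplacian. -/
def lap (F : ℂ → ℝ) (z : ℂ) : ℝ := d2 F z 1 + d2 F z I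

theorem chain2 {f : ℂ → ℝ} {c c' : ℝ → ℂ} {c'' : ℂ} (hf : ContDiffAt ℝ 2 f (c 0))
    (hc : ∀ᶠ t in 𝓝 (0 : ℝ), HasDerivAt c (c' t) t) (hc' : HasDerivAt c' c'' 0) :
    deriv (deriv (fun t => f (c t))) 0
      = fderiv ℝ (fderiv ℝ f) (c 0) (c' 0) (c' 0) + fderiv ℝ f (c 0) c'' := by
  have hc0 : HasDerivAt c (c' 0) 0 := hc.self_of_nhds
  have h1 : ∀ᶠ z in 𝓝 (c 0), DifferentiableAt ℝ f z := by
    have := hf.eventually (by simp)
    filter_upwards [this] with z hz using hz.differentiableAt (by simp)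
  have h2 : ∀ᶠ t in 𝓝 (0 : ℝ), DifferentiableAt ℝ f (c t) := hc0.continuousAt.tendsto.eventually h1
  have h3 : deriv (fun t => f (c t)) =ᶠ[𝓝 0] fun t => fderiv ℝ f (c t) (c' t) := by
    filter_upwards [hc, h2] with t ht hft
    exact (hft.hasFDerivAt.comp_hasDerivAt t ht).deriv
  rw [h3.deriv_eq]
  have h4 : DifferentiableAt ℝ (fderiv ℝ f) (c 0) :=
    (hf.fderiv_right (m := 1) (by norm_num)).differentiableAt (by simp)
  have h5 : HasDerivAt (fun t => fderiv ℝ f (c t)) (fderiv ℝ (fderiv ℝ f) (c 0) (c' 0)) 0 :=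
    h4.hasFDerivAt.comp_hasDerivAt 0 hc0
  exact (h5.clm_apply hc').deriv

theorem hasDerivAt_line (z v : ℂ) (t : ℝ) : HasDerivAt (fun t : ℝ => z + t * v) v t := by
  simpa using ((Complex.ofRealCLM.hasDerivAt (x := t)).mul_const v).const_add z

theorem d2_eq {F : ℂ → ℝ} {z : ℂ} (hF : ContDiffAt ℝ 2 F z) (v : ℂ) :
    d2 F z v = fderiv ℝ (fderiv ℝ F) z v v := by
  have := chain2 (f := F) (c := fun t : ℝ => z + t * v) (c' := fun _ => v) (c'' := 0)
    (by simpa using hF) (Eventually.of_forall (hasDerivAt_line z v)) (hasDerivAt_const _ _)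
  simpa [d2] using this

/-- Second derivative along a line of the composition with a holomorphic map. -/
theorem d2_comp {f : ℂ → ℝ} {ψ : ℂ → ℂ} {z : ℂ} (hψ : AnalyticAt ℂ ψ z)
    (hf : ContDiffAt ℝ 2 f (ψ z)) (v : ℂ) :
    d2 (fun w => f (ψ w)) z v
      = fderiv ℝ (fderiv ℝ f) (ψ z) (deriv ψ z * v) (deriv ψ z * v)
        + fderiv ℝ f (ψ z) (deriv (deriv ψ) z * v * v) := by
  have hl : Tendsto (fun t : ℝ => z + t * v) (𝓝 0) (𝓝 z) := by
    have := (hasDerivAt_line z v 0).continuousAt.tendsto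
    simpa using this
  have h1 : ∀ᶠ t : ℝ in 𝓝 0, HasDerivAt (fun t : ℝ => ψ (z + t * v))
      (deriv ψ (z + t * v) * v) t := by
    filter_upwards [hl.eventually hψ.eventually_analyticAt] with t ht
    have := (ht.differentiableAt.hasDerivAt.hasFDerivAt.restrictScalars ℝ).comp_hasDerivAt t
      (hasDerivAt_line z v t)
    simpa [mul_comm, Function.comp_def] using this
  have h2 : HasDerivAt (fun t : ℝ => deriv ψ (z + t * v) * v) (deriv (deriv ψ) z * v * v) 0 := by
    have hd : HasDerivAt (deriv ψ) (deriv (deriv ψ) z) (z + (0 : ℝ) * v) := by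
      simpa using hψ.deriv.differentiableAt.hasDerivAt
    have := (hd.hasFDerivAt.restrictScalars ℝ).comp_hasDerivAt (0 : ℝ) (hasDerivAt_line z v 0)
    simpa [mul_comm] using this.mul_const v
  have := chain2 (f := f) (c := fun t : ℝ => ψ (z + t * v)) (by simpa using hf) h1 h2
  simpa [d2] using this

theorem lap_comp {f : ℂ → ℝ} {ψ : ℂ → ℂ} {z : ℂ} (hψ : AnalyticAt ℂ ψ z)
    (hf : ContDiffAt ℝ 2 f (ψ z)) (h1 : deriv ψ z = 1) :
    lap (fun w => f (ψ w)) z = lap f (ψ z) := by
  simp only [lap, d2_comp hψ hf, d2_eq hf, h1, one_mul, mul_one]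
  have : deriv (deriv ψ) z * I * I = -deriv (deriv ψ) z := by
    rw [mul_assoc, I_mul_I]; ring
  rw [this, map_neg]; ring

theorem lap_re {ψ : ℂ → ℂ} {z : ℂ} (hψ : AnalyticAt ℂ ψ z) :
    lap (fun w => (ψ w).re) z = 0 := by
  have hf : ContDiffAt ℝ 2 (fun w : ℂ => w.re) (ψ z) := Complex.reCLM.contDiff.contDiffAt
  have h0 : fderiv ℝ (fun w : ℂ => w.re) = fun _ => Complex.reCLM := by
    funext w; exact Complex.reCLM.fderiv
  simp only [lap, d2_comp hψ hf, h0]
  have : deriv (deriv ψ) z * I * I = -deriv (deriv ψ) z := by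
    rw [mul_assoc, I_mul_I]; ring
  rw [this]; simp

theorem lap_add {F G : ℂ → ℝ} {z : ℂ} (hF : ContDiffAt ℝ 2 F z) (hG : ContDiffAt ℝ 2 G z) :
    lap (fun w => F w + G w) z = lap F z + lap G z := by
  have h : fderiv ℝ (fderiv ℝ (fun w => F w + G w)) z
      = fderiv ℝ (fderiv ℝ F) z + fderiv ℝ (fderiv ℝ G) z := by
    have e : fderiv ℝ (fun w => F w + G w) =ᶠ[𝓝 z] fun w => fderiv ℝ F w + fderiv ℝ G w := by
      filter_upwards [hF.eventually (by simp), hG.eventually (by simp)] with w h1 h2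
      exact fderiv_fun_add (h1.differentiableAt (by simp)) (h2.differentiableAt (by simp))
    rw [e.fderiv_eq]
    exact fderiv_fun_add ((hF.fderiv_right (m := 1) (by norm_num)).differentiableAt (by simp))
      ((hG.fderiv_right (m := 1) (by norm_num)).differentiableAt (by simp))
  simp only [lap, d2_eq hF, d2_eq hG, d2_eq (hF.add hG), h]
  simp; ring

theorem deriv2_nonneg_of_isLocalMin {φ : ℝ → ℝ} (hc : ContinuousAt φ 0) (h : IsLocalMin φ 0) :
    0 ≤ deriv (deriv φ) 0 := by
  by_contra hneg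
  push Not at hneg
  have hmax := isLocalMax_of_deriv_deriv_neg hneg h.deriv_eq_zero hc
  have e : φ =ᶠ[𝓝 0] fun _ => φ 0 := by
    filter_upwards [h, hmax] with t h1 h2 using le_antisymm h2 h1
  have e2 : deriv φ =ᶠ[𝓝 0] fun _ => 0 := by
    filter_upwards [e.deriv] with t ht
    simpa using ht
  rw [e2.deriv_eq] at hneg
  simp at hneg

theorem lap_nonneg_of_min {F : ℂ → ℝ} {z : ℂ} (hF : ContinuousAt F z) (h : ∀ w, F z ≤ F w) :
    0 ≤ lap F z := by
  have key : ∀ v : ℂ, 0 ≤ d2 F z v := by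
    intro v
    apply deriv2_nonneg_of_isLocalMin
    · have hl : ContinuousAt (fun t : ℝ => z + t * v) 0 := (hasDerivAt_line z v 0).continuousAt
      exact ContinuousAt.comp (f := fun t : ℝ => z + t * v) (by simpa using hF) hl
    · exact Eventually.of_forall fun t => by simpa using h _
  exact add_nonneg (key _) (key _)

/-- `d²/dt² (t² a + t e + c)` at `0`. -/
theorem deriv2_expand {a e c : ℝ → ℝ} (ha : ContDiff ℝ 2 a) (he : ContDiff ℝ 2 e)
    (hc : ContDiff ℝ 2 c) :
    deriv (deriv (fun t => t ^ 2 * a t + t * e t + c t)) 0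
      = 2 * a 0 + 2 * deriv e 0 + deriv (deriv c) 0 := by
  have da := ha.differentiable (by simp)
  have de := he.differentiable (by simp)
  have dc := hc.differentiable (by simp)
  have da' : Differentiable ℝ (deriv a) := (ha.deriv' (n := 1)).differentiable (by simp)
  have de' : Differentiable ℝ (deriv e) := (he.deriv' (n := 1)).differentiable (by simp)
  have dc' : Differentiable ℝ (deriv c) := (hc.deriv' (n := 1)).differentiable (by simp)
  have h1 : deriv (fun t => t ^ 2 * a t + t * e t + c t)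
      = fun t => (2 * t * a t + t ^ 2 * deriv a t) + (e t + t * deriv e t) + deriv c t := by
    funext t
    have := (((hasDerivAt_pow 2 t).mul (da t).hasDerivAt).add
      ((hasDerivAt_id' t).mul (de t).hasDerivAt)).add (dc t).hasDerivAt
    exact (this.deriv).trans (by simp)
  rw [h1]
  have := (((((hasDerivAt_id' (0 : ℝ)).const_mul 2).mul (da 0).hasDerivAt).add
    ((hasDerivAt_pow 2 (0 : ℝ)).mul (da' 0).hasDerivAt)).add
    ((de 0).hasDerivAt.add ((hasDerivAt_id' (0 : ℝ)).mul (de' 0).hasDerivAt))).add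
    (dc' 0).hasDerivAt
  exact (this.deriv).trans (by simp; ring)

end Crest.Agent.R258
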