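import Crest.Agent.R258.Asym
import Crest.Agent.R258.Defs

/-! The dual metric of a Griffiths positive metric along the rulings. -/

set_option autoImplicit false

noncomputable section

namespace Crest.Agent.R258

open Complex Filter Topology Matrix Real Asymptotics Crest.AlgGeometry.QuadricBundle
open scoped ComplexConjugate ComplexOrder

theorem contDiffAt_hsq {H : ℂ → M2} {s : ℂ → V2} {z : ℂ}
    (hH : ∀ i j, ContDiffAt ℝ 2 (fun z => H z i j) z) (hs : AnalyticAt ℂ s z) :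
    ContDiffAt ℝ 2 (fun z => hsq (H z) (s z)) z := by
  have h1 : ∀ i, ContDiffAt ℝ 2 (fun z => s z i) z := fun i =>
    ((analyticAt_pi_iff.1 hs i).contDiffAt (n := 2)).restrict_scalars ℝ
  have h2 : ∀ i, ContDiffAt ℝ 2 (fun z => conj (s z i)) z := fun i =>
    Complex.conjCLE.contDiff.contDiffAt.comp z (h1 i)
  have h3 : ContDiffAt ℝ 2 (fun z => ∑ i, ∑ j, H z i j * s z i * conj (s z j)) z :=
    ContDiffAt.sum fun i _ => ContDiffAt.sum fun j _ => ((hH i j).mul (h1 i)).mul (h2 j)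
  exact Complex.reCLM.contDiff.contDiffAt.comp z h3

theorem cyl_line {g : Transition 2} {H : MetricData 2} (hH : IsHermitianMetric g H)
    (hG : IsGriffithsPositive H) (α : Chart) (p0 e : V2) (he : e ≠ 0) :
    Cyl (fun ζ => (H α (p0 + Complex.exp ζ • e))⁻¹) := by
  have hsm : ∀ i j, ContDiff ℝ 2 (fun p => H α p i j) := fun i j =>
    (hH.smooth α i j).of_le (WithTop.coe_le_coe.2 (le_top : (2 : ℕ∞) ≤ ⊤))
  have hL : ContDiff ℝ 2 (fun ζ : ℂ => p0 + Complex.exp ζ • e) :=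
    contDiff_const.add ((Complex.contDiff_exp (𝕜 := ℝ)).smul contDiff_const)
  have hsmK : ∀ i j, ContDiff ℝ 2 (fun ζ : ℂ => (H α (p0 + Complex.exp ζ • e))⁻¹ i j) :=
    fun i j => (contDiff_inv_entry hsm (hH.posDef α) i j).comp hL
  have hpos : ∀ ζ : ℂ, ((H α (p0 + Complex.exp ζ • e))⁻¹).PosDef := fun ζ => (hH.posDef α _).inv
  refine ⟨hsmK, hpos, fun ζ => by rw [Complex.exp_add, Complex.exp_two_pi_mul_I, mul_one], ?_⟩
  intro w hw ζ0
  have hN : ContDiff ℝ 2 (fun ζ => nrm (H α (p0 + Complex.exp ζ • e))⁻¹ (w ζ)) := by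
    refine Complex.reCLM.contDiff.comp (f := fun ζ => frm _ (w ζ) (w ζ)) ?_
    simp only [frm_eq]
    have h1 := contDiff_apply_of_differentiable hw
    have h2 := fun i => ContDiff_conj (h1 i)
    exact ((h2 0).mul (((hsmK 0 0).mul (h1 0)).add ((hsmK 0 1).mul (h1 1)))).add
      ((h2 1).mul (((hsmK 1 0).mul (h1 0)).add ((hsmK 1 1).mul (h1 1))))
  set p : V2 := p0 + Complex.exp ζ0 • e with hp
  set v0 : V2 := star ((H α p)⁻¹ *ᵥ w ζ0) with hv0
  have hde := dual_eq (hH.posDef α p) (w ζ0)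
  rw [← hv0] at hde
  by_cases hv : v0 = 0
  · refine lap_nonneg_of_min hN.continuous.continuousAt fun ζ => ?_
    have : nrm (H α p)⁻¹ (w ζ0) = 0 := by simpa [hv, hsq] using hde
    rw [this]
    exact nrm_nonneg (hpos ζ) _
  obtain ⟨U, s, hU, hpU, hs, hsp, hlev⟩ :=
    hG α p (Complex.exp ζ0 • e) v0 (smul_ne_zero (Complex.exp_ne_zero _) he) hv
  set ξ : V2 := Complex.exp ζ0 • e with hξ
  have hsl : AnalyticAt ℂ (fun η : ℂ => s (p + η • ξ)) 0 := by
    have hl : Differentiable ℂ (fun η : ℂ => p + η • ξ) := by fun_prop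
    refine DifferentiableOn.analyticAt (s := (fun η : ℂ => p + η • ξ) ⁻¹' U)
      (hs.comp hl.differentiableOn (fun η hη => hη)) ?_
    exact (hU.preimage hl.continuous).mem_nhds (by simpa using hpU)
  set f : ℂ → ℝ := fun η => hsq (H α (p + η • ξ)) (s (p + η • ξ)) with hf
  have hfs : ContDiffAt ℝ 2 f 0 := by
    refine contDiffAt_hsq (H := fun η => H α (p + η • ξ)) (fun i j => ?_) hsl
    exact ((hsm i j).comp (contDiff_const.add (contDiff_id.smul contDiff_const))).contDiffAt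
  have hlev' : lap f 0 < 0 := by
    have e1 : (fun t : ℝ => f (0 + t * 1))
        = fun t : ℝ => hNormSq H α (p + (t : ℂ) • ξ) (s (p + (t : ℂ) • ξ)) := by
      funext t; simp only [hf, zero_add, mul_one]; rfl
    have e2 : (fun t : ℝ => f (0 + t * I))
        = fun t : ℝ => hNormSq H α (p + (t : ℂ) • I • ξ) (s (p + (t : ℂ) • I • ξ)) := by
      funext t; simp only [hf, zero_add, smul_smul]; rfl
    rw [lap, d2, d2, e1, e2]
    exact hlev
  set ψ : ℂ → ℂ := fun ζ => Complex.exp (ζ - ζ0) - 1 with hψ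
  have hψa : AnalyticAt ℂ ψ ζ0 := by fun_prop
  have hψ0 : ψ ζ0 = 0 := by simp [hψ]
  have hψ1 : deriv ψ ζ0 = 1 := by
    exact (((hasDerivAt_id' ζ0).sub_const ζ0).cexp.sub_const 1).deriv.trans (by simp)
  have hψL : ∀ ζ, p + ψ ζ • ξ = p0 + Complex.exp ζ • e := by
    intro ζ
    rw [hp, hξ, hψ, smul_smul, add_assoc, ← add_smul, sub_mul, ← Complex.exp_add]
    simp
  have hst : AnalyticAt ℂ (fun ζ => s (p + ψ ζ • ξ)) ζ0 :=
    AnalyticAt.comp (g := fun η : ℂ => s (p + η • ξ)) (by rwa [hψ0]) hψa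
  have hφ : AnalyticAt ℂ (fun ζ => -2 * (w ζ ⬝ᵥ s (p + ψ ζ • ξ))) ζ0 := by
    have h1 := analyticAt_pi_iff.1 hst
    have h2 := analyticAt_pi_iff.1 (hw.analyticAt ζ0)
    simp only [dotProduct, Fin.sum_univ_two]
    exact analyticAt_const.mul (((h2 0).mul (h1 0)).add ((h2 1).mul (h1 1)))
  have hφc : ContDiffAt ℝ 2 (fun ζ => (-2 * (w ζ ⬝ᵥ s (p + ψ ζ • ξ))).re) ζ0 :=
    Complex.reCLM.contDiff.contDiffAt.comp ζ0 ((hφ.contDiffAt (n := 2)).restrict_scalars ℝ)
  have hfψ : ContDiffAt ℝ 2 (fun ζ => f (ψ ζ)) ζ0 :=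
    ContDiffAt.comp (g := f) ζ0 (by rwa [hψ0]) ((hψa.contDiffAt (n := 2)).restrict_scalars ℝ)
  have hmin := lap_nonneg_of_min (F := fun ζ => nrm (H α (p0 + Complex.exp ζ • e))⁻¹ (w ζ)
    + (-2 * (w ζ ⬝ᵥ s (p + ψ ζ • ξ))).re + f (ψ ζ)) (z := ζ0)
    ((hN.contDiffAt.add hφc).add hfψ).continuousAt (fun ζ => by
      have h1 := dual_ineq (hH.posDef α (p + ψ ζ • ξ)) (w ζ) (s (p + ψ ζ • ξ))
      simp only [hψ0, zero_smul, add_zero, hf, hsp]
      rw [← hψL ζ]
      exact hde.le.trans h1)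
  rw [lap_add (hN.contDiffAt.add hφc) hfψ, lap_add hN.contDiffAt hφc, lap_re hφ,
    lap_comp hψa (by rwa [hψ0]) hψ1, hψ0] at hmin
  linarith

theorem continuous_nrm {X : Type*} [TopologicalSpace X] {K : X → M2} {s : X → V2}
    (hK : ∀ i j, Continuous fun x => K x i j) (hs : Continuous s) :
    Continuous fun x => nrm (K x) (s x) := by
  simp only [nrm, frm_eq]
  have h0 := hK 0 0
  have h1 := hK 0 1
  have h2 := hK 1 0
  have h3 := hK 1 1
  fun_prop

theorem continuous_frm {X : Type*} [TopologicalSpace X] {K : X → M2} {s u : X → V2}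
    (hK : ∀ i j, Continuous fun x => K x i j) (hs : Continuous s) (hu : Continuous u) :
    Continuous fun x => frm (K x) (s x) (u x) := by
  simp only [frm_eq]
  have h0 := hK 0 0
  have h1 := hK 0 1
  have h2 := hK 1 0
  have h3 := hK 1 1
  fun_prop

theorem sec_of {K0 K1 : ℂ → M2} (h0 : ∀ i j, Continuous fun x => K0 x i j)
    (h1 : ∀ i j, Continuous fun x => K1 x i j) {σ σ' : ℂ → V2} (hσ : Differentiable ℂ σ)
    (hσ' : Continuous σ') {d : ℕ}
    (hrel : ∀ x : ℂ, x ≠ 0 → nrm (K0 x) (σ x) = nrm (K1 x⁻¹) (x ^ d • σ' x⁻¹)) :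
    Sec (fun ζ => K0 (Complex.exp ζ)) d (fun ζ => σ (Complex.exp ζ)) where
  diff := hσ.comp Complex.differentiable_exp
  per ζ := by rw [Complex.exp_add, Complex.exp_two_pi_mul_I, mul_one]
  left := by
    obtain ⟨C, hC⟩ := (isCompact_closedBall (0 : ℂ) 1).exists_bound_of_continuousOn
      (continuous_nrm h0 hσ.continuous).continuousOn
    refine ⟨C, fun ζ hζ => (le_abs_self _).trans (hC _ ?_)⟩
    simpa [Complex.norm_exp] using hζ
  right := by
    obtain ⟨C, hC⟩ := (isCompact_closedBall (0 : ℂ) 1).exists_bound_of_continuousOn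
      (continuous_nrm h1 hσ').continuousOn
    refine ⟨C, fun ζ hζ => ?_⟩
    rw [hrel _ (Complex.exp_ne_zero ζ), nrm_smul, mul_comm C]
    have e : ‖Complex.exp ζ ^ d‖ ^ 2 = Real.exp (2 * d * ζ.re) := by
      rw [norm_pow, Complex.norm_exp, ← Real.exp_nat_mul, ← Real.exp_nat_mul]
      congr 1; push_cast; ring
    rw [e]
    refine mul_le_mul_of_nonneg_left ((le_abs_self _).trans (hC _ ?_)) (Real.exp_pos _).le
    rw [← Complex.exp_neg]
    simpa [Complex.norm_exp] using hζ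

/-- The dual metric in logarithmic coordinates on the chart `(0,0)`. -/
def KK (H : MetricData 2) (ζ ω : ℂ) : M2 := (H (0, 0) ![Complex.exp ζ, Complex.exp ω])⁻¹

section
variable {g : Transition 2} {H : MetricData 2}

theorem cyl_x (hH : IsHermitianMetric g H) (hG : IsGriffithsPositive H) (ω : ℂ) :
    Cyl (fun ζ => KK H ζ ω) := by
  have := cyl_line hH hG (0, 0) ![0, Complex.exp ω] ![1, 0] (by simp)
  simpa [KK] using this

theorem cyl_y (hH : IsHermitianMetric g H) (hG : IsGriffithsPositive H) (ζ : ℂ) :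
    Cyl (fun ω => KK H ζ ω) := by
  have := cyl_line hH hG (0, 0) ![Complex.exp ζ, 0] ![0, 1] (by simp)
  simpa [KK] using this

theorem continuous_inv_entry (hH : IsHermitianMetric g H) (α : Chart) (i j : Fin 2) :
    Continuous fun p => (H α p)⁻¹ i j :=
  (contDiff_inv_entry (hH.smooth α) (hH.posDef α) i j).continuous

theorem continuous_KK (hH : IsHermitianMetric g H) (i j : Fin 2) :
    Continuous fun q : ℂ × ℂ => KK H q.1 q.2 i j :=
  (continuous_inv_entry hH (0, 0) i j).comp (by fun_prop)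

end

theorem sec_x {M : ℕ} {H : MetricData 2} (hH : IsHermitianMetric (gE M) H) (ω : ℂ)
    {σ σ' : ℂ → V2} (hσ : Differentiable ℂ σ) (hσ' : Continuous σ') {d : ℕ}
    (hrel : ∀ X : ℂ, X ≠ 0 →
      (g0 (0, 0) (1, 0) X (Complex.exp ω ^ M))ᵀ *ᵥ σ X = X ^ d • σ' X⁻¹) :
    Sec (fun ζ => KK H ζ ω) (d * M + 1) (fun ζ => σ (Complex.exp ζ ^ M)) := by
  refine sec_of (K0 := fun x => (H (0, 0) ![x, Complex.exp ω])⁻¹)
    (K1 := fun x => (H (1, 0) ![x, Complex.exp ω])⁻¹) (σ := fun x => σ (x ^ M))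
    (σ' := fun x => σ' (x ^ M))
    (fun i j => (continuous_inv_entry hH _ i j).comp (by fun_prop))
    (fun i j => (continuous_inv_entry hH _ i j).comp (by fun_prop))
    (by fun_prop) (by fun_prop) fun x hx => ?_
  have hc := hH.compat (0, 0) (1, 0) ![x, Complex.exp ω] (by simp [overlap, hx])
  have ht : tau (0, 0) (1, 0) ![x, Complex.exp ω] = ![x⁻¹, Complex.exp ω] := by simp [tau]
  rw [ht] at hc
  rw [← nrm_trans (by simp [gE, g0, lineTrans, det_fin_two, hx]) hc]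
  congr 1
  simp only [gE, transpose_smul, smul_mulVec, Matrix.cons_val_zero, Matrix.cons_val_one,
    hrel _ (pow_ne_zero M hx), smul_smul, inv_pow]
  congr 1
  simp [lineTrans]; ring

theorem sec_y {M : ℕ} {H : MetricData 2} (hH : IsHermitianMetric (gE M) H) (ζ : ℂ)
    {σ σ' : ℂ → V2} (hσ : Differentiable ℂ σ) (hσ' : Continuous σ') {d : ℕ}
    (hrel : ∀ Y : ℂ, Y ≠ 0 → ![σ Y 0, Y ^ 4 * σ Y 1] = Y ^ d • σ' Y⁻¹) :
    Sec (fun ω => KK H ζ ω) (d * M + 1) (fun ω => σ (Complex.exp ω ^ M)) := by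
  refine sec_of (K0 := fun y => (H (0, 0) ![Complex.exp ζ, y])⁻¹)
    (K1 := fun y => (H (0, 1) ![Complex.exp ζ, y])⁻¹) (σ := fun y => σ (y ^ M))
    (σ' := fun y => σ' (y ^ M))
    (fun i j => (continuous_inv_entry hH _ i j).comp (by fun_prop))
    (fun i j => (continuous_inv_entry hH _ i j).comp (by fun_prop))
    (by fun_prop) (by fun_prop) fun y hy => ?_
  have hc := hH.compat (0, 0) (0, 1) ![Complex.exp ζ, y] (by simp [overlap, hy])
  have ht : tau (0, 0) (0, 1) ![Complex.exp ζ, y] = ![Complex.exp ζ, y⁻¹] := by simp [tau]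
  rw [ht] at hc
  rw [← nrm_trans (by simp [gE, g0, lineTrans, det_fin_two, hy]) hc]
  congr 1
  have h2 : (g0 (0, 0) (0, 1) (Complex.exp ζ ^ M) (y ^ M))ᵀ *ᵥ σ (y ^ M)
      = ![σ (y ^ M) 0, (y ^ M) ^ 4 * σ (y ^ M) 1] := by
    ext i; fin_cases i <;> simp [g0, mulVec, dotProduct, Fin.sum_univ_two]
  simp only [gE, transpose_smul, smul_mulVec, Matrix.cons_val_zero, Matrix.cons_val_one, h2,
    hrel _ (pow_ne_zero M hy), smul_smul, inv_pow]
  congr 1
  simp [lineTrans]; ring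

end Crest.Agent.R258
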