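import Crest.Agent.R258.Cyl

/-! Estimates for circle averages of norms and scalar products of holomorphic sections. -/

set_option autoImplicit false

noncomputable section

namespace Crest.Agent.R258

open Complex Filter Topology Matrix Real
open scoped ComplexConjugate ComplexOrder

theorem convex_slope {n m : ℝ → ℝ} (hd : ∀ ρ, HasDerivAt n (m ρ) ρ) (hm : Monotone m)
    {a b : ℝ} (hab : a < b) : m a * (b - a) ≤ n b - n a ∧ n b - n a ≤ m b * (b - a) := by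
  obtain ⟨c, hc, hc'⟩ := exists_hasDerivAt_eq_slope n m hab
    (fun x _ => (hd x).continuousAt.continuousWithinAt) (fun x _ => hd x)
  have h1 := hm hc.1.le
  have h2 := hm hc.2.le
  have h3 : 0 < b - a := by linarith
  rw [hc', le_div_iff₀ h3] at h1
  rw [hc', div_le_iff₀ h3] at h2
  exact ⟨h1, h2⟩

theorem convex_left {n m : ℝ → ℝ} (hd : ∀ ρ, HasDerivAt n (m ρ) ρ) (hm : Monotone m)
    (h0 : ∀ ρ, 0 ≤ n ρ) {C : ℝ} (hC : ∀ ρ ≤ 0, n ρ ≤ C) (ρ : ℝ) : 0 ≤ m ρ := by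
  by_contra hneg
  push Not at hneg
  have hC0 : 0 ≤ C := (h0 0).trans (hC 0 le_rfl)
  set b := min ρ 0
  have hb : m b ≤ m ρ := hm (min_le_left _ _)
  have hL : 0 < (C + 1) / (-m ρ) := div_pos (by linarith) (by linarith)
  have h1 := (convex_slope hd hm (a := b - (C + 1) / (-m ρ)) (b := b) (by linarith)).2
  have h2 := hC (b - (C + 1) / (-m ρ)) (by linarith [min_le_right ρ 0])
  have h3 : m b * (b - (b - (C + 1) / (-m ρ))) ≤ m ρ * ((C + 1) / (-m ρ)) := by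
    rw [sub_sub_cancel]; exact mul_le_mul_of_nonneg_right hb hL.le
  have h4 : m ρ * ((C + 1) / (-m ρ)) = -(C + 1) := by field_simp [hneg.ne]
  linarith [h0 b]

theorem convex_right {n m : ℝ → ℝ} (hd : ∀ ρ, HasDerivAt n (m ρ) ρ) (hm : Monotone m)
    (h0 : ∀ ρ, 0 ≤ n ρ) {C : ℝ} (hC : ∀ ρ, 0 ≤ ρ → n ρ ≤ C) (ρ : ℝ) : m ρ ≤ 0 := by
  have := convex_left (n := fun r => n (-r)) (m := fun r => -m (-r))
    (fun r => by simpa [Function.comp_def] using (hd (-r)).comp r (hasDerivAt_neg r))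
    (fun a b hab => neg_le_neg (hm (neg_le_neg hab))) (fun r => h0 _)
    (fun r hr => hC _ (by linarith)) (-ρ)
  simpa using this

/-- Average of the squared norm. -/
def nv (K : ℂ → M2) (s : ℂ → V2) (ρ : ℝ) : ℝ := avg (fun ζ => nrm (K ζ) (s ζ)) ρ

/-- Average of the radial derivative of the squared norm. -/
def mv (K : ℂ → M2) (s : ℂ → V2) (ρ : ℝ) : ℝ := avg (D 1 (fun ζ => nrm (K ζ) (s ζ))) ρ

/-- Average of the scalar product. -/
def fv (K : ℂ → M2) (s u : ℂ → V2) (ρ : ℝ) : ℂ := avg (fun ζ => frm (K ζ) (s ζ) (u ζ)) ρ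

/-- Periodic holomorphic vector functions. -/
structure Per (s : ℂ → V2) : Prop where
  diff : Differentiable ℂ s
  per : ∀ ζ, s (ζ + 2 * π * I) = s ζ

/-- Sections that are bounded at `Re ζ → -∞` and grow at most like `e^{d ζ}` at `Re ζ → +∞`. -/
structure Sec (K : ℂ → M2) (d : ℕ) (s : ℂ → V2) : Prop extends Per s where
  left : ∃ C, ∀ ζ : ℂ, ζ.re ≤ 0 → nrm (K ζ) (s ζ) ≤ C
  right : ∃ C, ∀ ζ : ℂ, 0 ≤ ζ.re → nrm (K ζ) (s ζ) ≤ C * Real.exp (2 * d * ζ.re)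

/-- Multiplication of a section by `e^{k ζ}`. -/
def tw (k : ℤ) (s : ℂ → V2) (ζ : ℂ) : V2 := Complex.exp (k * ζ) • s ζ

theorem exp_int_per (k : ℤ) (ζ : ℂ) :
    Complex.exp (k * (ζ + 2 * π * I)) = Complex.exp (k * ζ) := by
  rw [mul_add, Complex.exp_add, Complex.exp_int_mul_two_pi_mul_I, mul_one]

theorem Per.tw {s : ℂ → V2} (hs : Per s) (k : ℤ) : Per (tw k s) where
  diff := by
    have := hs.diff
    unfold R258.tw; fun_prop
  per ζ := by simp only [R258.tw, hs.per, exp_int_per]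

theorem nrm_tw (K : ℂ → M2) (k : ℤ) (s : ℂ → V2) (ζ : ℂ) :
    nrm (K ζ) (tw k s ζ) = Real.exp (2 * k * ζ.re) * nrm (K ζ) (s ζ) := by
  rw [tw, nrm_smul, Complex.norm_exp, ← Real.exp_nat_mul]
  congr 2
  simp; ring

theorem nv_tw (K : ℂ → M2) (k : ℤ) (s : ℂ → V2) (ρ : ℝ) :
    nv K (tw k s) ρ = Real.exp (2 * k * ρ) * nv K s ρ := by
  rw [nv, nv, ← avg_rmul]
  apply avg_congr
  intro θ
  rw [nrm_tw]; simp

variable {K : ℂ → M2}

theorem Cyl.nv_nonneg (hK : Cyl K) (s : ℂ → V2) (ρ : ℝ) : 0 ≤ nv K s ρ :=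
  avg_nonneg fun _ => nrm_nonneg (hK.pos _) _

theorem Cyl.hasDerivAt_nv (hK : Cyl K) {s : ℂ → V2} (hs : Per s) (ρ : ℝ) :
    HasDerivAt (nv K s) (mv K s ρ) ρ :=
  hasDerivAt_avg ((hK.contDiff_nrm hs.diff).of_le (by norm_num)) ρ

theorem Cyl.hasDerivAt_mv (hK : Cyl K) {s : ℂ → V2} (hs : Per s) (ρ : ℝ) :
    HasDerivAt (mv K s) (avg (lap (fun ζ => nrm (K ζ) (s ζ))) ρ) ρ :=
  hasDerivAt_avg_D1 (hK.contDiff_nrm hs.diff) (fun ζ => by rw [hK.per, hs.per]) ρ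

theorem Cyl.monotone_mv (hK : Cyl K) {s : ℂ → V2} (hs : Per s) : Monotone (mv K s) :=
  monotone_of_hasDerivAt_nonneg (hK.hasDerivAt_mv hs)
    (fun _ => avg_nonneg fun _ => hK.sub s hs.diff _)

theorem Cyl.mv_le (hK : Cyl K) {s : ℂ → V2} (hs : Per s) (ρ : ℝ) : mv K s ρ ≤ nv K s (ρ + 1) := by
  have := (convex_slope (hK.hasDerivAt_nv hs) (hK.monotone_mv hs) (a := ρ) (b := ρ + 1)
    (by linarith)).1
  have h := hK.nv_nonneg s ρ
  simp only [add_sub_cancel_left, mul_one] at this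
  linarith

theorem Cyl.mv_nonneg (hK : Cyl K) {s : ℂ → V2} {d : ℕ} (hs : Sec K d s) (ρ : ℝ) :
    0 ≤ mv K s ρ := by
  obtain ⟨C, hC⟩ := hs.left
  refine convex_left (hK.hasDerivAt_nv hs.toPer) (hK.monotone_mv hs.toPer) (hK.nv_nonneg s)
    (C := 2 * π * C) (fun r hr => ?_) ρ
  rw [← avg_const C r]
  exact avg_mono (hK.contDiff_nrm hs.diff).continuous continuous_const
    (fun θ => hC _ (by simpa using hr))

theorem Cyl.monotone_nv (hK : Cyl K) {s : ℂ → V2} {d : ℕ} (hs : Sec K d s) :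
    Monotone (nv K s) :=
  monotone_of_hasDerivAt_nonneg (hK.hasDerivAt_nv hs.toPer) (fun ρ => hK.mv_nonneg hs ρ)

theorem Cyl.antitone_nv_tw (hK : Cyl K) {s : ℂ → V2} {d : ℕ} (hs : Sec K d s) :
    Antitone (nv K (tw (-d) s)) := by
  obtain ⟨C, hC⟩ := hs.right
  have hp := hs.toPer.tw (-d)
  refine antitone_of_hasDerivAt_nonpos (hK.hasDerivAt_nv hp) (fun ρ => ?_)
  refine convex_right (hK.hasDerivAt_nv hp) (hK.monotone_mv hp) (hK.nv_nonneg _)
    (C := 2 * π * C) (fun r hr => ?_) ρ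
  rw [← avg_const C r]
  refine avg_mono (hK.contDiff_nrm hp.diff).continuous continuous_const (fun θ => ?_)
  rw [nrm_tw]
  have h1 := hC (r + θ * I) (by simpa using hr)
  calc _ ≤ Real.exp (2 * (-d : ℤ) * (r + θ * I : ℂ).re)
        * (C * Real.exp (2 * d * (r + θ * I : ℂ).re)) :=
        mul_le_mul_of_nonneg_left h1 (Real.exp_pos _).le
    _ = C := by
      rw [mul_left_comm, ← Real.exp_add]
      simp

theorem Cyl.growth (hK : Cyl K) {s : ℂ → V2} {d : ℕ} (hs : Sec K d s) {a b : ℝ} (hab : a ≤ b) :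
    nv K s b ≤ Real.exp (2 * d * (b - a)) * nv K s a := by
  have := hK.antitone_nv_tw hs hab
  rw [nv_tw, nv_tw] at this
  have h2 := mul_le_mul_of_nonneg_left this (Real.exp_pos (2 * d * b)).le
  rw [← mul_assoc, ← mul_assoc, ← Real.exp_add, ← Real.exp_add] at h2
  push_cast at h2
  rw [show 2 * (d : ℝ) * b + 2 * -d * b = 0 by ring, Real.exp_zero, one_mul] at h2
  rwa [show 2 * (d : ℝ) * (b - a) = 2 * d * b + 2 * -d * a by ring]

theorem Cyl.norm_fv_le (hK : Cyl K) {s u : ℂ → V2} (hs : Per s) (hu : Per u) (ρ : ℝ) :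
    ‖fv K s u ρ‖ ≤ (nv K s ρ + nv K u ρ) / 2 := by
  have h1 := (hK.contDiff_nrm hs.diff).continuous
  have h2 := (hK.contDiff_nrm hu.diff).continuous
  have : (nv K s ρ + nv K u ρ) / 2
      = avg (fun ζ => (1 / 2) * (nrm (K ζ) (s ζ) + nrm (K ζ) (u ζ))) ρ := by
    rw [avg_rmul, avg_add h1 h2, nv, nv]; ring
  rw [this]
  refine norm_avg_le (by fun_prop) fun θ => ?_
  have := norm_frm_le (hK.pos (ρ + θ * I)) (s (ρ + θ * I)) (u (ρ + θ * I))
  linarith

/-- The key estimate: the average of `⟨s, u⟩` varies slowly in the radius. -/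
theorem Cyl.fv_const (hK : Cyl K) {s u : ℂ → V2} {d : ℕ} (hs : Per s) (hu : Sec K d u)
    {a b A τ : ℝ} (hab : a ≤ b) (hA : ∀ ρ ∈ Set.Icc a b, nv K s ρ ≤ A) (hτ : 0 < τ) :
    ‖fv K s u b - fv K s u a‖ ≤ A * (b - a) / τ + τ * nv K u (b + 1) / 4 := by
  obtain ⟨c, hc1, hc⟩ := Complex.exists_norm_eq_mul_self (fv K s u b - fv K s u a)
  set t : ℂ := -τ * conj c with ht
  have htc : conj t = -τ * c := by simp [ht]
  have htn : ‖t‖ ^ 2 = τ ^ 2 := by simp [ht, hc1]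
  set G := fun ζ => frm (K ζ) (s ζ) (u ζ) with hG
  have hGs : ContDiff ℝ 2 G := hK.contDiff_frm hs.diff hu.diff
  have hG1 : ContDiff ℝ 1 G := hGs.of_le (by norm_num)
  have hd : ∀ ρ, HasDerivAt (fun ρ => 4 * A * ρ + 4 * (conj t * fv K s u ρ).re + τ ^ 2 * mv K u ρ)
      (4 * A + 4 * (conj t * avg (D 1 G) ρ).re
        + τ ^ 2 * avg (lap (fun ζ => nrm (K ζ) (u ζ))) ρ) ρ := by
    intro ρ
    have h1 := (Complex.reCLM.hasFDerivAt.comp_hasDerivAt ρ
      ((hasDerivAt_avg hG1 ρ).const_mul (conj t))).const_mul 4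
    have h2 := (hK.hasDerivAt_mv hu.toPer ρ).const_mul (τ ^ 2)
    have h0 := (hasDerivAt_id' ρ).const_mul (4 * A)
    rw [mul_one] at h0
    exact (h0.add h1).add h2
  have hpos : ∀ ρ ∈ Set.Icc a b, 0 ≤ 4 * A + 4 * (conj t * avg (D 1 G) ρ).re
        + τ ^ 2 * avg (lap (fun ζ => nrm (K ζ) (u ζ))) ρ := by
    intro ρ hρ
    have h1 := avg_nonneg (ρ := ρ) (Φ := fun ζ => 4 * nrm (K ζ) (s ζ)
      + 4 * (conj t * (D 1 G ζ + I * D I G ζ)).re
      + ‖t‖ ^ 2 * lap (fun ζ => nrm (K ζ) (u ζ)) ζ)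
      (fun θ => hK.pointwise hs.diff hu.diff t _)
    have c1 := (hK.contDiff_nrm hs.diff).continuous
    have c2 := continuous_D 1 hG1
    have c3 := continuous_D I hG1
    have c4 := continuous_lap (hK.contDiff_nrm hu.diff)
    rw [avg_add (by fun_prop) (by fun_prop), avg_add (by fun_prop) (by fun_prop), avg_rmul,
      avg_rmul, avg_rmul, avg_re (by fun_prop), avg_cmul, avg_add (by fun_prop) (by fun_prop),
      avg_cmul, avg_DI hG1 (fun ζ => by simp only [hG, hK.per, hs.per, hu.per]), htn] at h1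
    have := hA ρ hρ
    simp only [mul_zero, add_zero] at h1
    unfold nv at this
    linarith
  have hmono := monotoneOn_of_hasDerivWithinAt_nonneg (convex_Icc a b)
    (fun ρ _ => (hd ρ).continuousAt.continuousWithinAt)
    (fun ρ _ => (hd ρ).hasDerivWithinAt) (fun ρ hρ => hpos ρ (interior_subset hρ))
    ⟨le_rfl, hab⟩ ⟨hab, le_rfl⟩ hab
  have h5 : (conj t * fv K s u b).re - (conj t * fv K s u a).re
      = -τ * ‖fv K s u b - fv K s u a‖ := by
    rw [← sub_re, ← mul_sub, htc, mul_assoc, ← hc]; simp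
  have h6 := hK.mv_le hu.toPer b
  have h7 := hK.mv_nonneg hu a
  have h8 : τ ^ 2 * (mv K u b - mv K u a) ≤ τ ^ 2 * nv K u (b + 1) :=
    mul_le_mul_of_nonneg_left (by linarith) (sq_nonneg τ)
  simp only at hmono
  rw [div_add_div _ _ hτ.ne' (by norm_num), le_div_iff₀ (by positivity)]
  nlinarith

end Crest.Agent.R258
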