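import Crest.Agent.R258.Line

/-! The explicit sections of the dual bundle. -/

set_option autoImplicit false

noncomputable section

namespace Crest.Agent.R258

open Complex Filter Topology Matrix Real Asymptotics Crest.AlgGeometry.QuadricBundle
open scoped ComplexConjugate ComplexOrder

def v1 : V2 := ![1, 0]

def v2 (X Y : ℂ) : V2 :=
  ![1 - 2 * X - 3 * X * Y + (2 - X) * Y ^ 2 + 3 * Y ^ 3 + Y ^ 4,
    X ^ 2 + 2 * X * Y + X ^ 2 * Y - 2 * Y ^ 3 - X * Y ^ 3 - Y ^ 4]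

def s1 (X Y : ℂ) : V2 := ![-2 - Y, X - Y ^ 2]

def s2 (X Y : ℂ) : V2 := ![-2 - 3 * Y - Y ^ 2, X + 2 * Y + X * Y + Y ^ 2]

theorem s1_spec (X Y : ℂ) :
    ((1 + Y) * X - (-Y ^ 2 - 2 * Y)) • s1 X Y = v2 X Y - (1 + Y) ^ 4 • v1 := by
  ext i; fin_cases i <;> simp [s1, v1, v2] <;> ring

theorem s2_spec (X Y : ℂ) : ((1 : ℂ) * X - Y ^ 2) • s2 X Y = v2 X Y - (1 : ℂ) ^ 4 • v1 := by
  ext i; fin_cases i <;> simp [s2, v1, v2] <;> ring

/-- `X = x ^ M` in logarithmic coordinates. -/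
def EE (M : ℕ) (ζ : ℂ) : ℂ := Complex.exp ζ ^ M

@[fun_prop]
theorem continuous_EE (M : ℕ) : Continuous (EE M) := by unfold EE; fun_prop

@[fun_prop]
theorem continuous_v2 {X : Type*} [TopologicalSpace X] {f g : X → ℂ} (hf : Continuous f)
    (hg : Continuous g) : Continuous fun x => v2 (f x) (g x) := by unfold v2; fun_prop

@[fun_prop]
theorem continuous_s2 {X : Type*} [TopologicalSpace X] {f g : X → ℂ} (hf : Continuous f)
    (hg : Continuous g) : Continuous fun x => s2 (f x) (g x) := by unfold s2; fun_prop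

/-- Everything the argument uses about the dual metric. -/
structure Data (M : ℕ) (K : ℂ → ℂ → M2) : Prop where
  cont : ∀ i j, Continuous fun q : ℂ × ℂ => K q.1 q.2 i j
  cx : ∀ ω, Cyl (fun ζ => K ζ ω)
  cy : ∀ ζ, Cyl (fun ω => K ζ ω)
  x1 : ∀ ω, Sec (fun ζ => K ζ ω) (4 * M + 1) (fun _ => v1)
  x2 : ∀ ω, Sec (fun ζ => K ζ ω) 1 (fun ζ => v2 (EE M ζ) (EE M ω))
  xs1 : ∀ ω, Sec (fun ζ => K ζ ω) (3 * M + 1) (fun ζ => s1 (EE M ζ) (EE M ω))
  xs2 : ∀ ω, Sec (fun ζ => K ζ ω) (3 * M + 1) (fun ζ => s2 (EE M ζ) (EE M ω))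
  y1 : ∀ ζ, Sec (fun ω => K ζ ω) 1 (fun _ => v1)
  y2 : ∀ ζ, Sec (fun ω => K ζ ω) (8 * M + 1) (fun ω => v2 (EE M ζ) (EE M ω))
  ys2 : ∀ ζ, Sec (fun ω => K ζ ω) (6 * M + 1) (fun ω => s2 (EE M ζ) (EE M ω))

theorem differentiable_vec2 {f g : ℂ → ℂ} (hf : Differentiable ℂ f) (hg : Differentiable ℂ g) :
    Differentiable ℂ fun x => (![f x, g x] : V2) := by
  rw [differentiable_pi]
  intro i; fin_cases i
  · simpa using hf
  · simpa using hg

theorem data_KK {M : ℕ} {H : MetricData 2} (hH : IsHermitianMetric (gE M) H)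
    (hG : IsGriffithsPositive H) : Data M (KK H) where
  cont := continuous_KK hH
  cx := cyl_x hH hG
  cy := cyl_y hH hG
  x1 ω := sec_x hH ω (σ := fun _ => v1) (σ' := fun _ => v1) (by fun_prop) (by fun_prop)
    fun X hX => by
      ext i; fin_cases i <;> simp [g0, v1, mulVec, dotProduct, Fin.sum_univ_two]
  x2 ω := by
    have := sec_x hH ω (σ := fun X => v2 X (EE M ω)) (d := 0)
      (σ' := fun X => ![16 * EE M ω ^ 4 + 24 * EE M ω ^ 5 + (8 - 16 * X) * EE M ω ^ 6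
        - 24 * X * EE M ω ^ 7 + (1 - 8 * X) * EE M ω ^ 8,
        1 + (1 + 2 * X) * EE M ω - (X + 2 * X ^ 2) * EE M ω ^ 3 - X ^ 2 * EE M ω ^ 4])
      (differentiable_vec2 (by fun_prop) (by fun_prop)) (by fun_prop) fun X hX => by
        ext i; fin_cases i <;>
          simp [g0, v2, th, thH, hom, EE, mulVec, dotProduct, Fin.sum_univ_two] <;>
          field_simp <;> ring
    simpa [EE] using this
  xs1 ω := sec_x hH ω (σ := fun X => s1 X (EE M ω)) (d := 3)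
      (σ' := fun X => ![-1 - 3 * EE M ω + 2 * X * EE M ω
          + (-3 + 5 * X - 4 * X ^ 2) * EE M ω ^ 2
          + (-1 + 4 * X - 8 * X ^ 2 + 8 * X ^ 3) * EE M ω ^ 3
          + (X - 5 * X ^ 2 + 12 * X ^ 3) * EE M ω ^ 4
          + (-X ^ 2 + 6 * X ^ 3 - 8 * X ^ 4) * EE M ω ^ 5
          + (X ^ 3 - 8 * X ^ 4) * EE M ω ^ 6,
        X ^ 4 - X ^ 5 * EE M ω ^ 2])
      (differentiable_vec2 (by fun_prop) (by fun_prop)) (by fun_prop) fun X hX => by
        ext i; fin_cases i <;>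
          simp [g0, s1, th, thH, hom, EE, mulVec, dotProduct, Fin.sum_univ_two] <;>
          field_simp <;> ring
  xs2 ω := sec_x hH ω (σ := fun X => s2 X (EE M ω)) (d := 3)
      (σ' := fun X => ![-1 - X * EE M ω ^ 2 + (-X ^ 2 + 16 * X ^ 4) * EE M ω ^ 4
          + 24 * X ^ 4 * EE M ω ^ 5 + (-X ^ 3 + 8 * X ^ 4) * EE M ω ^ 6,
        X ^ 4 + (X ^ 4 + 2 * X ^ 5) * EE M ω + X ^ 5 * EE M ω ^ 2])
      (differentiable_vec2 (by fun_prop) (by fun_prop)) (by fun_prop) fun X hX => by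
        ext i; fin_cases i <;>
          simp [g0, s2, th, thH, hom, EE, mulVec, dotProduct, Fin.sum_univ_two] <;>
          field_simp <;> ring
  y1 ζ := by
    have := sec_y hH ζ (σ := fun _ => v1) (σ' := fun _ => v1) (d := 0) (by fun_prop) (by fun_prop)
      fun Y hY => by ext i; fin_cases i <;> simp [v1]
    simpa using this
  y2 ζ := sec_y hH ζ (σ := fun Y => v2 (EE M ζ) Y) (d := 8)
      (σ' := fun Y => ![(1 - 2 * EE M ζ) * Y ^ 8 - 3 * EE M ζ * Y ^ 7 + (2 - EE M ζ) * Y ^ 6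
          + 3 * Y ^ 5 + Y ^ 4,
        EE M ζ ^ 2 * Y ^ 4 + (2 * EE M ζ + EE M ζ ^ 2) * Y ^ 3 - (2 + EE M ζ) * Y - 1])
      (differentiable_vec2 (by fun_prop) (by fun_prop)) (by fun_prop) fun Y hY => by
        ext i; fin_cases i <;> simp [v2] <;> field_simp <;> ring
  ys2 ζ := sec_y hH ζ (σ := fun Y => s2 (EE M ζ) Y) (d := 6)
      (σ' := fun Y => ![-2 * Y ^ 6 - 3 * Y ^ 5 - Y ^ 4,
        EE M ζ * Y ^ 2 + (2 + EE M ζ) * Y + 1])
      (differentiable_vec2 (by fun_prop) (by fun_prop)) (by fun_prop) fun Y hY => by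
        ext i; fin_cases i <;> simp [s2] <;> field_simp <;> ring

theorem EE_ne_zero (M : ℕ) (ζ : ℂ) : EE M ζ ≠ 0 := pow_ne_zero _ (Complex.exp_ne_zero _)

theorem exp_neg_mul (l M : ℕ) (ζ : ℂ) :
    Complex.exp ((-(l * M : ℤ) : ℤ) * ζ) = (EE M ζ)⁻¹ ^ l := by
  rw [EE, ← Complex.exp_nat_mul, ← Complex.exp_neg, ← Complex.exp_nat_mul]
  congr 1; push_cast; ring

theorem exp_pos_mul (l M : ℕ) (ζ : ℂ) :
    Complex.exp ((l * M : ℤ) * ζ) = EE M ζ ^ l := by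
  rw [EE, ← Complex.exp_nat_mul, ← Complex.exp_nat_mul]
  congr 1; push_cast; ring

theorem norm_EE (M : ℕ) (ζ : ℂ) : ‖EE M ζ‖ = Real.exp (M * ζ.re) := by
  rw [EE, norm_pow, Complex.norm_exp, ← Real.exp_nat_mul]

/-- The logarithmic radius of the circle `|x ^ M| = R`. -/
def rad (R : ℝ) (M : ℕ) : ℝ := Real.log R / M

theorem rad_nonneg {R : ℝ} (hR : 1 ≤ R) (M : ℕ) : 0 ≤ rad R M :=
  div_nonneg (Real.log_nonneg hR) (Nat.cast_nonneg _)

theorem mul_rad (R : ℝ) {M : ℕ} (hM : 1 ≤ M) : M * rad R M = Real.log R := by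
  have : (M : ℝ) ≠ 0 := by positivity
  rw [rad]; field_simp

theorem rad_le {R : ℝ} (hR : 1 ≤ R) {M : ℕ} (hM : 1 ≤ M) : rad R M ≤ Real.log R :=
  div_le_self (Real.log_nonneg hR) (by exact_mod_cast hM)

theorem norm_EE_rad {R : ℝ} (hR : 1 ≤ R) {M : ℕ} (hM : 1 ≤ M) (θ : ℝ) :
    ‖EE M (rad R M + θ * I)‖ = R := by
  rw [norm_EE]
  simp [mul_rad R hM, Real.exp_log (show 0 < R by linarith)]

theorem exp_rad_le {R : ℝ} (hR : 1 ≤ R) {M : ℕ} (hM : 1 ≤ M) (d : ℕ) :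
    Real.exp (2 * ((d * M + 1 : ℕ) : ℝ) * (rad R M - 0)) ≤ R ^ (2 * d + 2) := by
  have h1 := mul_rad R hM
  have h2 := rad_le hR hM
  rw [← Real.exp_log (show 0 < R by linarith), ← Real.exp_nat_mul, Real.exp_log (by linarith)]
  refine Real.exp_le_exp.2 ?_
  push_cast
  rw [sub_zero, show 2 * ((d : ℝ) * M + 1) * rad R M = 2 * d * (M * rad R M) + 2 * rad R M by ring,
    h1]
  linarith

theorem tendsto_rad (R : ℝ) : Tendsto (rad R) atTop (𝓝 0) :=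
  tendsto_const_div_atTop_nhds_zero_nat _

theorem avg_sum {ι : Type*} (s : Finset ι) {f : ι → ℂ → ℂ} (hf : ∀ i ∈ s, Continuous (f i))
    (ρ : ℝ) : avg (fun ζ => ∑ i ∈ s, f i ζ) ρ = ∑ i ∈ s, avg (f i) ρ :=
  intervalIntegral.integral_finsetSum fun i hi => intervalIntegrable_avg (hf i hi) ρ

theorem bdd_mul {ι : Type*} {l : Filter ι} {c f : ι → ℂ} {g : ι → ℝ} {C : ℝ}
    (hc : ∀ᶠ i in l, ‖c i‖ ≤ C) (h : f =o[l] g) : (fun i => c i * f i) =o[l] g := by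
  refine (IsBigO.of_bound C ?_).trans_isLittleO h
  filter_upwards [hc] with i hi
  rw [norm_mul]
  exact mul_le_mul_of_nonneg_right hi (norm_nonneg _)

end Crest.Agent.R258
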