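import Crest.Agent.R258.Secs

/-! The relation along the first ruling. -/

set_option autoImplicit false

noncomputable section

namespace Crest.Agent.R258

open Complex Filter Topology Matrix Real Asymptotics
open scoped ComplexConjugate ComplexOrder

variable (K : ℕ → ℂ → ℂ → M2)

/-- Average of `|v₁|²` over the unit circle of the first factor. -/
def n1 (M : ℕ) (ω : ℂ) : ℝ := nv (fun ζ => K M ζ ω) (fun _ => v1) 0

/-- Average of `|v₂|²` over the unit circle of the first factor. -/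
def n2 (M : ℕ) (ω : ℂ) : ℝ := nv (fun ζ => K M ζ ω) (fun ζ => v2 (EE M ζ) (EE M ω)) 0

/-- Moments of `⟨v₁, v₂⟩` over the unit circle of the first factor. -/
def pm (l M : ℕ) (ω : ℂ) : ℂ :=
  fv (fun ζ => K M ζ ω) (tw (-(l * M : ℤ)) (fun _ => v1)) (fun ζ => v2 (EE M ζ) (EE M ω)) 0

variable {K}

theorem nv_s_le {M : ℕ} (hD : Data M (K M)) (hM : 1 ≤ M) (ω : ℂ) {P Q : ℂ} {B : ℝ}
    {s : ℂ → V2} (hs : Sec (fun ζ => K M ζ ω) (3 * M + 1) (fun ζ => s (EE M ζ)))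
    (hspec : ∀ X, (Q * X - P) • s X = v2 X (EE M ω) - Q ^ 4 • v1)
    (hQ1 : 1 ≤ ‖Q‖) (hQ : ‖Q‖ ≤ B) (hP : ‖P‖ + 1 ≤ B) :
    nv (fun ζ => K M ζ ω) (fun ζ => s (EE M ζ)) 0 ≤ 2 * B ^ 18 * (n1 K M ω + n2 K M ω) := by
  have hB : 1 ≤ B := hQ1.trans hQ
  have hC := hD.cx ω
  have h1 := hC.monotone_nv hs (rad_nonneg hB M)
  have c1 := (hC.contDiff_nrm (hD.x1 ω).diff).continuous
  have c2 := (hC.contDiff_nrm (hD.x2 ω).diff).continuous
  have h2 : nv (fun ζ => K M ζ ω) (fun ζ => s (EE M ζ)) (rad B M)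
      ≤ 2 * nv (fun ζ => K M ζ ω) (fun ζ => v2 (EE M ζ) (EE M ω)) (rad B M)
        + 2 * B ^ 8 * nv (fun ζ => K M ζ ω) (fun _ => v1) (rad B M) := by
    rw [nv, nv, nv, ← avg_rmul, ← avg_rmul, ← avg_add (by fun_prop) (by fun_prop)]
    refine avg_mono (hC.contDiff_nrm hs.diff).continuous (by fun_prop) fun θ => ?_
    set ζ : ℂ := rad B M + θ * I
    have hX : ‖EE M ζ‖ = B := norm_EE_rad hB hM θ
    have hδ : 1 ≤ ‖Q * EE M ζ - P‖ := by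
      have := norm_sub_norm_le (Q * EE M ζ) P
      rw [norm_mul, hX] at this
      nlinarith
    have h3 := nrm_sub_le (hC.pos ζ) (Q ^ 4) (v2 (EE M ζ) (EE M ω)) v1
    rw [← hspec, nrm_smul] at h3
    have h4 := nrm_nonneg (hC.pos ζ) (s (EE M ζ))
    have h5 := nrm_nonneg (hC.pos ζ) v1
    have h6 : ‖Q ^ 4‖ ^ 2 ≤ B ^ 8 := by
      rw [norm_pow, ← pow_mul]; exact pow_le_pow_left₀ (norm_nonneg _) hQ _
    have h7 : 1 ≤ ‖Q * EE M ζ - P‖ ^ 2 := one_le_pow₀ hδ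
    have h8 := mul_le_mul_of_nonneg_right h7 h4
    have h9 := mul_le_mul_of_nonneg_right h6 h5
    linarith
  have h3 := hC.growth (hD.x1 ω) (rad_nonneg hB M)
  have h4 := hC.growth (hD.x2 ω) (rad_nonneg hB M)
  have h5 := exp_rad_le hB hM 4
  have h6 := exp_rad_le hB hM 0
  simp only [zero_mul, zero_add] at h6
  have p1 : 0 ≤ n1 K M ω := hC.nv_nonneg _ _
  have p2 : 0 ≤ n2 K M ω := hC.nv_nonneg _ _
  have h7 := h3.trans (mul_le_mul_of_nonneg_right h5 p1)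
  have h8 := h4.trans (mul_le_mul_of_nonneg_right h6 p2)
  have h9 : B ^ (2 * 0 + 2) ≤ B ^ 18 := pow_le_pow_right₀ hB (by norm_num)
  have h10 := mul_le_mul_of_nonneg_right h9 p2
  have h11 := mul_le_mul_of_nonneg_left h7 (show 0 ≤ 2 * B ^ 8 by positivity)
  calc _ ≤ _ := h1
    _ ≤ _ := h2
    _ ≤ 2 * (B ^ 18 * n2 K M ω) + 2 * B ^ 8 * (B ^ (2 * 4 + 2) * n1 K M ω) :=
        add_le_add (mul_le_mul_of_nonneg_left (h8.trans h10) (by norm_num)) h11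
    _ = _ := by ring

theorem stepA_id {M : ℕ} (hD : Data M (K M)) (ω : ℂ) {P Q : ℂ}
    {s : ℂ → V2} (hs : Per (fun ζ => s (EE M ζ)))
    (hspec : ∀ X, (Q * X - P) • s X = v2 X (EE M ω) - Q ^ 4 • v1) :
    Q ^ 4 * (n2 K M ω - ∑ l ∈ Finset.range 5, P ^ l * Q ^ (4 - l) * pm K l M ω)
      = Q ^ 5 * fv (fun ζ => K M ζ ω) (tw ((1 : ℕ) * M : ℤ) (fun ζ => s (EE M ζ)))
          (fun ζ => v2 (EE M ζ) (EE M ω)) 0
        - P ^ 5 * fv (fun ζ => K M ζ ω) (tw (-((4 : ℕ) * M : ℤ)) (fun ζ => s (EE M ζ)))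
          (fun ζ => v2 (EE M ζ) (EE M ω)) 0
        - ∑ l ∈ Finset.range 4, P ^ (l + 1) * Q ^ (3 - l) *
          fv (fun ζ => K M ζ ω) (tw (-((l + 1 : ℕ) * M : ℤ)) (fun ζ => v2 (EE M ζ) (EE M ω)))
            (fun ζ => v2 (EE M ζ) (EE M ω)) 0 := by
  have hC := hD.cx ω
  have ca := (hC.contDiff_frm hs.diff (hD.x2 ω).diff).continuous
  have cb := (hC.contDiff_frm (hD.x1 ω).diff (hD.x2 ω).diff).continuous
  have cc := (hC.contDiff_frm (hD.x2 ω).diff (hD.x2 ω).diff).continuous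
  have e2 : (n2 K M ω : ℂ)
      = avg (fun ζ => frm (K M ζ ω) (v2 (EE M ζ) (EE M ω)) (v2 (EE M ζ) (EE M ω))) 0 := by
    rw [n2, nv, ← avg_ofReal]
    exact avg_congr fun θ => (frm_self (hC.pos _).isHermitian _).symm
  simp only [pm, fv_tw, e2, ← avg_cmul]
  rw [← avg_sum _ (fun _ _ => by fun_prop), ← avg_sum _ (fun _ _ => by fun_prop),
    ← avg_sub (by fun_prop) (by fun_prop), ← avg_sub (by fun_prop) (by fun_prop),
    ← avg_sub (by fun_prop) (by fun_prop), ← avg_cmul]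
  refine avg_congr fun θ => ?_
  simp only [exp_neg_mul, exp_pos_mul]
  set ζ : ℂ := (0 : ℝ) + θ * I
  have h := congrArg (fun w => frm (K M ζ ω) w (v2 (EE M ζ) (EE M ω))) (hspec (EE M ζ))
  simp only [frm_smul_left, frm_sub_left] at h
  have hX : EE M ζ * (EE M ζ)⁻¹ = 1 := mul_inv_cancel₀ (EE_ne_zero M ζ)
  generalize (EE M ζ)⁻¹ = T at *
  generalize frm (K M ζ ω) (s (EE M ζ)) (v2 (EE M ζ) (EE M ω)) = a at *
  generalize frm (K M ζ ω) v1 (v2 (EE M ζ) (EE M ω)) = b at *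
  generalize frm (K M ζ ω) (v2 (EE M ζ) (EE M ω)) (v2 (EE M ζ) (EE M ω)) = c at *
  simp only [Finset.sum_range_succ, Finset.range_zero, Finset.sum_empty]
  norm_num
  linear_combination (-(Q ^ 4 + P * Q ^ 3 * T + P ^ 2 * Q ^ 2 * T ^ 2 + P ^ 3 * Q * T ^ 3
    + P ^ 4 * T ^ 4)) * h
    + (a * (P * Q ^ 4 + P ^ 2 * Q ^ 3 * T + P ^ 3 * Q ^ 2 * T ^ 2 + P ^ 4 * Q * T ^ 3)) * hX

/-- The points of the circle `|y ^ M| = R`. -/
def om (R : ℝ) (i : ℕ × ℝ) : ℂ := rad R i.1 + i.2 * I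

theorem tendsto_mul_fst (l : ℕ) (hl : 1 ≤ l) :
    Tendsto (fun i : ℕ × ℝ => ((l : ℤ) * i.1 : ℤ)) (atTop ×ˢ ⊤) atTop := by
  have h1 : Tendsto (fun i : ℕ × ℝ => (i.1 : ℤ)) (atTop ×ˢ ⊤) atTop :=
    tendsto_natCast_atTop_atTop.comp tendsto_fst
  refine tendsto_atTop_mono (fun i => ?_) h1
  have : (1 : ℤ) ≤ l := by exact_mod_cast hl
  have : (0 : ℤ) ≤ i.1 := Nat.cast_nonneg _
  nlinarith

theorem tendsto_neg_mul_fst (l d : ℕ) (hl : d + 1 ≤ l) :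
    Tendsto (fun i : ℕ × ℝ => (-((l : ℤ) * i.1) + (d * i.1 + 1 : ℕ) : ℤ)) (atTop ×ˢ ⊤) atBot := by
  have h1 : Tendsto (fun i : ℕ × ℝ => -(i.1 : ℤ) + 1) (atTop ×ˢ ⊤) atBot :=
    tendsto_atBot_add_const_right _ _
      (tendsto_neg_atTop_atBot.comp (tendsto_natCast_atTop_atTop.comp tendsto_fst))
  refine tendsto_atBot_mono (fun i => ?_) h1
  have : (d : ℤ) + 1 ≤ l := by exact_mod_cast hl
  have : (0 : ℤ) ≤ i.1 := Nat.cast_nonneg _
  push_cast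
  nlinarith

theorem ev_one_le : ∀ᶠ i : ℕ × ℝ in atTop ×ˢ ⊤, 1 ≤ i.1 :=
  (eventually_ge_atTop 1).prod_inl ⊤

theorem stepA (hD : ∀ M, Data M (K M)) {R B : ℝ} (hR : 1 ≤ R) {P Q : ℂ → ℂ} {s : ℂ → ℂ → V2}
    (hs : ∀ M ω, Sec (fun ζ => K M ζ ω) (3 * M + 1) (fun ζ => s (EE M ζ) (EE M ω)))
    (hspec : ∀ X Y, (Q Y * X - P Y) • s X Y = v2 X Y - Q Y ^ 4 • v1)
    (hb : ∀ Y : ℂ, ‖Y‖ = R → 1 ≤ ‖Q Y‖ ∧ ‖Q Y‖ ≤ B ∧ ‖P Y‖ + 1 ≤ B) :
    (fun i : ℕ × ℝ => (n2 K i.1 (om R i) : ℂ) - ∑ l ∈ Finset.range 5,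
      P (EE i.1 (om R i)) ^ l * Q (EE i.1 (om R i)) ^ (4 - l) * pm K l i.1 (om R i))
      =o[atTop ×ˢ ⊤] fun i => n1 K i.1 (om R i) + n2 K i.1 (om R i) := by
  have hev : ∀ᶠ i : ℕ × ℝ in atTop ×ˢ ⊤, 1 ≤ ‖Q (EE i.1 (om R i))‖ ∧ ‖Q (EE i.1 (om R i))‖ ≤ B
      ∧ ‖P (EE i.1 (om R i))‖ + 1 ≤ B := by
    filter_upwards [ev_one_le] with i hi using hb _ (norm_EE_rad hR hi _)
  have p1 : ∀ i : ℕ × ℝ, 0 ≤ n1 K i.1 (om R i) := fun i => ((hD _).cx _).nv_nonneg _ _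
  have p2 : ∀ i : ℕ × ℝ, 0 ≤ n2 K i.1 (om R i) := fun i => ((hD _).cx _).nv_nonneg _ _
  have hO : (fun i : ℕ × ℝ => nv (fun ζ => K i.1 ζ (om R i))
        (fun ζ => s (EE i.1 ζ) (EE i.1 (om R i))) 0 + n2 K i.1 (om R i))
      =O[atTop ×ˢ ⊤] fun i => n1 K i.1 (om R i) + n2 K i.1 (om R i) := by
    refine IsBigO.of_bound (2 * B ^ 18 + 1) ?_
    filter_upwards [ev_one_le, hev] with i hi ⟨h1, h2, h3⟩
    have := nv_s_le (hD i.1) hi (om R i) (s := fun X => s X (EE i.1 (om R i))) (hs _ _)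
      (fun X => hspec X _) h1 h2 h3
    rw [Real.norm_of_nonneg (add_nonneg (((hD _).cx _).nv_nonneg _ _) (p2 i)),
      Real.norm_of_nonneg (add_nonneg (p1 i) (p2 i))]
    linarith [p1 i]
  have hO2 : (fun i : ℕ × ℝ => n2 K i.1 (om R i) + n2 K i.1 (om R i))
      =O[atTop ×ˢ ⊤] fun i => n1 K i.1 (om R i) + n2 K i.1 (om R i) := by
    refine IsBigO.of_bound 2 (Eventually.of_forall fun i => ?_)
    rw [Real.norm_of_nonneg (add_nonneg (p2 i) (p2 i)),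
      Real.norm_of_nonneg (add_nonneg (p1 i) (p2 i))]
    linarith [p1 i]
  have hk1 := (zero_left (l := atTop ×ˢ ⊤) (fun i : ℕ × ℝ => (hD i.1).cx (om R i))
    (fun i => hs i.1 (om R i)) (fun i => (hD i.1).x2 (om R i))
    (tendsto_mul_fst 1 le_rfl)).trans_isBigO hO
  have hk2 := (zero_right (l := atTop ×ˢ ⊤) (fun i : ℕ × ℝ => (hD i.1).cx (om R i))
    (fun i => hs i.1 (om R i)) (fun i => (hD i.1).x2 (om R i))
    (tendsto_neg_mul_fst 4 3 le_rfl)).trans_isBigO hO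
  have hk3 := fun l : ℕ => (zero_right (l := atTop ×ˢ ⊤) 
    (k := fun i : ℕ × ℝ => -((l + 1 : ℕ) * (i.1 : ℤ)))
    (fun i : ℕ × ℝ => (hD i.1).cx (om R i))
    (fun i => (hD i.1).x2 (om R i)) (fun i => (hD i.1).x2 (om R i))
    (by simpa using tendsto_neg_mul_fst (l + 1) 0 (by simp))).trans_isBigO hO2
  have hsum := ((bdd_mul (c := fun i => Q (EE i.1 (om R i)) ^ 5) (C := B ^ 5) ?_ hk1).sub
    (bdd_mul (c := fun i => P (EE i.1 (om R i)) ^ 5) (C := B ^ 5) ?_ hk2)).sub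
    (IsLittleO.sum (s := Finset.range 4) fun l _ =>
      bdd_mul (c := fun i => P (EE i.1 (om R i)) ^ (l + 1) * Q (EE i.1 (om R i)) ^ (3 - l))
        (C := B ^ (l + 1) * B ^ (3 - l)) ?_ (hk3 l))
  · refine (IsBigO.of_bound 1 ?_).trans_isLittleO hsum
    filter_upwards [hev] with i ⟨h1, _, _⟩
    rw [Finset.sum_apply, ← stepA_id (hD i.1) (om R i) (s := fun X => s X (EE i.1 (om R i))) (hs _ _).toPer
      (fun X => hspec X _), norm_mul, one_mul, norm_pow]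
    exact le_mul_of_one_le_left (norm_nonneg _) (one_le_pow₀ h1)
  · filter_upwards [hev] with i ⟨_, h2, _⟩
    rw [norm_pow]; exact pow_le_pow_left₀ (norm_nonneg _) h2 _
  · filter_upwards [hev] with i ⟨_, _, h3⟩
    rw [norm_pow]; exact pow_le_pow_left₀ (norm_nonneg _) (by linarith) _
  · filter_upwards [hev] with i ⟨_, h2, h3⟩
    rw [norm_mul, norm_pow, norm_pow]
    have := norm_nonneg (P (EE i.1 (om R i)))
    exact mul_le_mul (pow_le_pow_left₀ (norm_nonneg _) (by linarith) _)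
      (pow_le_pow_left₀ (norm_nonneg _) h2 _) (by positivity) (by
        have : 0 ≤ B := by linarith
        positivity)

end Crest.Agent.R258
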