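import Crest.Agent.R258.StepA

/-! The double moments of `⟨v₁, v₂⟩` are negligible. -/

set_option autoImplicit false

noncomputable section

namespace Crest.Agent.R258

open Complex Filter Topology Matrix Real Asymptotics
open scoped ComplexConjugate ComplexOrder

variable (K : ℕ → ℂ → ℂ → M2)

/-- The normalising quantity. -/
def SS (M : ℕ) : ℝ := avg (fun ω => n1 K M ω + n2 K M ω) 0

/-- Double moments. -/
def Pt (l : ℕ) (j : ℤ) (M : ℕ) (ρ : ℝ) : ℂ :=
  avg (fun ω => conj (Complex.exp ((-(j * M) : ℤ) * ω)) * pm K l M ω) ρ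

variable {K}

theorem Data.cont' {M : ℕ} {K : ℂ → ℂ → M2} (hD : Data M K) (i j : Fin 2) :
    Continuous fun q : ℂ × ℂ => K q.2 q.1 i j :=
  (hD.cont i j).comp continuous_swap

theorem continuous_n1 {M : ℕ} (hD : Data M (K M)) : Continuous (n1 K M) :=
  continuous_avg_param (f := fun ω ζ => nrm (K M ζ ω) v1)
    (continuous_nrm hD.cont' continuous_const) 0

theorem continuous_n2 {M : ℕ} (hD : Data M (K M)) : Continuous (n2 K M) :=
  continuous_avg_param (f := fun ω ζ => nrm (K M ζ ω) (v2 (EE M ζ) (EE M ω)))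
    (continuous_nrm hD.cont' (by fun_prop)) 0

theorem continuous_pm {M : ℕ} (hD : Data M (K M)) (l : ℕ) : Continuous (pm K l M) := by
  have : pm K l M = fun ω => avg (fun ζ => Complex.exp ((-(l * M : ℤ) : ℤ) * ζ) *
      frm (K M ζ ω) v1 (v2 (EE M ζ) (EE M ω))) 0 := by
    funext ω; rw [pm, fv_tw]
  rw [this]
  have := continuous_frm (s := fun _ => v1) (u := fun q : ℂ × ℂ => v2 (EE M q.2) (EE M q.1))
    hD.cont' continuous_const (by fun_prop)
  exact continuous_avg_param (f := fun ω ζ => Complex.exp ((-(l * M : ℤ) : ℤ) * ζ) *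
      frm (K M ζ ω) v1 (v2 (EE M ζ) (EE M ω))) (Continuous.mul (by fun_prop) this) 0

theorem avg_n1 {M : ℕ} (hD : Data M (K M)) (ρ : ℝ) :
    avg (n1 K M) ρ = avg (fun ζ => nv (fun ω => K M ζ ω) (fun _ => v1) ρ) 0 :=
  avg_swap (f := fun ω ζ => nrm (K M ζ ω) v1) (continuous_nrm hD.cont' continuous_const) ρ 0

theorem avg_n2 {M : ℕ} (hD : Data M (K M)) (ρ : ℝ) :
    avg (n2 K M) ρ = avg (fun ζ => nv (fun ω => K M ζ ω) (fun ω => v2 (EE M ζ) (EE M ω)) ρ) 0 :=
  avg_swap (f := fun ω ζ => nrm (K M ζ ω) (v2 (EE M ζ) (EE M ω)))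
    (continuous_nrm hD.cont' (by fun_prop)) ρ 0

theorem continuous_m1 {M : ℕ} (hD : Data M (K M)) (ρ : ℝ) :
    Continuous fun ζ => nv (fun ω => K M ζ ω) (fun _ => v1) ρ :=
  continuous_avg_param (f := fun ζ ω => nrm (K M ζ ω) v1)
    (continuous_nrm hD.cont continuous_const) ρ

theorem continuous_m2 {M : ℕ} (hD : Data M (K M)) (ρ : ℝ) :
    Continuous fun ζ => nv (fun ω => K M ζ ω) (fun ω => v2 (EE M ζ) (EE M ω)) ρ :=
  continuous_avg_param (f := fun ζ ω => nrm (K M ζ ω) (v2 (EE M ζ) (EE M ω)))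
    (continuous_nrm hD.cont (by fun_prop)) ρ

theorem SS_eq {M : ℕ} (hD : Data M (K M)) : SS K M = avg (n1 K M) 0 + avg (n2 K M) 0 :=
  avg_add (continuous_n1 hD) (continuous_n2 hD) 0

theorem n1_nonneg {M : ℕ} (hD : Data M (K M)) (ω : ℂ) : 0 ≤ n1 K M ω := (hD.cx _).nv_nonneg _ _

theorem n2_nonneg {M : ℕ} (hD : Data M (K M)) (ω : ℂ) : 0 ≤ n2 K M ω := (hD.cx _).nv_nonneg _ _

theorem SS_nonneg {M : ℕ} (hD : Data M (K M)) : 0 ≤ SS K M :=
  avg_nonneg fun _ => add_nonneg (n1_nonneg hD _) (n2_nonneg hD _)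

theorem SS_growth {M : ℕ} (hD : Data M (K M)) (hM : 1 ≤ M) {R : ℝ} (hR : 1 ≤ R) :
    avg (fun ω => n1 K M ω + n2 K M ω) (rad R M) ≤ R ^ 18 * SS K M := by
  rw [SS_eq hD, avg_add (continuous_n1 hD) (continuous_n2 hD), avg_n1 hD, avg_n1 hD, avg_n2 hD,
    avg_n2 hD, mul_add, ← avg_rmul, ← avg_rmul]
  refine add_le_add ?_ ?_
  · refine avg_mono (continuous_m1 hD _) (continuous_const.mul (continuous_m1 hD _)) fun θ => ?_
    refine ((hD.cy _).growth (hD.y1 _) (rad_nonneg hR M)).trans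
      (mul_le_mul_of_nonneg_right ?_ ((hD.cy _).nv_nonneg _ _))
    have h6 := exp_rad_le hR hM 0
    simp only [zero_mul, zero_add] at h6
    exact h6.trans (pow_le_pow_right₀ hR (by norm_num))
  · refine avg_mono (continuous_m2 hD _) (continuous_const.mul (continuous_m2 hD _)) fun θ => ?_
    exact ((hD.cy _).growth (hD.y2 _) (rad_nonneg hR M)).trans
      (mul_le_mul_of_nonneg_right (exp_rad_le hR hM 8) ((hD.cy _).nv_nonneg _ _))

theorem SS_isBigO (hD : ∀ M, Data M (K M)) {R : ℝ} (hR : 1 ≤ R) :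
    (fun M => avg (fun ω => n1 K M ω + n2 K M ω) (rad R M)) =O[atTop] SS K := by
  refine IsBigO.of_bound (R ^ 18) ?_
  filter_upwards [eventually_ge_atTop 1] with M hM
  rw [Real.norm_of_nonneg (SS_nonneg (hD M)), Real.norm_of_nonneg
    (avg_nonneg fun _ => add_nonneg (n1_nonneg (hD M) _) (n2_nonneg (hD M) _))]
  exact SS_growth (hD M) hM hR

theorem Pt_swap {M : ℕ} (hD : Data M (K M)) (l : ℕ) (j : ℤ) (ρ : ℝ) :
    Pt K l j M ρ = avg (fun ζ => Complex.exp ((-(l * M : ℤ) : ℤ) * ζ) *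
      conj (fv (fun ω => K M ζ ω) (tw (-(j * M)) fun ω => v2 (EE M ζ) (EE M ω))
        (fun _ => v1) ρ)) 0 := by
  have hc := continuous_frm (s := fun _ => v1) (u := fun q : ℂ × ℂ => v2 (EE M q.2) (EE M q.1))
    hD.cont' continuous_const (by fun_prop)
  simp only [Pt, pm, fv_tw, ← avg_conj, ← avg_cmul]
  rw [avg_swap (f := fun ω ζ => conj (Complex.exp ((-(j * M) : ℤ) * ω)) *
    (Complex.exp ((-(l * M : ℤ) : ℤ) * ζ) * frm (K M ζ ω) v1 (v2 (EE M ζ) (EE M ω))))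
    (Continuous.mul (by fun_prop) (Continuous.mul (by fun_prop) hc))]
  refine avg_congr fun θ => avg_congr fun φ => ?_
  rw [map_mul, frm_conj ((hD.cy _).pos _).isHermitian]
  ring

/-- The points of the unit circle. -/
def oz (i : ℕ × ℝ) : ℂ := (0 : ℝ) + i.2 * I

theorem norm_exp_oz (k : ℤ) (i : ℕ × ℝ) : ‖Complex.exp (k * oz i)‖ = 1 := by
  simp [oz, Complex.norm_exp]

theorem continuous_fv_y {M : ℕ} (hD : Data M (K M)) (k : ℤ) (ρ : ℝ) :
    Continuous fun ζ => fv (fun ω => K M ζ ω) (tw k fun ω => v2 (EE M ζ) (EE M ω))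
      (fun _ => v1) ρ := by
  simp only [fv_tw]
  have := continuous_frm (u := fun _ => v1) (s := fun q : ℂ × ℂ => v2 (EE M q.1) (EE M q.2))
    hD.cont (by fun_prop) continuous_const
  exact continuous_avg_param (f := fun ζ ω => Complex.exp (k * ω) *
      frm (K M ζ ω) (v2 (EE M ζ) (EE M ω)) v1) (Continuous.mul (by fun_prop) this) ρ

theorem stepC (hD : ∀ M, Data M (K M)) {R : ℝ} (hR : 1 ≤ R) (l : ℕ) (j : ℤ) :
    (fun M => Pt K l j M (rad R M) - Pt K l j M 0) =o[atTop] SS K := by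
  have h1 := const_radius (l := atTop ×ˢ ⊤) (k := fun i : ℕ × ℝ => -(j * i.1))
    (fun i => (hD i.1).cy (oz i)) (fun i => (hD i.1).y2 (oz i)) (fun i => (hD i.1).y1 (oz i))
    (ρ := fun i => rad R i.1) (fun i => rad_nonneg hR _) ((tendsto_rad R).comp tendsto_fst)
    (C := (|(j : ℝ)| + 9) * Real.log R) (by
      filter_upwards [ev_one_le] with i hi
      have e1 := mul_rad R hi
      have e2 := rad_le hR hi
      push_cast
      rw [abs_neg, abs_mul, Nat.abs_cast, show (|(j : ℝ)| * i.1 + (8 * i.1 + 1)) * rad R i.1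
        = (|(j : ℝ)| + 8) * (i.1 * rad R i.1) + rad R i.1 by ring, e1]
      linarith)
  have h2 := avg_littleO (ρ := fun _ => 0)
    (f := fun M ζ => Complex.exp ((-(l * M : ℤ) : ℤ) * ζ) *
      conj (fv (fun ω => K M ζ ω) (tw (-(j * M)) fun ω => v2 (EE M ζ) (EE M ω))
        (fun _ => v1) (rad R M)) - Complex.exp ((-(l * M : ℤ) : ℤ) * ζ) *
      conj (fv (fun ω => K M ζ ω) (tw (-(j * M)) fun ω => v2 (EE M ζ) (EE M ω))
        (fun _ => v1) 0))
    (g := fun M ζ => nv (fun ω => K M ζ ω) (fun ω => v2 (EE M ζ) (EE M ω)) 0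
      + nv (fun ω => K M ζ ω) (fun _ => v1) 0)
    (fun M => (continuous_m2 (hD M) 0).add (continuous_m1 (hD M) 0))
    (fun M ζ => add_nonneg (((hD M).cy _).nv_nonneg _ _) (((hD M).cy _).nv_nonneg _ _))
    (by
      refine (IsBigO.of_bound 1 (Eventually.of_forall fun i => ?_)).trans_isLittleO h1
      rw [← mul_sub, ← map_sub, norm_mul, Complex.norm_conj]
      exact mul_le_mul_of_nonneg_right (norm_exp_oz _ i).le (norm_nonneg _))
  refine h2.congr (fun M => ?_) (fun M => ?_)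
  · have c1 := continuous_fv_y (hD M) (-(j * M)) (rad R M)
    have c2 := continuous_fv_y (hD M) (-(j * M)) 0
    rw [avg_sub (by fun_prop) (by fun_prop), Pt_swap (hD M), Pt_swap (hD M)]
  · rw [avg_add (continuous_m2 (hD M) 0) (continuous_m1 (hD M) 0), SS_eq (hD M), avg_n1 (hD M),
      avg_n2 (hD M), add_comm]

theorem conj_exp_mul_pow {M : ℕ} {ω : ℂ} {R : ℝ} (h : ‖EE M ω‖ = R) (k : ℤ) (a : ℕ) :
    conj (Complex.exp ((-(k * M) : ℤ) * ω)) * EE M ω ^ a
      = ((R : ℂ) ^ 2) ^ a * conj (Complex.exp ((-((k + a) * M) : ℤ) * ω)) := by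
  have e : Complex.exp ((-((k + a) * M) : ℤ) * ω)
      = Complex.exp ((-(k * M) : ℤ) * ω) * (EE M ω)⁻¹ ^ a := by
    rw [← exp_neg_mul, ← Complex.exp_add]; congr 1; push_cast; ring
  have h2 : (R : ℂ) ^ 2 = EE M ω * conj (EE M ω) := by
    rw [mul_conj, normSq_eq_norm_sq, h]; push_cast; ring
  have h3 : conj (EE M ω) ≠ 0 := by simpa using EE_ne_zero M ω
  rw [e, h2, map_mul, map_pow, map_inv₀, mul_pow, inv_pow]
  field_simp

/-- Coefficients of the forms `P₁ ^ l Q₁ ^ (4 - l) - P₂ ^ l Q₂ ^ (4 - l)`. -/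
def omc : Fin 8 → Fin 5 → ℂ :=
  ![![0, 0, 0, 0, 0], ![4, -2, 0, 0, 0], ![6, -8, 4, 0, 0], ![4, -9, 12, -8, 0],
    ![1, -5, 12, -20, 16], ![0, -1, 6, -18, 32], ![0, 0, 1, -8, 24], ![0, 0, 0, -1, 8]]

theorem omc_spec (Y n : ℂ) (p : ℕ → ℂ) :
    (n - ∑ l ∈ Finset.range 5, (Y ^ 2) ^ l * 1 ^ (4 - l) * p l)
      - (n - ∑ l ∈ Finset.range 5, (-Y ^ 2 - 2 * Y) ^ l * (1 + Y) ^ (4 - l) * p l)
      = ∑ a : Fin 8, ∑ l : Fin 5, omc a l * (Y ^ (a : ℕ) * p l) := by
  simp [Finset.sum_range_succ, Fin.sum_univ_succ, omc]; ring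

theorem bound1 {R : ℝ} (hR : 2 ≤ R) (Y : ℂ) (hY : ‖Y‖ = R) :
    1 ≤ ‖1 + Y‖ ∧ ‖1 + Y‖ ≤ R ^ 2 + 2 * R + 1 ∧ ‖-Y ^ 2 - 2 * Y‖ + 1 ≤ R ^ 2 + 2 * R + 1 := by
  refine ⟨?_, ?_, ?_⟩
  · have := norm_sub_norm_le Y (-1)
    rw [hY, norm_neg, norm_one, sub_neg_eq_add, add_comm] at this
    linarith
  · have := norm_add_le (1 : ℂ) Y
    rw [hY, norm_one] at this
    nlinarith
  · have := norm_sub_le (-Y ^ 2) (2 * Y)
    rw [norm_neg, norm_pow, norm_mul, hY] at this
    simp at this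
    linarith

theorem bound2 {R : ℝ} (Y : ℂ) (hY : ‖Y‖ = R) :
    1 ≤ ‖(1 : ℂ)‖ ∧ ‖(1 : ℂ)‖ ≤ R ^ 2 + 1 ∧ ‖Y ^ 2‖ + 1 ≤ R ^ 2 + 1 := by
  refine ⟨by simp, by simp [sq_nonneg], by rw [norm_pow, hY]⟩

theorem stepA2 (hD : ∀ M, Data M (K M)) {R : ℝ} (hR : 1 ≤ R) :
    (fun i : ℕ × ℝ => (n2 K i.1 (om R i) : ℂ) - ∑ l ∈ Finset.range 5,
      (EE i.1 (om R i) ^ 2) ^ l * 1 ^ (4 - l) * pm K l i.1 (om R i))
      =o[atTop ×ˢ ⊤] fun i => n1 K i.1 (om R i) + n2 K i.1 (om R i) :=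
  stepA hD hR (P := fun Y => Y ^ 2) (Q := fun _ => 1) (fun M ω => (hD M).xs2 ω) s2_spec bound2

theorem stepB (hD : ∀ M, Data M (K M)) {R : ℝ} (hR : 2 ≤ R) (k : ℤ) :
    (fun M => ∑ a : Fin 8, ((R : ℂ) ^ 2) ^ (a : ℕ) * ∑ l : Fin 5, omc a l * Pt K l (k + a) M 0)
      =o[atTop] SS K := by
  have hR1 : 1 ≤ R := by linarith
  have h1 := (stepA2 hD hR1).sub (stepA hD hR1 (P := fun Y => -Y ^ 2 - 2 * Y)
    (Q := fun Y => 1 + Y) (fun M ω => (hD M).xs1 ω) s1_spec (bound1 hR))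
  simp only [omc_spec] at h1
  have h2 := bdd_mul (c := fun i : ℕ × ℝ => conj (Complex.exp ((-(k * i.1) : ℤ) * om R i)))
    (C := Real.exp (-k * Real.log R)) (by
      filter_upwards [ev_one_le] with i hi
      rw [Complex.norm_conj, Complex.norm_exp, ← mul_rad R hi]
      apply le_of_eq; congr 1
      simp [om]; ring) h1
  have h3 := (avg_littleO (ρ := rad R)
    (f := fun M ω => conj (Complex.exp ((-(k * M) : ℤ) * ω)) *
      ∑ a : Fin 8, ∑ l : Fin 5, omc a l * (EE M ω ^ (a : ℕ) * pm K l M ω))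
    (g := fun M ω => n1 K M ω + n2 K M ω)
    (fun M => (continuous_n1 (hD M)).add (continuous_n2 (hD M)))
    (fun M ω => add_nonneg (n1_nonneg (hD M) _) (n2_nonneg (hD M) _)) h2).trans_isBigO
    (SS_isBigO hD hR1)
  have h4 : (fun M => ∑ a : Fin 8, ((R : ℂ) ^ 2) ^ (a : ℕ) *
      ∑ l : Fin 5, omc a l * Pt K l (k + a) M (rad R M)) =o[atTop] SS K := by
    refine h3.congr' ?_ EventuallyEq.rfl
    filter_upwards [eventually_ge_atTop 1] with M hM
    have c := continuous_pm (hD M)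
    simp only [Pt, ← avg_cmul, Finset.mul_sum]
    rw [avg_sum _ (fun a _ => continuous_finsetSum _ fun l _ => by have := c l; fun_prop)]
    refine Finset.sum_congr rfl fun a _ => ?_
    rw [avg_sum _ (fun l _ => by have := c l; fun_prop)]
    refine Finset.sum_congr rfl fun l _ => avg_congr fun θ => ?_
    have := conj_exp_mul_pow (norm_EE_rad hR1 hM θ) k a
    linear_combination (omc a l * pm K l M (rad R M + θ * I)) * this
  have h5 : (fun M => ∑ a : Fin 8, ((R : ℂ) ^ 2) ^ (a : ℕ) *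
      ∑ l : Fin 5, omc a l * (Pt K l (k + a) M (rad R M) - Pt K l (k + a) M 0))
      =o[atTop] SS K :=
    IsLittleO.fun_sum fun a _ => (IsLittleO.fun_sum fun (l : Fin 5) _ =>
      (stepC hD hR1 l (k + a)).const_mul_left _).const_mul_left _
  refine (h4.sub h5).congr_left fun M => ?_
  rw [← Finset.sum_sub_distrib]
  refine Finset.sum_congr rfl fun a _ => ?_
  rw [← mul_sub, ← Finset.sum_sub_distrib]
  congr 1
  exact Finset.sum_congr rfl fun l _ => by ring

theorem vandermonde_littleO {ι : Type*} {l : Filter ι} {n : ℕ} {x : Fin n → ℂ}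
    (hx : Function.Injective x) {f : Fin n → ι → ℂ} {g : ι → ℝ}
    (h : ∀ r, (fun i => ∑ a : Fin n, x r ^ (a : ℕ) * f a i) =o[l] g) (a : Fin n) :
    f a =o[l] g := by
  have hV : IsUnit (vandermonde x).det :=
    isUnit_iff_ne_zero.2 (det_vandermonde_ne_zero_iff.2 hx)
  refine (IsLittleO.fun_sum (s := Finset.univ) fun r _ =>
    (h r).const_mul_left ((vandermonde x)⁻¹ a r)).congr_left fun i => ?_
  have := congrFun (show (vandermonde x)⁻¹ *ᵥ (vandermonde x *ᵥ fun b => f b i) = fun b => f b i by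
    rw [mulVec_mulVec, nonsing_inv_mul _ hV, one_mulVec]) a
  simpa [mulVec, dotProduct, vandermonde_apply] using this

theorem stepD (hD : ∀ M, Data M (K M)) (l : Fin 5) (j : ℤ) :
    (fun M => Pt K l j M 0) =o[atTop] SS K := by
  have h : ∀ a : Fin 8, (fun M => ∑ l : Fin 5, omc a l * Pt K l j M 0) =o[atTop] SS K := by
    intro a
    have := vandermonde_littleO (x := fun r : Fin 8 => ((((r : ℕ) + 2 : ℝ) : ℂ)) ^ 2)
      (f := fun b M => ∑ l : Fin 5, omc b l * Pt K l (j - a + b) M 0) (by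
        intro r r' hr
        simp only at hr
        have h1 : (((r : ℕ) : ℝ) + 2) ^ 2 = (((r' : ℕ) : ℝ) + 2) ^ 2 := by exact_mod_cast hr
        rw [pow_left_inj₀ (by positivity) (by positivity) (by norm_num)] at h1
        exact Fin.ext (by exact_mod_cast add_right_cancel h1))
      (fun r => stepB hD (le_add_of_nonneg_left (Nat.cast_nonneg _)) (j - a)) a
    simpa only [sub_add_cancel] using this
  have h1 := h 1
  have h4 := h 4
  have h5 := h 5
  have h6 := h 6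
  have h7 := h 7
  simp [omc, Fin.sum_univ_succ] at h1 h4 h5 h6 h7
  have p4 : (fun M => Pt K 4 j M 0) =o[atTop] SS K :=
    ((((h1.sub (h4.const_mul_left 4)).add (h5.const_mul_left 18)).sub
      (h6.const_mul_left 60)).add (h7.const_mul_left 236)).const_mul_left (1 / 960)
      |>.congr_left fun M => by ring
  have p3 : (fun M => Pt K 3 j M 0) =o[atTop] SS K :=
    ((p4.const_mul_left 8).sub h7).congr_left fun M => by ring
  have p2 : (fun M => Pt K 2 j M 0) =o[atTop] SS K :=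
    ((h6.add (p3.const_mul_left 8)).sub (p4.const_mul_left 24)).congr_left fun M => by ring
  have p1 : (fun M => Pt K 1 j M 0) =o[atTop] SS K :=
    ((((p2.const_mul_left 6).sub (p3.const_mul_left 18)).add (p4.const_mul_left 32)).sub
      h5).congr_left fun M => by ring
  have p0 : (fun M => Pt K 0 j M 0) =o[atTop] SS K :=
    ((h1.add (p1.const_mul_left 2)).const_mul_left (1 / 4)).congr_left fun M => by ring
  fin_cases l
  exacts [p0, p1, p2, p3, p4]

end Crest.Agent.R258
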