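import Crest.Agent.R258.StepB

/-! The contradiction: for large `M` there is no Griffiths positive metric on `E_M`. -/

set_option autoImplicit false

noncomputable section

namespace Crest.Agent.R258

open Complex Filter Topology Matrix Real Asymptotics Crest.AlgGeometry.QuadricBundle
open scoped ComplexConjugate ComplexOrder

variable {K : ℕ → ℂ → ℂ → M2}

theorem stepD' (hD : ∀ M, Data M (K M)) {l : ℕ} (hl : l ∈ Finset.range 5) (j : ℤ) :
    (fun M => Pt K l j M 0) =o[atTop] SS K :=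
  stepD hD ⟨l, Finset.mem_range.1 hl⟩ j

theorem stepE (hD : ∀ M, Data M (K M)) : (fun M => avg (n2 K M) 0) =o[atTop] SS K := by
  have hR : (1 : ℝ) ≤ 1 := le_rfl
  have h3 := (avg_littleO (ρ := rad 1)
    (f := fun M ω => (n2 K M ω : ℂ) - ∑ l ∈ Finset.range 5,
      (EE M ω ^ 2) ^ l * 1 ^ (4 - l) * pm K l M ω)
    (g := fun M ω => n1 K M ω + n2 K M ω)
    (fun M => (continuous_n1 (hD M)).add (continuous_n2 (hD M)))
    (fun M ω => add_nonneg (n1_nonneg (hD M) _) (n2_nonneg (hD M) _))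
    (stepA2 hD hR)).trans_isBigO (SS_isBigO hD hR)
  have h4 := h3.add (IsLittleO.fun_sum (s := Finset.range 5) fun l hl =>
    stepD' hD hl (0 + (2 * l : ℕ)))
  rw [← Complex.isLittleO_ofReal_left]
  refine h4.congr' ?_ EventuallyEq.rfl
  filter_upwards [eventually_ge_atTop 1] with M hM
  have c := continuous_pm (hD M)
  have c2 := continuous_n2 (hD M)
  have hr : rad 1 M = 0 := by simp [rad]
  rw [avg_sub (by fun_prop) (continuous_finsetSum _ fun l _ => by have := c l; fun_prop),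
    avg_sum _ (fun l _ => by have := c l; fun_prop), avg_ofReal, hr, sub_add, sub_eq_self,
    sub_eq_zero]
  refine Finset.sum_congr rfl fun l _ => avg_congr fun θ => ?_
  have h5 := norm_EE_rad hR hM θ
  rw [hr] at h5
  have := conj_exp_mul_pow h5 0 (2 * l)
  simp only [zero_mul, neg_zero, Int.cast_zero, Complex.exp_zero, map_one, one_mul, ofReal_one,
    one_pow] at this
  rw [← this, ← pow_mul, one_pow, mul_one]

theorem stepF_id {M : ℕ} (hD : Data M (K M)) (ζ : ℂ) :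
    (nv (fun ω => K M ζ ω) (fun _ => v1) 0 : ℂ)
      - ∑ l ∈ Finset.range 5, EE M ζ ^ l * fv (fun ω => K M ζ ω)
          (tw (-((2 * l : ℕ) * M : ℤ)) fun ω => v2 (EE M ζ) (EE M ω)) (fun _ => v1) 0
      = fv (fun ω => K M ζ ω) (tw ((2 : ℕ) * M : ℤ) (fun ω => s2 (EE M ζ) (EE M ω)))
          (fun _ => v1) 0
        - EE M ζ ^ 5 * fv (fun ω => K M ζ ω)
          (tw (-((8 : ℕ) * M : ℤ)) (fun ω => s2 (EE M ζ) (EE M ω))) (fun _ => v1) 0
        - ∑ l ∈ Finset.range 4, EE M ζ ^ (l + 1) *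
          fv (fun ω => K M ζ ω) (tw (-((2 * l + 2 : ℕ) * M : ℤ)) (fun _ => v1))
            (fun _ => v1) 0 := by
  have hC := hD.cy ζ
  have ca := (hC.contDiff_frm (hD.ys2 ζ).diff (hD.y1 ζ).diff).continuous
  have cb := (hC.contDiff_frm (hD.y2 ζ).diff (hD.y1 ζ).diff).continuous
  have cc := (hC.contDiff_frm (hD.y1 ζ).diff (hD.y1 ζ).diff).continuous
  have e2 : (nv (fun ω => K M ζ ω) (fun _ => v1) 0 : ℂ)
      = avg (fun ω => frm (K M ζ ω) v1 v1) 0 := by
    rw [nv, ← avg_ofReal]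
    exact avg_congr fun θ => (frm_self (hC.pos _).isHermitian _).symm
  simp only [fv_tw, e2, ← avg_cmul]
  rw [← avg_sum _ (fun _ _ => by fun_prop), ← avg_sum _ (fun _ _ => by fun_prop),
    ← avg_sub (by fun_prop) (by fun_prop), ← avg_sub (by fun_prop) (by fun_prop),
    ← avg_sub (by fun_prop) (by fun_prop)]
  refine avg_congr fun θ => ?_
  simp only [exp_neg_mul, exp_pos_mul]
  set ω : ℂ := (0 : ℝ) + θ * I
  have h := congrArg (fun w => frm (K M ζ ω) w v1) (s2_spec (EE M ζ) (EE M ω))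
  simp only [frm_smul_left, frm_sub_left] at h
  have hX : EE M ω * (EE M ω)⁻¹ = 1 := mul_inv_cancel₀ (EE_ne_zero M ω)
  generalize (EE M ω)⁻¹ = T at *
  generalize frm (K M ζ ω) (s2 (EE M ζ) (EE M ω)) v1 = a at *
  generalize frm (K M ζ ω) (v2 (EE M ζ) (EE M ω)) v1 = b at *
  generalize frm (K M ζ ω) v1 v1 = c at *
  generalize EE M ω = Y at *
  generalize EE M ζ = X at *
  simp only [Finset.sum_range_succ, Finset.range_zero, Finset.sum_empty]
  norm_num
  linear_combination (1 + X * T ^ 2 + X ^ 2 * T ^ 4 + X ^ 3 * T ^ 6 + X ^ 4 * T ^ 8) * h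
    + (a * (X + X ^ 2 * T ^ 2 + X ^ 3 * T ^ 4 + X ^ 4 * T ^ 6) * (Y * T + 1)) * hX

theorem norm_EE_oz (i : ℕ × ℝ) : ‖EE i.1 (oz i)‖ = 1 := by
  simp [norm_EE, oz]

theorem continuous_ms2 {M : ℕ} (hD : Data M (K M)) (ρ : ℝ) :
    Continuous fun ζ => nv (fun ω => K M ζ ω) (fun ω => s2 (EE M ζ) (EE M ω)) ρ :=
  continuous_avg_param (f := fun ζ ω => nrm (K M ζ ω) (s2 (EE M ζ) (EE M ω)))
    (continuous_nrm hD.cont (by fun_prop)) ρ

theorem stepF (hD : ∀ M, Data M (K M)) : (fun M => avg (n1 K M) 0) =o[atTop] SS K := by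
  have p1 : ∀ M ζ, 0 ≤ nv (fun ω => K M ζ ω) (fun _ => v1) 0 :=
    fun M ζ => ((hD _).cy _).nv_nonneg _ _
  have p2 : ∀ M ζ, 0 ≤ nv (fun ω => K M ζ ω) (fun ω => s2 (EE M ζ) (EE M ω)) 0 :=
    fun M ζ => ((hD _).cy _).nv_nonneg _ _
  have hO2 : (fun i : ℕ × ℝ => nv (fun ω => K i.1 (oz i) ω) (fun _ => v1) 0
        + nv (fun ω => K i.1 (oz i) ω) (fun _ => v1) 0) =O[atTop ×ˢ ⊤]
      fun i => nv (fun ω => K i.1 (oz i) ω) (fun ω => s2 (EE i.1 (oz i)) (EE i.1 ω)) 0
        + nv (fun ω => K i.1 (oz i) ω) (fun _ => v1) 0 := by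
    refine IsBigO.of_bound 2 (Eventually.of_forall fun i => ?_)
    rw [Real.norm_of_nonneg (add_nonneg (p1 _ _) (p1 _ _)),
      Real.norm_of_nonneg (add_nonneg (p2 _ _) (p1 _ _))]
    linarith [p2 i.1 (oz i)]
  have hk1 := zero_left (l := atTop ×ˢ ⊤) (fun i : ℕ × ℝ => (hD i.1).cy (oz i))
    (fun i => (hD i.1).ys2 (oz i)) (fun i => (hD i.1).y1 (oz i)) (tendsto_mul_fst 2 (by norm_num))
  have hk2 := zero_right (l := atTop ×ˢ ⊤) (fun i : ℕ × ℝ => (hD i.1).cy (oz i))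
    (fun i => (hD i.1).ys2 (oz i)) (fun i => (hD i.1).y1 (oz i))
    (tendsto_neg_mul_fst 8 6 (by norm_num))
  have hk3 := fun l : ℕ => (zero_right (l := atTop ×ˢ ⊤)
    (k := fun i : ℕ × ℝ => -((2 * l + 2 : ℕ) * (i.1 : ℤ)))
    (fun i : ℕ × ℝ => (hD i.1).cy (oz i))
    (fun i => (hD i.1).y1 (oz i)) (fun i => (hD i.1).y1 (oz i))
    (by simpa using tendsto_neg_mul_fst (2 * l + 2) 0 (by simp))).trans_isBigO hO2
  have hsum := (hk1.sub (bdd_mul (c := fun i => EE i.1 (oz i) ^ 5) (C := 1)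
    (Eventually.of_forall fun i => by simp [norm_EE_oz]) hk2)).sub
    (IsLittleO.fun_sum (s := Finset.range 4) fun l _ =>
      bdd_mul (c := fun i => EE i.1 (oz i) ^ (l + 1)) (C := 1)
        (Eventually.of_forall fun i => by simp [norm_EE_oz]) (hk3 l))
  have h2 := avg_littleO (ρ := fun _ => 0)
    (f := fun M ζ => (nv (fun ω => K M ζ ω) (fun _ => v1) 0 : ℂ)
      - ∑ l ∈ Finset.range 5, EE M ζ ^ l * fv (fun ω => K M ζ ω)
          (tw (-((2 * l : ℕ) * M : ℤ)) fun ω => v2 (EE M ζ) (EE M ω)) (fun _ => v1) 0)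
    (g := fun M ζ => nv (fun ω => K M ζ ω) (fun ω => s2 (EE M ζ) (EE M ω)) 0
      + nv (fun ω => K M ζ ω) (fun _ => v1) 0)
    (fun M => (continuous_ms2 (hD M) 0).add (continuous_m1 (hD M) 0))
    (fun M ζ => add_nonneg (p2 _ _) (p1 _ _))
    (hsum.congr_left fun i => (stepF_id (hD i.1) (oz i)).symm)
  have hO : (fun M => avg (fun ζ => nv (fun ω => K M ζ ω) (fun ω => s2 (EE M ζ) (EE M ω)) 0
      + nv (fun ω => K M ζ ω) (fun _ => v1) 0) 0) =O[atTop] SS K := by
    refine IsBigO.of_bound (2 * 2 ^ 18 + 1) ?_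
    filter_upwards [eventually_ge_atTop 1] with M hM
    rw [Real.norm_of_nonneg (SS_nonneg (hD M)), Real.norm_of_nonneg
      (avg_nonneg fun _ => add_nonneg (p2 _ _) (p1 _ _)),
      avg_add (continuous_ms2 (hD M) 0) (continuous_m1 (hD M) 0), ← avg_n1 (hD M)]
    have e : avg (fun ζ => nv (fun ω => K M ζ ω) (fun ω => s2 (EE M ζ) (EE M ω)) 0) 0
        = avg (fun ω => nv (fun ζ => K M ζ ω) (fun ζ => s2 (EE M ζ) (EE M ω)) 0) 0 :=
      avg_swap (f := fun ζ ω => nrm (K M ζ ω) (s2 (EE M ζ) (EE M ω)))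
        (continuous_nrm (hD M).cont (by fun_prop)) 0 0
    have h3 : avg (fun ω => nv (fun ζ => K M ζ ω) (fun ζ => s2 (EE M ζ) (EE M ω)) 0) 0
        ≤ 2 * 2 ^ 18 * SS K M := by
      rw [SS, ← avg_rmul]
      have c1 := continuous_n1 (hD M)
      have c2 := continuous_n2 (hD M)
      refine avg_mono (continuous_avg_param
        (f := fun ω ζ => nrm (K M ζ ω) (s2 (EE M ζ) (EE M ω)))
        (continuous_nrm (hD M).cont' (by fun_prop)) 0) (by fun_prop) fun θ => ?_
      refine nv_s_le (hD M) hM _ (s := fun X => s2 X _) ((hD M).xs2 _) (fun X => s2_spec X _)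
        (by simp) (by simp) ?_
      have := norm_EE_oz (M, θ)
      simp only [oz] at this
      rw [norm_pow, this]; norm_num
    have h4 : 0 ≤ avg (n2 K M) 0 := avg_nonneg fun _ => n2_nonneg (hD M) _
    have h5 := SS_eq (hD M)
    rw [e]; linarith
  have h4 := (h2.trans_isBigO hO).add (IsLittleO.fun_sum (s := Finset.range 5) fun l hl =>
    (isBigO_of_le (f := fun M => conj (Pt K l (2 * l : ℕ) M 0)) _
      (fun M => (Complex.norm_conj _).le)).trans_isLittleO (stepD' hD hl (2 * l : ℕ)))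
  rw [← Complex.isLittleO_ofReal_left]
  refine h4.congr_left fun M => ?_
  have c : ∀ l : ℕ, Continuous fun ζ => EE M ζ ^ l * fv (fun ω => K M ζ ω)
      (tw (-((2 * l : ℕ) * M : ℤ)) fun ω => v2 (EE M ζ) (EE M ω)) (fun _ => v1) 0 :=
    fun l => Continuous.mul (by fun_prop) (continuous_fv_y (hD M) _ _)
  have c2 := continuous_m1 (hD M) 0
  rw [avg_sub (by fun_prop) (continuous_finsetSum _ fun l _ => c l),
    avg_sum _ (fun l _ => c l), avg_ofReal, avg_n1 (hD M),
    sub_add, sub_eq_self, sub_eq_zero]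
  refine Finset.sum_congr rfl fun l _ => ?_
  rw [Pt_swap (hD M), ← avg_conj]
  refine avg_congr fun θ => ?_
  rw [map_mul, conj_conj]
  congr 1
  have := conj_exp_mul_pow (norm_EE_oz (M, θ)) 0 l
  simpa [oz] using this

theorem SS_pos {M : ℕ} (hD : Data M (K M)) : 0 < SS K M := by
  have h1 : ∀ ω, 0 < n1 K M ω := fun ω =>
    intervalIntegral.intervalIntegral_pos_of_pos
      (intervalIntegrable_avg ((hD.cx ω).contDiff_nrm (hD.x1 ω).diff).continuous 0)
      (fun θ => nrm_pos ((hD.cx ω).pos _) (by simp [v1])) (by linarith [pi_pos])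
  exact intervalIntegral.intervalIntegral_pos_of_pos
    (intervalIntegrable_avg ((continuous_n1 hD).add (continuous_n2 hD)) 0)
    (fun θ => add_pos_of_pos_of_nonneg (h1 _) (n2_nonneg hD _)) (by linarith [pi_pos])

theorem no_data (hD : ∀ M, Data M (K M)) : False := by
  have h := ((stepF hD).add (stepE hD)).congr_left fun M => (SS_eq (hD M)).symm
  exact isLittleO_irrefl (Frequently.of_forall fun M => (SS_pos (hD M)).ne') h

theorem exists_not_griffiths : ∃ M : ℕ, ∀ H : MetricData 2,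
    IsHermitianMetric (gE M) H → ¬ IsGriffithsPositive H := by
  by_contra hcon
  push Not at hcon
  choose H h1 h2 using hcon
  exact no_data (K := fun M => KK (H M)) fun M => data_KK (h1 M) (h2 M)

end Crest.Agent.R258
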